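import Crest.Agent.R330.IA2

/-! # Row 330, B0/A (statements frozen; see `R330/Blueprint.lean`) -/

set_option autoImplicit false
set_option linter.unusedSectionVars false

noncomputable section

open MeasureTheory Filter Topology
open scoped InnerProductSpace ContDiff Matrix
open Crest.MathPhysics.MatrixQM (GammaNine)

namespace Crest.Agent.R330

variable {E Z L H F : Type}
  [NormedAddCommGroup E] [InnerProductSpace ℝ E] [FiniteDimensional ℝ E]
  [NormedAddCommGroup Z] [InnerProductSpace ℝ Z] [FiniteDimensional ℝ Z]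
  [NormedAddCommGroup L] [InnerProductSpace ℝ L] [FiniteDimensional ℝ L]
  [NormedAddCommGroup H] [InnerProductSpace ℝ H] [FiniteDimensional ℝ H]
  [NormedAddCommGroup F] [InnerProductSpace ℂ F] [FiniteDimensional ℂ F]
  {P : Type} [Fintype P] {𝔤 : Lie E} (D : Levi 𝔤 Z L H P)

/-! ### auxiliary lemmas -/

section b0aAux

variable {A B V : Type} [NormedAddCommGroup A] [InnerProductSpace ℝ A] [FiniteDimensional ℝ A]
  [NormedAddCommGroup B] [InnerProductSpace ℝ B] [FiniteDimensional ℝ B]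
  [NormedAddCommGroup V] [InnerProductSpace ℝ V] [FiniteDimensional ℝ V]

theorem b0a_adj_self (ι : A →ₗᵢ[ℝ] V) (a : A) : LinearMap.adjoint ι.toLinearMap (ι a) = a := by
  refine ext_inner_left ℝ fun w => ?_
  rw [LinearMap.adjoint_inner_right]
  exact ι.inner_map_map w a

theorem b0a_adj_orth (ι : A →ₗᵢ[ℝ] V) (κ : B →ₗᵢ[ℝ] V) (h : ∀ a b, ⟪ι a, κ b⟫_ℝ = 0) (b : B) :
    LinearMap.adjoint ι.toLinearMap (κ b) = 0 := by
  refine ext_inner_left ℝ fun w => ?_
  rw [LinearMap.adjoint_inner_right, inner_zero_right]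
  exact h w b

theorem b0a_adj_orth' (ι : A →ₗᵢ[ℝ] V) (κ : B →ₗᵢ[ℝ] V) (h : ∀ a b, ⟪ι a, κ b⟫_ℝ = 0) (a : A) :
    LinearMap.adjoint κ.toLinearMap (ι a) = 0 :=
  b0a_adj_orth κ ι (fun b a => by rw [real_inner_comm]; exact h a b) a

theorem b0a_liftI_orth {n : ℕ} (ι : A →ₗᵢ[ℝ] V) (κ : B →ₗᵢ[ℝ] V) (h : ∀ a b, ⟪ι a, κ b⟫_ℝ = 0)
    (a : T n A) (b : T n B) : ⟪liftI n ι a, liftI n κ b⟫_ℝ = 0 := by
  simp only [PiLp.inner_apply, liftI_apply, h, Finset.sum_const_zero]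

theorem b0a_liftI_orth' {n : ℕ} (ι : A →ₗᵢ[ℝ] V) (κ : B →ₗᵢ[ℝ] V) (h : ∀ a b, ⟪ι a, κ b⟫_ℝ = 0)
    (a : T n A) (b : T n B) : ⟪liftI n κ b, liftI n ι a⟫_ℝ = 0 := by
  rw [real_inner_comm]
  exact b0a_liftI_orth ι κ h a b

/-- `Σ_j β(a f_j)(b f_j) = Σ_i β(a bᵀ e_i)(e_i)`. -/
theorem b0a_sum_adj {W : Type} [AddCommGroup W] [Module ℝ W] (β : V →ₗ[ℝ] V →ₗ[ℝ] W)
    (a b : A →ₗ[ℝ] V) :
    ∑ j, β (a (stdOrthonormalBasis ℝ A j)) (b (stdOrthonormalBasis ℝ A j)) =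
      ∑ i, β (a (LinearMap.adjoint b (stdOrthonormalBasis ℝ V i))) (stdOrthonormalBasis ℝ V i) := by
  calc _ = ∑ j, ∑ i, ⟪stdOrthonormalBasis ℝ V i, b (stdOrthonormalBasis ℝ A j)⟫_ℝ •
          β (a (stdOrthonormalBasis ℝ A j)) (stdOrthonormalBasis ℝ V i) := by
        refine Finset.sum_congr rfl fun j _ => ?_
        conv_lhs => enter [2]; rw [← (stdOrthonormalBasis ℝ V).sum_repr' (b _)]
        simp only [map_sum, map_smul]
    _ = _ := by
        rw [Finset.sum_comm]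
        refine Finset.sum_congr rfl fun i _ => ?_
        conv_rhs => enter [1, 2, 2]; rw [← (stdOrthonormalBasis ℝ A).sum_repr' (LinearMap.adjoint b _)]
        simp only [map_sum, map_smul, LinearMap.sum_apply, LinearMap.smul_apply,
          LinearMap.adjoint_inner_right, real_inner_comm]

/-- A nonnegative quadratic form has a smaller trace after an orthogonal projection. -/
theorem b0a_sum_proj_le (β : V →ₗ[ℝ] V →ₗ[ℝ] ℝ) (hβ : ∀ v, 0 ≤ β v v) (Q : V →ₗ[ℝ] V)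
    (hs : ∀ u v, ⟪Q u, v⟫_ℝ = ⟪u, Q v⟫_ℝ) (hi : ∀ v, Q (Q v) = Q v) :
    ∑ i, β (stdOrthonormalBasis ℝ V i - Q (stdOrthonormalBasis ℝ V i))
        (stdOrthonormalBasis ℝ V i - Q (stdOrthonormalBasis ℝ V i)) ≤
      ∑ i, β (stdOrthonormalBasis ℝ V i) (stdOrthonormalBasis ℝ V i) := by
  have hadj : LinearMap.adjoint Q = Q := by
    symm
    rw [LinearMap.eq_adjoint_iff]
    exact hs
  have h1 := b0a_sum_adj β Q Q
  have h2 := b0a_sum_adj β (LinearMap.id - Q) (LinearMap.id - Q)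
  simp only [map_sub, LinearMap.adjoint_id, hadj, LinearMap.sub_apply, LinearMap.id_apply, hi,
    sub_self, sub_zero] at h1 h2
  have h3 : 0 ≤ ∑ j, β (Q (stdOrthonormalBasis ℝ V j)) (Q (stdOrthonormalBasis ℝ V j)) :=
    Finset.sum_nonneg fun j _ => hβ _
  simp only [map_sub, LinearMap.sub_apply]
  rw [h2, Finset.sum_sub_distrib, ← h1]
  linarith

/-- Invariance of a bilinear contraction of the index under orthogonal matrices. -/
theorem b0a_sum_mat {n : ℕ} {W : Type} [AddCommGroup W] [Module ℝ W] (β : A →ₗ[ℝ] B →ₗ[ℝ] W)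
    {O : Matrix (Fin n) (Fin n) ℝ} (hO : Oᵀ * O = 1) (z : T n A) (y : T n B) :
    ∑ i, β (mat O z i) (mat O y i) = ∑ i, β (z i) (y i) := by
  have h : ∀ b c, ∑ i, O i b * O i c = if b = c then 1 else 0 := fun b c => by
    have := congrFun (congrFun hO b) c
    simpa [Matrix.mul_apply, Matrix.one_apply] using this
  calc _ = ∑ i, ∑ b, ∑ c, (O i b * O i c) • β (z b) (y c) := by
        refine Finset.sum_congr rfl fun i _ => ?_
        simp only [mat_apply, map_sum, map_smul, LinearMap.sum_apply, LinearMap.smul_apply,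
          Finset.smul_sum, smul_smul]
        rw [Finset.sum_comm]
        exact Finset.sum_congr rfl fun b _ => Finset.sum_congr rfl fun c _ => by rw [mul_comm]
    _ = ∑ b, ∑ c, (∑ i, O i b * O i c) • β (z b) (y c) := by
        rw [Finset.sum_comm]
        refine Finset.sum_congr rfl fun b _ => ?_
        rw [Finset.sum_comm]
        simp only [Finset.sum_smul]
    _ = _ := by simp [h]

theorem b0a_trace_skew {S : V →ₗ[ℝ] V} (h : IsSkew S) : LinearMap.trace ℝ V S = 0 := by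
  rw [LinearMap.trace_eq_sum_inner S (stdOrthonormalBasis ℝ V)]
  refine Finset.sum_eq_zero fun i _ => ?_
  have h1 := h (stdOrthonormalBasis ℝ V i) (stdOrthonormalBasis ℝ V i)
  rw [real_inner_comm] at h1
  linarith

end b0aAux

namespace Levi

theorem b0a_isSkew_I_pr (p : P) : IsSkew (D.I ∘ₗ D.pr p) := fun u v => by
  rw [LinearMap.comp_apply, LinearMap.comp_apply, D.I_cx.1, D.pr_sym, D.I_pr]

theorem b0a_adZ_apply (a : Z) (v : H) : D.adZ a v = ∑ p, D.α p a • D.I (D.pr p v) := by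
  simp [adZ, LinearMap.sum_apply]

/-- `adZ` as a bilinear map. -/
def b0a_adZL : Z →ₗ[ℝ] H →ₗ[ℝ] H where
  toFun := D.adZ
  map_add' a b := by simp [adZ, add_smul, Finset.sum_add_distrib]
  map_smul' r a := by simp [adZ, Finset.smul_sum, smul_smul]

@[simp] theorem b0a_adZL_apply (a : Z) : D.b0a_adZL a = D.adZ a := rfl

theorem b0a_isSkew_adZ (a : Z) : IsSkew (D.adZ a) := fun u v => by
  simp only [b0a_adZ_apply, sum_inner, inner_sum, real_inner_smul_left, real_inner_smul_right,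
    ← Finset.sum_neg_distrib]
  refine Finset.sum_congr rfl fun p _ => ?_
  have h := D.b0a_isSkew_I_pr p u v
  simp only [LinearMap.comp_apply] at h
  rw [h, mul_neg]

theorem b0a_pr_pr (p q : P) (v : H) [Decidable (p = q)] :
    D.pr p (D.pr q v) = if p = q then D.pr p v else 0 := by
  split_ifs with h
  · subst h
    exact D.pr_idem p v
  · exact D.pr_orth p q h v

theorem b0a_pr_adZ (p : P) (a : Z) (v : H) : D.pr p (D.adZ a v) = D.α p a • D.I (D.pr p v) := by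
  classical
  rw [b0a_adZ_apply, map_sum, Finset.sum_eq_single p]
  · rw [map_smul, D.I_pr, D.pr_idem]
  · intro q _ hq
    rw [map_smul, D.I_pr, D.pr_orth p q (Ne.symm hq), smul_zero]
  · simp

theorem b0a_adZ_adZ (a b : Z) (v : H) :
    D.adZ a (D.adZ b v) = -∑ p, (D.α p a * D.α p b) • D.pr p v := by
  rw [b0a_adZ_apply, ← Finset.sum_neg_distrib]
  refine Finset.sum_congr rfl fun p _ => ?_
  rw [b0a_pr_adZ, map_smul, D.I_cx.2, smul_smul, smul_neg]

theorem b0a_M_sq (p : P) (z : X Z) : D.M p z ^ 2 = ∑ i, D.α p (z i) ^ 2 :=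
  Real.sq_sqrt (Finset.sum_nonneg fun _ _ => sq_nonneg _)

theorem b0a_M_nonneg (p : P) (z : X Z) : 0 ≤ D.M p z := Real.sqrt_nonneg _

theorem b0a_M_eq (p : P) (z : X Z) : D.M p z = ‖lift 9 (D.α p) z‖ := by
  rw [PiLp.norm_eq_of_L2]
  simp only [M, lift_apply, Real.norm_eq_abs, sq_abs]

theorem b0a_pr_Minv (p : P) (z : X Z) (t : H) :
    D.pr p (D.Minv z t) = ((D.M p z) ^ 2)⁻¹ • D.pr p t := by
  classical
  simp only [Minv, LinearMap.sum_apply, LinearMap.smul_apply, map_sum, map_smul]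
  rw [Finset.sum_eq_single p]
  · rw [D.pr_idem]
  · intro q _ hq
    rw [D.pr_orth p q (Ne.symm hq), smul_zero]
  · simp

theorem b0a_Minv_sym (z : X Z) (s t : H) : ⟪D.Minv z s, t⟫_ℝ = ⟪s, D.Minv z t⟫_ℝ := by
  simp only [Minv, LinearMap.sum_apply, LinearMap.smul_apply, sum_inner, inner_sum,
    real_inner_smul_left, real_inner_smul_right, D.pr_sym]

theorem b0a_lam_apply (z : X Z) (t : H) (i : Fin 9) : D.lam z t i = -D.adZ (z i) (D.Minv z t) := rfl

theorem b0a_Phi_lam {z : X Z} (hz : ∀ p, 0 < D.M p z) (t : H) : D.Phi z (D.lam z t) = t := by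
  simp only [Phi, b0a_lam_apply, map_neg, b0a_adZ_adZ, neg_neg, b0a_pr_Minv, smul_smul]
  rw [Finset.sum_comm]
  conv_rhs => rw [← D.pr_sum t]
  refine Finset.sum_congr rfl fun p _ => ?_
  rw [← Finset.sum_smul, ← Finset.sum_mul]
  have h : ∑ i, D.α p (z i) * D.α p (z i) = D.M p z ^ 2 := by
    rw [b0a_M_sq]
    exact Finset.sum_congr rfl fun i _ => (sq _).symm
  rw [h, mul_inv_cancel₀ (pow_ne_zero 2 (hz p).ne'), one_smul]

theorem b0a_inner_lam (z : X Z) (t : H) (y : X H) :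
    ⟪D.lam z t, y⟫_ℝ = ⟪D.Minv z t, D.Phi z y⟫_ℝ := by
  simp only [PiLp.inner_apply, b0a_lam_apply, Phi, inner_sum, inner_neg_left]
  refine Finset.sum_congr rfl fun i _ => ?_
  rw [D.b0a_isSkew_adZ, neg_neg]

/-- `Φ(z, ·)` as a linear map. -/
def b0a_PhiL (z : X Z) : X H →ₗ[ℝ] H where
  toFun := D.Phi z
  map_add' a b := by simp [Phi, Finset.sum_add_distrib]
  map_smul' r a := by simp [Phi, Finset.smul_sum]

/-- `lam z` as a linear map. -/
def b0a_lamL (z : X Z) : H →ₗ[ℝ] X H where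
  toFun := D.lam z
  map_add' a b := PiLp.ext fun i => by
    simp only [b0a_lam_apply, PiLp.add_apply, map_add, neg_add]
  map_smul' r a := PiLp.ext fun i => by
    simp only [b0a_lam_apply, PiLp.smul_apply, map_smul, smul_neg, RingHom.id_apply]

@[simp] theorem b0a_PhiL_apply (z : X Z) (y : X H) : D.b0a_PhiL z y = D.Phi z y := rfl
@[simp] theorem b0a_lamL_apply (z : X Z) (t : H) : D.b0a_lamL z t = D.lam z t := rfl

theorem b0a_lam_Phi_sym (z : X Z) (u v : X H) :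
    ⟪D.lam z (D.Phi z u), v⟫_ℝ = ⟪u, D.lam z (D.Phi z v)⟫_ℝ := by
  rw [b0a_inner_lam, real_inner_comm (D.lam z (D.Phi z v)) u, b0a_inner_lam, b0a_Minv_sym,
    real_inner_comm]

theorem b0a_zc_eq : D.zc = LinearMap.adjoint (liftI 9 D.iZ).toLinearMap :=
  (adjoint_lift D.iZ.toLinearMap).symm
theorem b0a_lc_eq : D.lc = LinearMap.adjoint (liftI 9 D.iL).toLinearMap :=
  (adjoint_lift D.iL.toLinearMap).symm
theorem b0a_yc_eq : D.yc = LinearMap.adjoint (liftI 9 D.iH).toLinearMap :=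
  (adjoint_lift D.iH.toLinearMap).symm

/-- The open cone of regular central elements. -/
def reg : Set (X Z) := {z | ∀ p, 0 < D.M p z}

/-! ### B0a: components -/

@[simp] theorem zc_asm (z : X Z) (l : X L) (y : X H) : D.zc (D.asm z l y) = z := by
  rw [b0a_zc_eq, asm, map_add, map_add, b0a_adj_self,
    b0a_adj_orth _ _ (b0a_liftI_orth _ _ D.oZL), b0a_adj_orth _ _ (b0a_liftI_orth _ _ D.oZH),
    add_zero, add_zero]
@[simp] theorem lc_asm (z : X Z) (l : X L) (y : X H) : D.lc (D.asm z l y) = l := by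
  rw [b0a_lc_eq, asm, map_add, map_add, b0a_adj_self,
    b0a_adj_orth' _ _ (b0a_liftI_orth _ _ D.oZL), b0a_adj_orth _ _ (b0a_liftI_orth _ _ D.oLH),
    add_zero, zero_add]
@[simp] theorem yc_asm (z : X Z) (l : X L) (y : X H) : D.yc (D.asm z l y) = y := by
  rw [b0a_yc_eq, asm, map_add, map_add, b0a_adj_self,
    b0a_adj_orth' _ _ (b0a_liftI_orth _ _ D.oZH), b0a_adj_orth' _ _ (b0a_liftI_orth _ _ D.oLH),
    add_zero, zero_add]
theorem asm_eq (x : X E) : D.asm (D.zc x) (D.lc x) (D.yc x) = x := by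
  choose a b c h using fun i => D.span (x i)
  have hx : x = D.asm (WithLp.toLp 2 a) (WithLp.toLp 2 b) (WithLp.toLp 2 c) :=
    PiLp.ext fun i => h i
  rw [hx, zc_asm, lc_asm, yc_asm]
theorem b0a_inner_asm (z z' : X Z) (l l' : X L) (y y' : X H) :
    ⟪D.asm z l y, D.asm z' l' y'⟫_ℝ = ⟪z, z'⟫_ℝ + ⟪l, l'⟫_ℝ + ⟪y, y'⟫_ℝ := by
  simp only [asm, inner_add_left, inner_add_right, LinearIsometry.inner_map_map,
    b0a_liftI_orth _ _ D.oZL, b0a_liftI_orth _ _ D.oZH, b0a_liftI_orth _ _ D.oLH,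
    b0a_liftI_orth' _ _ D.oZL, b0a_liftI_orth' _ _ D.oZH, b0a_liftI_orth' _ _ D.oLH,
    add_zero, zero_add]
theorem norm_asm_sq (z : X Z) (l : X L) (y : X H) :
    ‖D.asm z l y‖ ^ 2 = ‖z‖ ^ 2 + ‖l‖ ^ 2 + ‖y‖ ^ 2 := by
  simp only [← real_inner_self_eq_norm_sq, b0a_inner_asm]
theorem inner_asm (z z' : X Z) (l l' : X L) (y y' : X H) :
    ⟪D.asm z l y, D.asm z' l' y'⟫_ℝ = ⟪z, z'⟫_ℝ + ⟪l, l'⟫_ℝ + ⟪y, y'⟫_ℝ :=
  D.b0a_inner_asm z z' l l' y y'
theorem b0a_norm_sq (x : X E) : ‖x‖ ^ 2 = ‖D.zc x‖ ^ 2 + ‖D.lc x‖ ^ 2 + ‖D.yc x‖ ^ 2 := by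
  rw [← D.norm_asm_sq, asm_eq]
theorem norm_zc_le (x : X E) : ‖D.zc x‖ ≤ ‖x‖ := by
  refine le_of_sq_le_sq ?_ (norm_nonneg _)
  rw [D.b0a_norm_sq x]
  nlinarith [sq_nonneg ‖D.zc x‖, sq_nonneg ‖D.lc x‖, sq_nonneg ‖D.yc x‖]
theorem norm_lc_le (x : X E) : ‖D.lc x‖ ≤ ‖x‖ := by
  refine le_of_sq_le_sq ?_ (norm_nonneg _)
  rw [D.b0a_norm_sq x]
  nlinarith [sq_nonneg ‖D.zc x‖, sq_nonneg ‖D.lc x‖, sq_nonneg ‖D.yc x‖]
theorem norm_yc_le (x : X E) : ‖D.yc x‖ ≤ ‖x‖ := by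
  refine le_of_sq_le_sq ?_ (norm_nonneg _)
  rw [D.b0a_norm_sq x]
  nlinarith [sq_nonneg ‖D.zc x‖, sq_nonneg ‖D.lc x‖, sq_nonneg ‖D.yc x‖]
theorem tube_norm_zc {κ θ : ℝ} {x : X E} (hx : x ∈ D.tube κ θ) : (1 - θ) * ‖x‖ ≤ ‖D.zc x‖ := by
  have h1 : ‖x‖ ≤ ‖D.zc x‖ + ‖D.lc x‖ + ‖D.yc x‖ := by
    conv_lhs => rw [← D.asm_eq x, asm]
    refine norm_add₃_le.trans (le_of_eq ?_)
    simp only [LinearIsometry.norm_map]
  have h2 := hx.2
  linarith

/-- `asm` as a continuous linear equivalence. -/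
theorem exists_asm_equiv : ∃ e : ((X Z × X L) × X H) ≃L[ℝ] X E,
    ∀ q, e q = D.asm q.1.1 q.1.2 q.2 := by
  let e : ((X Z × X L) × X H) ≃ₗ[ℝ] X E :=
    { toFun := fun q => D.asm q.1.1 q.1.2 q.2
      invFun := fun x => ((D.zc x, D.lc x), D.yc x)
      map_add' := fun a b => by
        simp only [asm, Prod.fst_add, Prod.snd_add, map_add]
        abel
      map_smul' := fun r a => by
        simp only [asm, Prod.smul_fst, Prod.smul_snd, map_smul, smul_add, RingHom.id_apply]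
      left_inv := fun q => by simp only [zc_asm, lc_asm, yc_asm]
      right_inv := fun x => D.asm_eq x }
  exact ⟨e.toContinuousLinearEquiv, fun q => rfl⟩

/-- Decomposition of an orthonormal basis sum over `X E` (bilinear contraction). -/
theorem sum_onb_split {W : Type} [AddCommGroup W] [Module ℝ W] (B : X E →ₗ[ℝ] X E →ₗ[ℝ] W) :
    ∑ i, B (stdOrthonormalBasis ℝ (X E) i) (stdOrthonormalBasis ℝ (X E) i) =
      ∑ i, B (liftI 9 D.iZ (stdOrthonormalBasis ℝ (X Z) i))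
          (liftI 9 D.iZ (stdOrthonormalBasis ℝ (X Z) i)) +
        ∑ i, B (liftI 9 D.iL (stdOrthonormalBasis ℝ (X L) i))
          (liftI 9 D.iL (stdOrthonormalBasis ℝ (X L) i)) +
        ∑ i, B (liftI 9 D.iH (stdOrthonormalBasis ℝ (X H) i))
          (liftI 9 D.iH (stdOrthonormalBasis ℝ (X H) i)) := by
  have hZ := b0a_sum_adj B (liftI 9 D.iZ).toLinearMap (liftI 9 D.iZ).toLinearMap
  have hL := b0a_sum_adj B (liftI 9 D.iL).toLinearMap (liftI 9 D.iL).toLinearMap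
  have hH := b0a_sum_adj B (liftI 9 D.iH).toLinearMap (liftI 9 D.iH).toLinearMap
  rw [← b0a_zc_eq] at hZ
  rw [← b0a_lc_eq] at hL
  rw [← b0a_yc_eq] at hH
  simp only [LinearIsometry.coe_toLinearMap] at hZ hL hH
  rw [hZ, hL, hH, ← Finset.sum_add_distrib, ← Finset.sum_add_distrib]
  refine Finset.sum_congr rfl fun i _ => ?_
  conv_lhs => enter [1, 2]; rw [← D.asm_eq (stdOrthonormalBasis ℝ (X E) i), asm]
  simp only [map_add, LinearMap.add_apply]

theorem gperp_add_glight_le (u : X E → F) {x : X E} (hz : D.zc x ∈ D.reg) :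
    D.gperp u x + D.glight u x ≤ gsq u x := by
  let β : X E →ₗ[ℝ] X E →ₗ[ℝ] ℝ :=
    LinearMap.mk₂ ℝ (fun v w => (⟪fderiv ℝ u x v, fderiv ℝ u x w⟫_ℂ).re)
      (fun a b c => by simp only [map_add, inner_add_left, Complex.add_re])
      (fun r a b => by
        rw [map_smul, ← Complex.coe_smul, inner_smul_left, Complex.conj_ofReal, Complex.re_ofReal_mul,
          smul_eq_mul])
      (fun a b c => by simp only [map_add, inner_add_right, Complex.add_re])
      (fun r a b => by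
        rw [map_smul, ← Complex.coe_smul, inner_smul_right, Complex.re_ofReal_mul, smul_eq_mul])
  have hβ : ∀ v, β v v = ‖fderiv ℝ u x v‖ ^ 2 := fun v => inner_self_eq_norm_sq (𝕜 := ℂ) _
  have h1 := D.sum_onb_split β
  have h2 := b0a_sum_proj_le (β.compl₁₂ (liftI 9 D.iH).toLinearMap (liftI 9 D.iH).toLinearMap)
    (fun v => by rw [LinearMap.compl₁₂_apply, hβ]; positivity)
    (D.b0a_lamL (D.zc x) ∘ₗ D.b0a_PhiL (D.zc x)) (D.b0a_lam_Phi_sym (D.zc x))
    (fun v => by simp only [LinearMap.comp_apply, b0a_PhiL_apply, b0a_lamL_apply, D.b0a_Phi_lam hz])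
  simp only [LinearMap.compl₁₂_apply, hβ, LinearIsometry.coe_toLinearMap, LinearMap.comp_apply,
    b0a_PhiL_apply, b0a_lamL_apply] at h1 h2
  unfold gperp glight gsq perp
  linarith

theorem zc_mat (O : Matrix (Fin 9) (Fin 9) ℝ) (x : X E) : D.zc (mat O x) = mat O (D.zc x) :=
  (LinearMap.congr_fun (mat_lift O (LinearMap.adjoint D.iZ.toLinearMap)) x).symm
theorem lc_mat (O : Matrix (Fin 9) (Fin 9) ℝ) (x : X E) : D.lc (mat O x) = mat O (D.lc x) :=
  (LinearMap.congr_fun (mat_lift O (LinearMap.adjoint D.iL.toLinearMap)) x).symm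
theorem yc_mat (O : Matrix (Fin 9) (Fin 9) ℝ) (x : X E) : D.yc (mat O x) = mat O (D.yc x) :=
  (LinearMap.congr_fun (mat_lift O (LinearMap.adjoint D.iH.toLinearMap)) x).symm

theorem M_mat {O : Matrix (Fin 9) (Fin 9) ℝ} (hO : Oᵀ * O = 1) (p : P) (z : X Z) :
    D.M p (mat O z) = D.M p z := by
  rw [b0a_M_eq, b0a_M_eq, ← norm_mat_orth O hO (lift 9 (D.α p) z)]
  exact congrArg norm (LinearMap.congr_fun (mat_lift O (D.α p)) z).symm
theorem Phi_mat {O : Matrix (Fin 9) (Fin 9) ℝ} (hO : Oᵀ * O = 1) (z : X Z) (y : X H) :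
    D.Phi (mat O z) (mat O y) = D.Phi z y :=
  b0a_sum_mat D.b0a_adZL hO z y
theorem M_smul (p : P) (r : ℝ) (z : X Z) : D.M p (r • z) = |r| * D.M p z := by
  rw [b0a_M_eq, b0a_M_eq, map_smul, norm_smul, Real.norm_eq_abs]
theorem exists_M_le : ∃ b : ℝ, 0 < b ∧ ∀ p z, D.M p z ≤ b * ‖z‖ := by
  refine ⟨∑ p, ‖LinearMap.toContinuousLinearMap (lift 9 (D.α p))‖ + 1, by positivity, fun p z => ?_⟩
  rw [b0a_M_eq]
  refine ((LinearMap.toContinuousLinearMap (lift 9 (D.α p))).le_opNorm z).trans ?_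
  gcongr
  exact (Finset.single_le_sum (f := fun p => ‖LinearMap.toContinuousLinearMap (lift 9 (D.α p))‖)
    (fun _ _ => ContinuousLinearMap.opNorm_nonneg _) (Finset.mem_univ p)).trans (le_add_of_nonneg_right zero_le_one)
theorem continuous_M (p : P) : Continuous (D.M p) := by
  have h : D.M p = fun z => ‖lift 9 (D.α p) z‖ := funext fun z => D.b0a_M_eq p z
  rw [h]
  exact (lift 9 (D.α p)).continuous_of_finiteDimensional.norm
theorem isOpen_reg : IsOpen D.reg := by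
  have h : D.reg = ⋂ p, {z | 0 < D.M p z} := by
    ext z
    simp [reg]
  rw [h]
  exact isOpen_iInter_of_finite fun p => isOpen_lt continuous_const (D.continuous_M p)
theorem contDiffOn_M (p : P) : ContDiffOn ℝ ∞ (D.M p) D.reg := by
  have h : D.M p = fun z => ‖LinearMap.toContinuousLinearMap (lift 9 (D.α p)) z‖ :=
    funext fun z => D.b0a_M_eq p z
  rw [h]
  refine ContDiffOn.norm ℝ (LinearMap.toContinuousLinearMap (lift 9 (D.α p))).contDiff.contDiffOn
    fun z hz => ?_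
  have h1 := hz p
  rw [b0a_M_eq] at h1
  exact norm_pos_iff.1 h1
theorem fderiv_M (p : P) {z : X Z} (hz : z ∈ D.reg) (v : X Z) :
    fderiv ℝ (D.M p) z v = (∑ i, D.α p (z i) * D.α p (v i)) / D.M p z := by
  let A := LinearMap.toContinuousLinearMap (lift 9 (D.α p) : X Z →ₗ[ℝ] T 9 ℝ)
  have h : D.M p = fun z => √(‖A z‖ ^ 2) := funext fun z => by
    rw [Real.sqrt_sq (norm_nonneg _)]
    exact D.b0a_M_eq p z
  have hp : 0 < ‖A z‖ := by
    have h1 := hz p
    rwa [b0a_M_eq] at h1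
  have hd := (A.hasFDerivAt (x := z)).norm_sq.sqrt (pow_pos hp 2).ne'
  have hM : D.M p z = ‖A z‖ := D.b0a_M_eq p z
  rw [hM, h, hd.fderiv, Real.sqrt_sq hp.le]
  have hi : ⟪A z, A v⟫_ℝ = ∑ i, D.α p (z i) * D.α p (v i) := by
    rw [PiLp.inner_apply]
    refine Finset.sum_congr rfl fun i _ => ?_
    change ⟪D.α p (z i), D.α p (v i)⟫_ℝ = _
    simp [mul_comm]
  simp only [smul_apply, ContinuousLinearMap.comp_apply, innerSL_apply_apply, hi,
    smul_eq_mul, nsmul_eq_mul]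
  field_simp
  norm_num
theorem trace_pr (p : P) : LinearMap.trace ℝ H (D.pr p) = D.m p := by
  have h : LinearMap.IsProj (LinearMap.range (D.pr p)) (D.pr p) :=
    ⟨fun v => LinearMap.mem_range_self _ v, by
      rintro _ ⟨v, rfl⟩
      exact D.pr_idem p v⟩
  exact h.trace
theorem trace_I_pr (p : P) : LinearMap.trace ℝ H (D.I ∘ₗ D.pr p) = 0 :=
  b0a_trace_skew (D.b0a_isSkew_I_pr p)
theorem isSkew_adZ (a : Z) : IsSkew (D.adZ a) := D.b0a_isSkew_adZ a
theorem isSkew_adL (a : L) : IsSkew (D.adL a) := fun u v => by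
  rw [← D.iH.inner_map_map, ← D.iH.inner_map_map u, ← D.brLH, ← D.brLH, 𝔤.isSkew_br]

end Levi

end Crest.Agent.R330

end
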