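import Crest.Agent.R330.B0.A

/-! # Row 330, B0/B (statements frozen; see `R330/Blueprint.lean`) -/

set_option autoImplicit false
set_option linter.unusedSectionVars false

noncomputable section

open MeasureTheory Filter Topology
open scoped InnerProductSpace ContDiff Matrix
open Crest.MathPhysics.MatrixQM (GammaNine)

namespace Crest.Agent.R330

variable {E Z L H F : Type}
  [NormedAddCommGroup E] [InnerProductSpace ℝ E] [FiniteDimensional ℝ E]
  [NormedAddCommGroup Z] [InnerProductSpace ℝ Z] [FiniteDimensional ℝ Z]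
  [NormedAddCommGroup L] [InnerProductSpace ℝ L] [FiniteDimensional ℝ L]
  [NormedAddCommGroup H] [InnerProductSpace ℝ H] [FiniteDimensional ℝ H]
  [NormedAddCommGroup F] [InnerProductSpace ℂ F] [FiniteDimensional ℂ F]
  {P : Type} [Fintype P] {𝔤 : Lie E} (D : Levi 𝔤 Z L H P)

namespace Levi

/-! ### B0b: the gauge condition -/

theorem b0b_lin {V W : Type} [NormedAddCommGroup V] [NormedSpace ℝ V] [FiniteDimensional ℝ V]
    [NormedAddCommGroup W] [NormedSpace ℝ W] (f : V →ₗ[ℝ] W) : ContDiff ℝ ∞ f :=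
  (LinearMap.toContinuousLinearMap f).contDiff

theorem b0b_adZ (a : Z) (v : H) : D.adZ a v = ∑ p, D.α p a • D.I (D.pr p v) := by
  simp [adZ, LinearMap.sum_apply]

theorem b0b_Minv (z : X Z) (v : H) : D.Minv z v = ∑ p, ((D.M p z) ^ 2)⁻¹ • D.pr p v := by
  simp [Minv, LinearMap.sum_apply]

theorem b0b_pr_sum (q : P) (c : P → ℝ) (v : H) : D.pr q (∑ p, c p • D.pr p v) = c q • D.pr q v := by
  rw [map_sum, Finset.sum_eq_single q]
  · rw [map_smul, D.pr_idem]
  · intro p _ hp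
    rw [map_smul, D.pr_orth q p (Ne.symm hp), smul_zero]
  · simp

theorem b0b_pr_adZ (q : P) (a : Z) (v : H) : D.pr q (D.adZ a v) = D.α q a • D.I (D.pr q v) := by
  simp only [b0b_adZ, D.I_pr, b0b_pr_sum]

theorem b0b_pr_Minv (q : P) (z : X Z) (v : H) : D.pr q (D.Minv z v) = ((D.M q z) ^ 2)⁻¹ • D.pr q v := by
  rw [b0b_Minv, b0b_pr_sum]

theorem b0b_ext {u v : H} (h : ∀ p, D.pr p u = D.pr p v) : u = v := by
  rw [← D.pr_sum u, ← D.pr_sum v]
  exact Finset.sum_congr rfl fun p _ => h p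

theorem b0b_M_sq (p : P) (z : X Z) : D.M p z ^ 2 = ∑ i, D.α p (z i) ^ 2 :=
  Real.sq_sqrt (Finset.sum_nonneg fun _ _ => sq_nonneg _)

theorem b0b_pr_comm (p q : P) (v : H) : D.pr p (D.pr q v) = D.pr q (D.pr p v) := by
  by_cases h : p = q
  · rw [h]
  · rw [D.pr_orth p q h, D.pr_orth q p (Ne.symm h)]

/-- `Phi` as a bilinear map. -/
def b0b_PhiL : X Z →ₗ[ℝ] X H →ₗ[ℝ] H :=
  LinearMap.mk₂ ℝ D.Phi
    (fun z z' y => by simp [Phi, b0b_adZ, add_smul, Finset.sum_add_distrib])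
    (fun c z y => by simp [Phi, b0b_adZ, mul_smul, Finset.smul_sum])
    (fun z y y' => by simp [Phi, Finset.sum_add_distrib])
    (fun c z y => by simp [Phi, Finset.smul_sum])

theorem b0b_PhiL_apply (z : X Z) (y : X H) : D.b0b_PhiL z y = D.Phi z y := rfl

/-- `lam z` as a linear map. -/
def b0b_lamL (z : X Z) : H →ₗ[ℝ] X H where
  toFun := D.lam z
  map_add' u v := by ext i; simp [lam, add_comm]
  map_smul' c u := by ext i; simp [lam]

theorem b0b_lamL_apply (z : X Z) (t : H) : D.b0b_lamL z t = D.lam z t := rfl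

theorem b0b_inner_lam (z : X Z) (t : H) (y : X H) : ⟪D.lam z t, y⟫_ℝ = ⟪D.Minv z t, D.Phi z y⟫_ℝ := by
  rw [PiLp.inner_apply, Phi, inner_sum]
  refine Finset.sum_congr rfl fun i _ => ?_
  simp only [lam, inner_neg_left, D.isSkew_adZ (z i) _ _, neg_neg]

theorem b0b_Minv_sym (z : X Z) (u v : H) : ⟪D.Minv z u, v⟫_ℝ = ⟪u, D.Minv z v⟫_ℝ := by
  simp only [b0b_Minv, sum_inner, inner_sum, real_inner_smul_left, real_inner_smul_right, D.pr_sym]

theorem b0b_comm (z : X Z) {B : H →ₗ[ℝ] H} (hI : ∀ v, B (D.I v) = D.I (B v))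
    (hp : ∀ p v, B (D.pr p v) = D.pr p (B v)) (y : X H) : D.perp z (lift 9 B y) = lift 9 B (D.perp z y) := by
  have h1 : ∀ a v, B (D.adZ a v) = D.adZ a (B v) := fun a v => by
    simp only [b0b_adZ, map_sum, map_smul, hI, hp]
  have h2 : ∀ v, B (D.Minv z v) = D.Minv z (B v) := fun v => by
    simp only [b0b_Minv, map_sum, map_smul, hp]
  have h3 : D.Phi z (lift 9 B y) = B (D.Phi z y) := by
    simp only [Phi, map_sum, h1, lift_apply]
  ext i
  simp only [perp, h3, lam, PiLp.sub_apply, lift_apply, map_sub, map_neg, h1, h2]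

theorem b0b_bil : ∃ B : X Z →L[ℝ] X H →L[ℝ] H, ∀ z y, B z y = D.Phi z y :=
  ⟨LinearMap.toContinuousLinearMap
    ((LinearMap.toContinuousLinearMap (𝕜 := ℝ) (E := X H) (F' := H)).toLinearMap ∘ₗ D.b0b_PhiL), fun _ _ => rfl⟩

theorem contDiff_Phi : ContDiff ℝ ∞ fun q : X Z × X H => D.Phi q.1 q.2 := by
  obtain ⟨B, hB⟩ := D.b0b_bil
  simp only [← hB]
  exact (B.contDiff.comp contDiff_fst).clm_apply contDiff_snd
theorem contDiff_PhiX : ContDiff ℝ ∞ fun x : X E => D.Phi (D.zc x) (D.yc x) := by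
  obtain ⟨B, hB⟩ := D.b0b_bil
  simp only [← hB]
  exact (B.contDiff.comp (b0b_lin D.zc)).clm_apply (b0b_lin D.yc)
theorem fderiv_PhiX (x v : X E) :
    fderiv ℝ (fun x : X E => D.Phi (D.zc x) (D.yc x)) x v = D.dPhi x v := by
  obtain ⟨B, hB⟩ := D.b0b_bil
  have h := (B.hasFDerivAt_of_bilinear (LinearMap.toContinuousLinearMap D.zc).hasFDerivAt
    (LinearMap.toContinuousLinearMap D.yc).hasFDerivAt (x := x)).fderiv
  simp only [LinearMap.coe_toContinuousLinearMap', hB] at h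
  rw [h]
  simp [dPhi, hB]
theorem Phi_lam {z : X Z} (hz : z ∈ D.reg) (t : H) : D.Phi z (D.lam z t) = t := by
  refine D.b0b_ext fun q => ?_
  have h : D.M q z ^ 2 ≠ 0 := (pow_pos (hz q) 2).ne'
  simp only [Phi, map_sum, b0b_pr_adZ, lam, map_neg, map_smul, D.I_cx.2, b0b_pr_Minv, smul_neg, neg_neg,
    smul_smul, ← Finset.sum_smul, ← mul_assoc, ← Finset.sum_mul, ← sq, ← b0b_M_sq, mul_inv_cancel₀ h, one_smul]
theorem Phi_perp {z : X Z} (hz : z ∈ D.reg) (y : X H) : D.Phi z (D.perp z y) = 0 := by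
  rw [perp, ← b0b_PhiL_apply, map_sub, b0b_PhiL_apply, b0b_PhiL_apply, D.Phi_lam hz, sub_self]
/-- `perp z` is an orthogonal projection commuting with `I` and the `pr p`. -/
theorem exists_perp_lin (z : X Z) : ∃ A : X H →ₗ[ℝ] X H, (∀ y, A y = D.perp z y) ∧
    (∀ u v, ⟪A u, v⟫_ℝ = ⟪u, A v⟫_ℝ) ∧ (z ∈ D.reg → ∀ y, A (A y) = A y) ∧
    (∀ p, A ∘ₗ lift 9 (D.pr p) = lift 9 (D.pr p) ∘ₗ A) ∧ A ∘ₗ lift 9 D.I = lift 9 D.I ∘ₗ A ∧
    (∀ a, A ∘ₗ lift 9 (D.adL a) = lift 9 (D.adL a) ∘ₗ A) ∧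
    (z ∈ D.reg → ∀ p, LinearMap.trace ℝ (X H) (lift 9 (D.pr p) ∘ₗ A) = 8 * D.m p) := by
  refine ⟨LinearMap.id - D.b0b_lamL z ∘ₗ D.b0b_PhiL z, fun y => rfl, fun u v => ?_, fun hz y => ?_,
    fun p => LinearMap.ext fun y => D.b0b_comm z (fun v => (D.I_pr p v).symm) (D.b0b_pr_comm p) y,
    LinearMap.ext fun y => D.b0b_comm z (fun v => rfl) D.I_pr y,
    fun a => LinearMap.ext fun y => D.b0b_comm z (D.adL_I a) (D.adL_pr a) y, fun hz p => ?_⟩
  · change ⟪u - D.lam z (D.Phi z u), v⟫_ℝ = ⟪u, v - D.lam z (D.Phi z v)⟫_ℝ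
    rw [inner_sub_left, inner_sub_right, b0b_inner_lam, ← real_inner_comm u (D.lam _ _), b0b_inner_lam,
      b0b_Minv_sym, real_inner_comm (D.Phi z u)]
  · change D.perp z y - D.lam z (D.Phi z (D.perp z y)) = D.perp z y
    rw [D.Phi_perp hz, ← b0b_lamL_apply, map_zero, sub_zero]
  · have h1 : LinearMap.trace ℝ (X H) (lift 9 (D.pr p)) = 9 * D.m p := by
      have := trace_mat_lift (1 : Matrix (Fin 9) (Fin 9) ℝ) (D.pr p)
      rw [mat_one, LinearMap.id_comp, D.trace_pr] at this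
      simpa using this
    have h2 : D.b0b_PhiL z ∘ₗ (lift 9 (D.pr p) ∘ₗ D.b0b_lamL z) = D.pr p := by
      ext t
      have : lift 9 (D.pr p) (D.lam z t) = D.lam z (D.pr p t) := by
        ext i
        simp only [lift_apply, lam, map_neg, b0b_pr_adZ, b0b_pr_Minv, neg_inj]
        refine D.b0b_ext fun q => ?_
        simp only [b0b_pr_adZ, b0b_pr_Minv, map_smul, ← D.I_pr]
        by_cases h : q = p
        · rw [h]
        · simp [D.pr_orth q p h]
      change D.Phi z (lift 9 (D.pr p) (D.lam z t)) = _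
      rw [this, D.Phi_lam hz]
    rw [LinearMap.comp_sub, map_sub, LinearMap.comp_id, h1, ← LinearMap.comp_assoc, LinearMap.trace_comp_comm',
      h2, D.trace_pr]
    ring
theorem norm_lam_sq {z : X Z} (hz : z ∈ D.reg) (t : H) :
    ‖D.lam z t‖ ^ 2 = ∑ p, ‖D.pr p t‖ ^ 2 / D.M p z ^ 2 := by
  rw [← real_inner_self_eq_norm_sq, b0b_inner_lam, D.Phi_lam hz, b0b_Minv, sum_inner]
  refine Finset.sum_congr rfl fun p _ => ?_
  rw [real_inner_smul_left, ← real_inner_self_eq_norm_sq, D.pr_sym p t (D.pr p t), D.pr_idem, D.pr_sym,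
    div_eq_inv_mul]
theorem norm_sq_perp_lam {z : X Z} (hz : z ∈ D.reg) (y : X H) :
    ‖y‖ ^ 2 = ‖D.perp z y‖ ^ 2 + ‖D.lam z (D.Phi z y)‖ ^ 2 := by
  have h : y = D.perp z y + D.lam z (D.Phi z y) := by rw [perp, sub_add_cancel]
  conv_lhs => rw [h]
  rw [norm_add_sq_real, real_inner_comm, b0b_inner_lam, D.Phi_perp hz, inner_zero_right]
  ring

theorem b0b_M {W : Type} [NormedAddCommGroup W] [NormedSpace ℝ W] (p : P) :
    ContDiffOn ℝ ∞ (fun q : X Z × W => D.M p q.1) (D.reg ×ˢ Set.univ) :=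
  (D.contDiffOn_M p).comp contDiffOn_fst fun _ hq => hq.1

theorem contDiffOn_lam : ContDiffOn ℝ ∞ (fun q : X Z × H => D.lam q.1 q.2) (D.reg ×ˢ Set.univ) := by
  have h1 : ContDiffOn ℝ ∞ (fun q : X Z × H => D.Minv q.1 q.2) (D.reg ×ˢ Set.univ) := by
    simp only [b0b_Minv]
    exact ContDiffOn.sum fun p _ => (((D.b0b_M p).pow 2).inv fun q hq => (pow_pos (hq.1 p) 2).ne').smul
      ((b0b_lin (D.pr p)).comp contDiff_snd).contDiffOn
  refine (contDiffOn_piLp 2).2 fun i => ?_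
  simp only [lam, b0b_adZ]
  refine ContDiffOn.neg (ContDiffOn.sum fun p _ => ContDiffOn.smul ?_ ?_)
  · exact ((b0b_lin (D.α p)).comp ((contDiff_piLp_apply 2 (i := i)).comp contDiff_fst)).contDiffOn
  · exact ((b0b_lin D.I).comp (b0b_lin (D.pr p))).comp_contDiffOn h1
theorem contDiffOn_perp :
    ContDiffOn ℝ ∞ (fun q : X Z × X H => D.perp q.1 q.2) (D.reg ×ˢ Set.univ) :=
  contDiffOn_snd.sub (D.contDiffOn_lam.comp (contDiff_fst.prodMk D.contDiff_Phi).contDiffOn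
    fun _ hq => ⟨hq.1, Set.mem_univ _⟩)
theorem contDiffOn_hq : ContDiffOn ℝ ∞ (fun q : X Z × X H => D.hq q.1 q.2) (D.reg ×ˢ Set.univ) :=
  contDiffOn_const.mul (ContDiffOn.sum fun p _ => (D.b0b_M p).mul
    (((b0b_lin (lift 9 (D.pr p))).comp_contDiffOn D.contDiffOn_perp).norm_sq ℝ))
theorem contDiffOn_wt : ContDiffOn ℝ ∞ (fun q : X Z × X H => D.wt q.1 q.2) (D.reg ×ˢ Set.univ) :=
  (Real.smoothTransition.contDiff.comp (contDiff_const.sub
    (contDiff_const.mul (D.contDiff_Phi.norm_sq ℝ)))).contDiffOn.mul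
      (contDiffOn_prod fun p _ => (D.b0b_M p).pow _)
theorem continuous_wtX : Continuous D.wtX :=
  (Real.smoothTransition.continuous.comp (continuous_const.sub
    (continuous_const.mul (D.contDiff_PhiX.continuous.norm.pow 2)))).mul
      (continuous_finsetProd _ fun p _ => ((D.continuous_M p).comp (b0b_lin D.zc).continuous).pow _)
theorem wt_nonneg (z : X Z) (y : X H) : 0 ≤ D.wt z y :=
  mul_nonneg (Real.smoothTransition.nonneg _)
    (Finset.prod_nonneg fun _ _ => pow_nonneg (Real.sqrt_nonneg _) _)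
theorem wt_eq_zero {z : X Z} {y : X H} (h : 1 / 2 ≤ ‖D.Phi z y‖ ^ 2) : D.wt z y = 0 := by
  rw [wt, Real.smoothTransition.zero_of_nonpos (by linarith), zero_mul]
theorem fderiv_jac {z : X Z} (hz : z ∈ D.reg) (v : X Z) :
    fderiv ℝ D.jac z v = D.jac z * ∑ p, 2 * D.m p * fderiv ℝ (D.M p) z v / D.M p z := by
  classical
  have hd : ∀ p, HasFDerivAt (D.M p) (fderiv ℝ (D.M p) z) z := fun p =>
    (((D.contDiffOn_M p).contDiffAt (D.isOpen_reg.mem_nhds hz)).differentiableAt (by simp)).hasFDerivAt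
  have h := (HasFDerivAt.finsetProd (u := Finset.univ) fun p _ => (hd p).pow (2 * D.m p)).fderiv
  change fderiv ℝ (fun z => ∏ p, D.M p z ^ (2 * D.m p)) z v = _
  rw [h, sum_apply, Finset.mul_sum]
  refine Finset.sum_congr rfl fun p _ => ?_
  rw [jac, ← Finset.mul_prod_erase _ _ (Finset.mem_univ p)]
  have hp := (hz p).ne'
  simp only [smul_apply, smul_eq_mul, nsmul_eq_mul]
  rcases Nat.eq_zero_or_pos (D.m p) with h0 | h0
  · simp [h0]
  · obtain ⟨k, hk⟩ : ∃ k, 2 * D.m p = k + 1 := ⟨2 * D.m p - 1, by omega⟩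
    have hk' : (2 * D.m p : ℝ) = k + 1 := by exact_mod_cast hk
    rw [hk', hk, Nat.add_sub_cancel, pow_succ]
    push_cast
    field_simp

end Levi

end Crest.Agent.R330

end
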