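import Crest.Agent.R330.B0.B

/-! # Row 330, B0/C (statements frozen; see `R330/Blueprint.lean`) -/

set_option autoImplicit false
set_option linter.unusedSectionVars false

noncomputable section

open MeasureTheory Filter Topology
open scoped InnerProductSpace ContDiff Matrix
open Crest.MathPhysics.MatrixQM (GammaNine)

namespace Crest.Agent.R330

variable {E Z L H F : Type}
  [NormedAddCommGroup E] [InnerProductSpace ℝ E] [FiniteDimensional ℝ E]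
  [NormedAddCommGroup Z] [InnerProductSpace ℝ Z] [FiniteDimensional ℝ Z]
  [NormedAddCommGroup L] [InnerProductSpace ℝ L] [FiniteDimensional ℝ L]
  [NormedAddCommGroup H] [InnerProductSpace ℝ H] [FiniteDimensional ℝ H]
  [NormedAddCommGroup F] [InnerProductSpace ℂ F] [FiniteDimensional ℂ F]
  {P : Type} [Fintype P] {𝔤 : Lie E} (D : Levi 𝔤 Z L H P)

namespace Levi

theorem ca_H (h : X H) : liftI 9 D.iH h = D.asm 0 0 h := by simp [asm]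
theorem ca_L (l : X L) : liftI 9 D.iL l = D.asm 0 l 0 := by simp [asm]
theorem ca_Z (z : X Z) : liftI 9 D.iZ z = D.asm z 0 0 := by simp [asm]

/-- `Phi` as a bilinear map -/
def ca_Phi : X Z →ₗ[ℝ] X H →ₗ[ℝ] H := LinearMap.mk₂ ℝ D.Phi
  (fun a b y => by simp [Phi, adZ, add_smul, Finset.sum_add_distrib])
  (fun r a y => by simp [Phi, adZ, mul_smul, Finset.smul_sum])
  (fun z a b => by simp [Phi, Finset.sum_add_distrib]) (fun r z a => by simp [Phi, Finset.smul_sum])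

theorem ca_Phi_apply (z : X Z) (y : X H) : D.Phi z y = D.ca_Phi z y := rfl

/-- `kap x` as a linear map -/
theorem ca_kap (x : X E) : ∃ K : X E →ₗ[ℝ] X E, ∀ v, D.kap x v = K v := by
  let Λ : H →ₗ[ℝ] X H :=
    { toFun := D.lam (D.zc x)
      map_add' := fun a b => by ext i; simp [lam, add_comm]
      map_smul' := fun r a => by ext i; simp [lam] }
  exact ⟨LinearMap.id - (liftI 9 D.iH).toLinearMap ∘ₗ Λ ∘ₗ
    (D.ca_Phi (D.zc x) ∘ₗ D.yc + D.ca_Phi.flip (D.yc x) ∘ₗ D.zc), fun _ => rfl⟩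

theorem ca_pr (p : P) (c : P → ℝ) (ξ : H) : D.pr p (∑ q, c q • D.pr q ξ) = c p • D.pr p ξ := by
  rw [map_sum, Finset.sum_eq_single p (fun q _ h => by rw [map_smul, D.pr_orth p q h.symm, smul_zero]) (by simp),
    map_smul, D.pr_idem]

theorem ca_gZ (ξ : H) (z : X Z) :
    D.gH ξ (D.asm z 0 0) = liftI 9 D.iH (WithLp.toLp 2 fun i => -D.adZ (z i) ξ) := by
  ext i
  simp [gH, ← ca_Z, 𝔤.anti (D.iH ξ), D.brZH, adZ]

theorem dPhi_kap {x : X E} (hz : D.zc x ∈ D.reg) (v : X E) : D.dPhi x (D.kap x v) = 0 := by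
  simp only [kap, dPhi, ca_H, map_sub, zc_asm, yc_asm, ca_Phi_apply, sub_zero]
  rw [← ca_Phi_apply _ _ (D.lam _ _), D.Phi_lam hz]
  abel
theorem kap_heavy (x : X E) (h : X H) :
    D.kap x (liftI 9 D.iH h) = liftI 9 D.iH (D.perp (D.zc x) h) := by
  simp only [kap, dPhi, perp, map_sub, ca_Phi_apply]
  simp [ca_H]
theorem kap_light (x : X E) (l : X L) : D.kap x (liftI 9 D.iL l) = liftI 9 D.iL l := by
  have : D.lam (D.zc x) 0 = 0 := by ext i; simp [lam]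
  simp [kap, dPhi, ca_L, ca_Phi_apply, this]
/-- `κ` kills the gauge motion of the central part. -/
theorem kap_gH {x : X E} (hz : D.zc x ∈ D.reg) (ξ : H) :
    D.kap x (D.gH ξ x) = D.kap x (D.gH ξ (D.asm 0 (D.lc x) (D.yc x))) := by
  have h1 : D.gH ξ x = D.gH ξ (D.asm (D.zc x) 0 0) + D.gH ξ (D.asm 0 (D.lc x) (D.yc x)) := by
    conv_lhs => rw [← D.asm_eq x]
    simp [gH, asm, add_assoc]
  have h2 : D.Minv (D.zc x) (∑ p, D.M p (D.zc x) ^ 2 • D.pr p ξ) = ξ := by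
    simp only [Minv, LinearMap.sum_apply, LinearMap.smul_apply, ca_pr]
    exact (Finset.sum_congr rfl fun p _ => inv_smul_smul₀ (pow_pos (hz p) 2).ne' _).trans (D.pr_sum ξ)
  have h3 := D.kap_heavy x (D.lam (D.zc x) (∑ p, D.M p (D.zc x) ^ 2 • D.pr p ξ))
  rw [perp, D.Phi_lam hz, sub_self, map_zero, lam, h2, ← ca_gZ] at h3
  obtain ⟨K, hK⟩ := D.ca_kap x
  rw [hK] at h3
  rw [hK, hK, h1, map_add, h3, zero_add]
theorem tau_eq {x : X E} (hz : D.zc x ∈ D.reg) (hD : IsUnit (D.Dop x)) (v : X E) :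
    D.tau x v = D.kap x v - D.kap x (D.gH (D.eta x v) (D.asm 0 (D.lc x) (D.yc x))) := by
  have h1 : D.dPhi x (D.gH (D.eta x v) x) = D.dPhi x v :=
    DFunLike.congr_fun (Ring.mul_inverse_cancel _ hD) (D.dPhi x v)
  rw [← D.kap_gH hz, kap, kap, h1, tau]
  abel
/-- Components of a heavy gauge motion of the light part: purely heavy. -/
theorem gH_light (ξ : H) (l : X L) :
    D.gH ξ (liftI 9 D.iL l) = liftI 9 D.iH (WithLp.toLp 2 fun i => -D.adL (l i) ξ) := by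
  ext i
  simp [gH, 𝔤.anti (D.iH ξ), D.brLH]
/-- Slice formula. -/
theorem fderiv_slice (C : Cl (Th E) F) {u : X E → F} {x : X E} (hG : GaussAt 𝔤 C u x) (v : X E) :
    fderiv ℝ u x v = fderiv ℝ u x (D.tau x v) +
      C.S (lift 16 (𝔤.br (D.iH (D.eta x v)))) (u x) := by
  have := hG (D.iH (D.eta x v))
  rw [WtAt, Complex.ofReal_zero, zero_mul, zero_smul, add_zero] at this
  rw [← this, ← map_add, tau, gH, sub_add_cancel]
theorem contDiff_Dop : ContDiff ℝ ∞ D.Dop := by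
  refine contDiff_clm_apply_iff.2 fun ξ => ?_
  have l : ∀ {V : Type} [NormedAddCommGroup V] [NormedSpace ℝ V] (A : X E →ₗ[ℝ] V), ContDiff ℝ ∞ A := fun A =>
    A.toContinuousLinearMap.contDiff
  have a := D.contDiff_Phi.comp ((l D.zc).prodMk (l (D.yc ∘ₗ lift 9 (𝔤.br (D.iH ξ)))))
  have b := D.contDiff_Phi.comp ((l (D.zc ∘ₗ lift 9 (𝔤.br (D.iH ξ)))).prodMk (l D.yc))
  exact a.add b
theorem Dop_smul (r : ℝ) (x : X E) : D.Dop (r • x) = r ^ 2 • D.Dop x := by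
  ext ξ
  simp [Dop, dPhi, gH, ca_Phi_apply, sq, mul_smul]
theorem Dop_central (z : X Z) (ξ : H) :
    D.Dop (D.asm z 0 0) ξ = ∑ p, D.M p z ^ 2 • D.pr p ξ := by
  have h : ∀ a : Z, D.adZ a (-D.adZ a ξ) = ∑ p, D.α p a ^ 2 • D.pr p ξ := fun a => by
    have : D.adZ a ξ = ∑ p, D.α p a • D.pr p (D.I ξ) := by simp [adZ, D.I_pr]
    rw [this, adZ, LinearMap.sum_apply]
    refine Finset.sum_congr rfl fun p _ => ?_
    rw [LinearMap.smul_apply, LinearMap.comp_apply, map_neg, ca_pr, map_neg, map_smul, ← D.I_pr, D.I_cx.2, sq,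
      mul_smul, smul_neg (D.α p a) (D.pr p ξ), neg_neg]
  change D.dPhi _ (D.gH ξ _) = _
  rw [ca_gZ, ca_H, dPhi, zc_asm, zc_asm, yc_asm, yc_asm, ca_Phi_apply _ 0, map_zero, add_zero, Phi]
  simp only [h]
  rw [Finset.sum_comm]
  exact Finset.sum_congr rfl fun p _ => by rw [← Finset.sum_smul, M, Real.sq_sqrt (by positivity)]

theorem cb_bil {U V W : Type} [NormedAddCommGroup U] [NormedSpace ℝ U] [FiniteDimensional ℝ U]
    [NormedAddCommGroup V] [NormedSpace ℝ V] [FiniteDimensional ℝ V] [NormedAddCommGroup W] [NormedSpace ℝ W]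
    (B : U →ₗ[ℝ] V →ₗ[ℝ] W) : ∃ c : ℝ, 0 < c ∧ ∀ u v, ‖B u v‖ ≤ c * ‖u‖ * ‖v‖ := by
  let B' : U →L[ℝ] V →L[ℝ] W :=
    LinearMap.toContinuousLinearMap ((LinearMap.toContinuousLinearMap (𝕜 := ℝ) (E := V) (F' := W)).toLinearMap ∘ₗ B)
  refine ⟨‖B'‖ + 1, by positivity, fun u v => (B'.le_opNorm₂ u v).trans ?_⟩
  gcongr
  linarith

theorem cb_Phi_add (z z' : X Z) (y : X H) : D.Phi (z + z') y = D.Phi z y + D.Phi z' y := by
  simp [Phi, adZ, add_smul, Finset.sum_add_distrib]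

theorem cb_Phi_add' (z : X Z) (y y' : X H) : D.Phi z (y + y') = D.Phi z y + D.Phi z y' := by
  simp [Phi, Finset.sum_add_distrib]

theorem cb_Phi : ∃ c : ℝ, 0 < c ∧ ∀ z y, ‖D.Phi z y‖ ≤ c * ‖z‖ * ‖y‖ :=
  cb_bil (LinearMap.mk₂ ℝ D.Phi D.cb_Phi_add
    (fun r z y => by simp [Phi, adZ, Finset.smul_sum, mul_smul]) D.cb_Phi_add'
    (fun r z y => by simp [Phi, Finset.smul_sum]))

theorem cb_gH : ∃ c : ℝ, 0 < c ∧ ∀ ξ v, ‖D.gH ξ v‖ ≤ c * ‖ξ‖ * ‖v‖ :=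
  cb_bil (LinearMap.mk₂ ℝ D.gH (fun a b v => by ext i; simp [gH, lift])
    (fun r a v => by ext i; simp [gH, lift]) (fun a v w => by simp [gH]) (fun r a v => by simp [gH]))

theorem cb_dPhi {c : ℝ} (hc : 0 < c) (h : ∀ z y, ‖D.Phi z y‖ ≤ c * ‖z‖ * ‖y‖) (x v : X E) :
    ‖D.dPhi x v‖ ≤ c * (‖x‖ * ‖D.yc v‖ + ‖D.yc x‖ * ‖D.zc v‖) ∧ ‖D.dPhi x v‖ ≤ 2 * c * ‖x‖ * ‖v‖ := by
  have h1 : ‖D.dPhi x v‖ ≤ c * (‖x‖ * ‖D.yc v‖ + ‖D.yc x‖ * ‖D.zc v‖) := by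
    have h2 := h (D.zc x) (D.yc v)
    have h3 := h (D.zc v) (D.yc x)
    have h4 : c * ‖D.zc x‖ * ‖D.yc v‖ ≤ c * ‖x‖ * ‖D.yc v‖ := by gcongr; exact D.norm_zc_le x
    refine (norm_add_le _ _).trans ?_
    nlinarith
  refine ⟨h1, h1.trans ?_⟩
  calc _ ≤ c * (‖x‖ * ‖v‖ + ‖x‖ * ‖v‖) := by
        gcongr
        exacts [D.norm_yc_le v, D.norm_yc_le x, D.norm_zc_le v]
    _ = _ := by ring

theorem cb_Dop : ∃ c : ℝ, 0 < c ∧ ∀ x x', ‖D.Dop x - D.Dop x'‖ ≤ c * ‖x - x'‖ * (‖x‖ + ‖x'‖) := by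
  obtain ⟨c₁, hc₁, h₁⟩ := D.cb_Phi
  obtain ⟨c₂, hc₂, h₂⟩ := D.cb_gH
  refine ⟨2 * c₁ * c₂, by positivity, fun x x' => ?_⟩
  obtain ⟨d, rfl⟩ : ∃ d, x = x' + d := ⟨x - x', by abel⟩
  rw [add_sub_cancel_left]
  refine ContinuousLinearMap.opNorm_le_bound _ (by positivity) fun ξ => ?_
  have e : (D.Dop (x' + d) - D.Dop x') ξ = D.dPhi d (D.gH ξ (x' + d)) + D.dPhi x' (D.gH ξ d) := by
    change D.dPhi (x' + d) (D.gH ξ (x' + d)) - D.dPhi x' (D.gH ξ x') = _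
    simp only [dPhi, gH, map_add, cb_Phi_add, cb_Phi_add']
    abel
  rw [e]
  refine (norm_add_le _ _).trans ?_
  have h3 : ‖D.dPhi d (D.gH ξ (x' + d))‖ ≤ 2 * c₁ * ‖d‖ * (c₂ * ‖ξ‖ * ‖x' + d‖) :=
    (D.cb_dPhi hc₁ h₁ _ _).2.trans (by gcongr; exact h₂ _ _)
  have h4 : ‖D.dPhi x' (D.gH ξ d)‖ ≤ 2 * c₁ * ‖x'‖ * (c₂ * ‖ξ‖ * ‖d‖) :=
    (D.cb_dPhi hc₁ h₁ _ _).2.trans (by gcongr; exact h₂ _ _)
  nlinarith

theorem cb_neumann {A : Type} [NormedRing A] [CompleteSpace A] {a a₀ b₀ : A} {β : ℝ} (h1 : a₀ * b₀ = 1)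
    (h2 : b₀ * a₀ = 1) (hb : ‖b₀‖ ≤ β) (ha : β * ‖a - a₀‖ ≤ 1 / 2) :
    IsUnit a ∧ ‖Ring.inverse a‖ ≤ 2 * β ∧ ‖Ring.inverse a - b₀‖ ≤ 2 * β ^ 2 * ‖a - a₀‖ := by
  have hβ : 0 ≤ β := (norm_nonneg _).trans hb
  have h3 : ‖b₀ * (a₀ - a)‖ ≤ β * ‖a - a₀‖ := by
    rw [norm_sub_rev]
    exact (norm_mul_le _ _).trans (by gcongr)
  have hu : IsUnit a := by
    have e : a = a₀ * (1 - b₀ * (a₀ - a)) := by
      rw [mul_sub, ← mul_assoc, h1]; simp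
    rw [e]
    exact IsUnit.mul ⟨⟨a₀, b₀, h1, h2⟩, rfl⟩ (isUnit_one_sub_of_norm_lt_one (by linarith))
  have e : Ring.inverse a - b₀ = b₀ * (a₀ - a) * Ring.inverse a := by
    rw [mul_sub, h2, sub_mul, one_mul, mul_assoc, Ring.mul_inverse_cancel _ hu, mul_one]
  have h4 : ‖Ring.inverse a - b₀‖ ≤ β * ‖a - a₀‖ * ‖Ring.inverse a‖ := by
    rw [e]
    exact (norm_mul_le _ _).trans (by gcongr)
  have h5 : ‖Ring.inverse a‖ ≤ 2 * β := by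
    have h6 := norm_sub_norm_le (Ring.inverse a) b₀
    nlinarith [norm_nonneg (Ring.inverse a)]
  refine ⟨hu, h5, h4.trans ?_⟩
  calc _ ≤ β * ‖a - a₀‖ * (2 * β) := by gcongr
    _ = _ := by ring

theorem cb_inv_sub {A : Type} [NormedRing A] {a a' : A} (h : IsUnit a) (h' : IsUnit a') :
    ‖Ring.inverse a - Ring.inverse a'‖ ≤ ‖Ring.inverse a‖ * ‖a - a'‖ * ‖Ring.inverse a'‖ := by
  have e : Ring.inverse a - Ring.inverse a' = Ring.inverse a * (a' - a) * Ring.inverse a' := by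
    rw [mul_sub, Ring.inverse_mul_cancel _ h, sub_mul, one_mul, mul_assoc, Ring.mul_inverse_cancel _ h', mul_one]
  rw [e, norm_sub_rev a]
  exact (norm_mul_le _ _).trans (by gcongr; exact norm_mul_le _ _)

theorem cb_pr (p : P) (t : H) : ‖D.pr p t‖ ≤ ‖t‖ := by
  have h1 : ‖D.pr p t‖ ^ 2 ≤ ‖t‖ * ‖D.pr p t‖ := by
    rw [← real_inner_self_eq_norm_sq, D.pr_sym, D.pr_idem]
    exact real_inner_le_norm _ _
  by_contra h
  nlinarith [norm_nonneg t, not_le.1 h]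

theorem cb_diag (a b : P → ℝ) (hab : ∀ p, a p * b p = 1) (t : H) :
    ∑ p, a p • D.pr p (∑ q, b q • D.pr q t) = t := by
  classical
  conv_rhs => rw [← D.pr_sum t]
  refine Finset.sum_congr rfl fun p _ => ?_
  rw [map_sum, Finset.sum_eq_single p, map_smul, D.pr_idem, smul_smul, hab, one_smul]
  · intro q _ hq
    rw [map_smul, D.pr_orth p q hq.symm, smul_zero]
  · simp

theorem cb_asm_sub (z z' : X Z) (l l' : X L) (y y' : X H) :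
    D.asm z l y - D.asm z' l' y' = D.asm (z - z') (l - l') (y - y') := by
  simp only [asm, map_sub]
  abel

theorem cb_sq {a b : ℝ} (h : a ^ 2 ≤ b ^ 2) (hb : 0 ≤ b) : a ≤ b := (abs_le_of_sq_le_sq' h hb).2

/-- Uniform bounds on the tube. -/
theorem tube_bounds {κ : ℝ} (hκ : 1 ≤ κ) : ∃ θ₀ B : ℝ, 0 < θ₀ ∧ θ₀ ≤ 1 / 4 ∧ 0 < B ∧
    ∀ θ, 0 ≤ θ → θ ≤ θ₀ → ∀ x ∈ D.tube κ θ, x ≠ 0 →
      D.zc x ∈ D.reg ∧ IsUnit (D.Dop x) ∧ IsUnit (D.Dop (D.asm (D.zc x) (D.lc x) 0)) ∧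
      ‖Ring.inverse (D.Dop x)‖ ≤ B / ‖x‖ ^ 2 ∧
      ‖Ring.inverse (D.Dop (D.asm (D.zc x) (D.lc x) 0))‖ ≤ B / ‖x‖ ^ 2 ∧
      ‖Ring.inverse (D.Dop x) - Ring.inverse (D.Dop (D.asm (D.zc x) (D.lc x) 0))‖ ≤
        B * ‖D.yc x‖ / ‖x‖ ^ 3 ∧
      ‖Ring.inverse (D.Dop x) - LinearMap.toContinuousLinearMap (D.Minv (D.zc x))‖ ≤
        B * θ / ‖x‖ ^ 2 ∧
      (∀ v, ‖D.dPhi x v‖ ≤ B * (‖x‖ * ‖D.yc v‖ + ‖D.yc x‖ * ‖D.zc v‖)) ∧
      (∀ t, ‖D.lam (D.zc x) t‖ ≤ B * ‖t‖ / ‖x‖) ∧ (∀ v, ‖D.kap x v‖ ≤ B * ‖v‖) ∧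
      (∀ ξ v, ‖D.gH ξ v‖ ≤ B * ‖ξ‖ * ‖v‖) := by
  obtain ⟨c₁, hc₁, h₁⟩ := D.cb_Phi
  obtain ⟨c₂, hc₂, h₂⟩ := D.cb_gH
  obtain ⟨c₃, hc₃, h₃⟩ := D.cb_Dop
  obtain ⟨K, hK1, hK⟩ : ∃ K : ℝ, 1 ≤ K ∧ Fintype.card P * κ ^ 2 ≤ K :=
    ⟨Fintype.card P * κ ^ 2 + 1, le_add_of_nonneg_left (by positivity), by linarith⟩
  have hK0 : 0 < K := by linarith
  have p1 : 0 < K ^ 2 * c₃ := by positivity
  have p2 : 0 < c₁ * K := by positivity
  obtain ⟨B, b1, b2, b3, b4, b5⟩ : ∃ B : ℝ, 2 * K ≤ B ∧ 8 * (K ^ 2 * c₃) ≤ B ∧ c₁ ≤ B ∧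
      1 + 2 * (c₁ * K) ≤ B ∧ c₂ ≤ B :=
    ⟨2 * K + 8 * (K ^ 2 * c₃) + c₁ + (1 + 2 * (c₁ * K)) + c₂, by linarith, by linarith, by linarith, by linarith,
      by linarith⟩
  refine ⟨min (1 / 4) (1 / (4 * c₃ * K)), B, by positivity, min_le_left _ _, by linarith,
    fun θ hθ hθ₀ x hx hx0 => ?_⟩
  have hn : 0 < ‖x‖ := norm_pos_iff.2 hx0
  have hθ1 : θ * (4 * c₃ * K) ≤ 1 := by
    have := hθ₀.trans (min_le_right _ _)
    rwa [le_div_iff₀ (by positivity)] at this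
  have hreg : D.zc x ∈ D.reg := fun p => (pos_iff_pos_of_mul_pos (hn.trans_le (hx.1 p))).1 (by linarith)
  have hM : ∀ p, (D.M p (D.zc x) ^ 2)⁻¹ ≤ κ ^ 2 / ‖x‖ ^ 2 := fun p => by
    have h1 := hreg p
    rw [inv_eq_one_div, div_le_div_iff₀ (by positivity) (by positivity), one_mul, ← mul_pow]
    exact pow_le_pow_left₀ hn.le (hx.1 p) 2
  have hsum : ∀ f : P → ℝ, ∀ s : ℝ, 0 ≤ s → (∀ p, 0 ≤ f p ∧ f p ≤ s) →
      ∑ p, (D.M p (D.zc x) ^ 2)⁻¹ * f p ≤ K / ‖x‖ ^ 2 * s := fun f s hs hf => by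
    calc _ ≤ ∑ _p : P, κ ^ 2 / ‖x‖ ^ 2 * s :=
          Finset.sum_le_sum fun p _ => mul_le_mul (hM p) (hf p).2 (hf p).1 (by positivity)
      _ = Fintype.card P * κ ^ 2 / ‖x‖ ^ 2 * s := by
          rw [Finset.sum_const, Finset.card_univ, nsmul_eq_mul]; ring
      _ ≤ _ := by gcongr
  have hb : ‖LinearMap.toContinuousLinearMap (D.Minv (D.zc x))‖ ≤ K / ‖x‖ ^ 2 := by
    refine ContinuousLinearMap.opNorm_le_bound _ (by positivity) fun t => ?_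
    refine le_trans ?_ (hsum (fun p => ‖D.pr p t‖) ‖t‖ (norm_nonneg t) fun p => ⟨norm_nonneg _, D.cb_pr p t⟩)
    simp only [LinearMap.coe_toContinuousLinearMap', Minv, LinearMap.sum_apply, LinearMap.smul_apply]
    refine (norm_sum_le _ _).trans (Finset.sum_le_sum fun p _ => ?_)
    rw [norm_smul, Real.norm_of_nonneg (by positivity)]
  have e1 : D.Dop (D.asm (D.zc x) 0 0) * LinearMap.toContinuousLinearMap (D.Minv (D.zc x)) = 1 := by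
    ext t
    change D.Dop (D.asm (D.zc x) 0 0) (D.Minv (D.zc x) t) = t
    rw [D.Dop_central]
    simp only [Minv, LinearMap.sum_apply, LinearMap.smul_apply]
    exact D.cb_diag _ _ (fun p => mul_inv_cancel₀ (pow_pos (hreg p) 2).ne') t
  have e2 : LinearMap.toContinuousLinearMap (D.Minv (D.zc x)) * D.Dop (D.asm (D.zc x) 0 0) = 1 := by
    ext t
    change D.Minv (D.zc x) (D.Dop (D.asm (D.zc x) 0 0) t) = t
    rw [D.Dop_central]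
    simp only [Minv, LinearMap.sum_apply, LinearMap.smul_apply]
    exact D.cb_diag _ _ (fun p => inv_mul_cancel₀ (pow_pos (hreg p) 2).ne') t
  have hl := norm_nonneg (D.lc x)
  have hy := norm_nonneg (D.yc x)
  have hxx : ‖x‖ ^ 2 = ‖D.zc x‖ ^ 2 + ‖D.lc x‖ ^ 2 + ‖D.yc x‖ ^ 2 := by
    rw [← D.norm_asm_sq, D.asm_eq]
  have n0 : ‖D.asm (D.zc x) 0 0‖ ≤ ‖x‖ := by
    refine cb_sq ?_ hn.le
    rw [D.norm_asm_sq, hxx, norm_zero, norm_zero]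
    nlinarith
  have n1 : ‖D.asm (D.zc x) (D.lc x) 0‖ ≤ ‖x‖ := by
    refine cb_sq ?_ hn.le
    rw [D.norm_asm_sq, hxx, norm_zero]
    nlinarith
  have d0 : ‖x - D.asm (D.zc x) 0 0‖ ≤ θ * ‖x‖ := by
    refine le_trans (cb_sq ?_ (by positivity)) hx.2
    conv_lhs => rw [← D.asm_eq x]
    simp only [zc_asm, cb_asm_sub, D.norm_asm_sq, sub_self, sub_zero, norm_zero]
    nlinarith [mul_nonneg hl hy]
  have d1 : ‖D.asm (D.zc x) (D.lc x) 0 - D.asm (D.zc x) 0 0‖ ≤ θ * ‖x‖ := by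
    refine le_trans (cb_sq ?_ (by positivity)) hx.2
    simp only [cb_asm_sub, D.norm_asm_sq, sub_self, sub_zero, norm_zero]
    nlinarith [mul_nonneg hl hy]
  have d2 : ‖x - D.asm (D.zc x) (D.lc x) 0‖ ≤ ‖D.yc x‖ := by
    refine cb_sq ?_ hy
    conv_lhs => rw [← D.asm_eq x]
    simp only [zc_asm, lc_asm, cb_asm_sub, D.norm_asm_sq, sub_self, sub_zero, norm_zero]
    nlinarith
  have hnear : ∀ x', ‖x'‖ ≤ ‖x‖ → ‖x' - D.asm (D.zc x) 0 0‖ ≤ θ * ‖x‖ →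
      ‖D.Dop x' - D.Dop (D.asm (D.zc x) 0 0)‖ ≤ 2 * c₃ * θ * ‖x‖ ^ 2 ∧
      K / ‖x‖ ^ 2 * ‖D.Dop x' - D.Dop (D.asm (D.zc x) 0 0)‖ ≤ 1 / 2 := fun x' h4 h5 => by
    have h6 : ‖D.Dop x' - D.Dop (D.asm (D.zc x) 0 0)‖ ≤ 2 * c₃ * θ * ‖x‖ ^ 2 :=
      calc _ ≤ c₃ * (θ * ‖x‖) * (‖x‖ + ‖x‖) := (h₃ _ _).trans (by gcongr)
        _ = _ := by ring
    refine ⟨h6, ?_⟩
    calc _ ≤ K / ‖x‖ ^ 2 * (2 * c₃ * θ * ‖x‖ ^ 2) := by gcongr
      _ = θ * (4 * c₃ * K) / 2 := by field_simp; ring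
      _ ≤ _ := by linarith
  obtain ⟨u0, i0, j0⟩ := cb_neumann e1 e2 hb (hnear x le_rfl d0).2
  obtain ⟨u1, i1, -⟩ := cb_neumann e1 e2 hb (hnear _ n1 d1).2
  have hB : 2 * (K / ‖x‖ ^ 2) ≤ B / ‖x‖ ^ 2 := by
    rw [← mul_div_assoc]; gcongr
  have hlam : ∀ t, ‖D.lam (D.zc x) t‖ ≤ K * ‖t‖ / ‖x‖ := fun t => by
    refine cb_sq ?_ (by positivity)
    rw [D.norm_lam_sq hreg]
    have h4 := hsum (fun p => ‖D.pr p t‖ ^ 2) (‖t‖ ^ 2) (by positivity)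
      fun p => ⟨by positivity, pow_le_pow_left₀ (norm_nonneg _) (D.cb_pr p t) 2⟩
    simp only [div_eq_inv_mul (‖D.pr _ t‖ ^ 2)]
    calc _ ≤ K / ‖x‖ ^ 2 * ‖t‖ ^ 2 := h4
      _ ≤ K ^ 2 / ‖x‖ ^ 2 * ‖t‖ ^ 2 := by gcongr; nlinarith
      _ = _ := by ring
  refine ⟨hreg, u0, u1, i0.trans hB, i1.trans hB, ?_, ?_, fun v => ?_, fun t => ?_, fun v => ?_, fun ξ v => ?_⟩
  · calc _ ≤ 2 * (K / ‖x‖ ^ 2) * (c₃ * ‖D.yc x‖ * (‖x‖ + ‖x‖)) * (2 * (K / ‖x‖ ^ 2)) := by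
          refine (cb_inv_sub u0 u1).trans ?_
          gcongr
          exact (h₃ _ _).trans (by gcongr)
      _ = 8 * (K ^ 2 * c₃) * ‖D.yc x‖ / ‖x‖ ^ 3 := by field_simp; ring
      _ ≤ _ := by gcongr
  · calc _ ≤ 2 * (K / ‖x‖ ^ 2) ^ 2 * (2 * c₃ * θ * ‖x‖ ^ 2) := j0.trans (by gcongr; exact (hnear x le_rfl d0).1)
      _ = 4 * (K ^ 2 * c₃) * θ / ‖x‖ ^ 2 := by field_simp; ring
      _ ≤ _ := by gcongr; linarith
  · exact (D.cb_dPhi hc₁ h₁ x v).1.trans (by gcongr)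
  · exact (hlam t).trans (by gcongr; linarith)
  · have h4 : ‖D.lam (D.zc x) (D.dPhi x v)‖ ≤ 2 * (c₁ * K) * ‖v‖ :=
      calc _ ≤ K * (2 * c₁ * ‖x‖ * ‖v‖) / ‖x‖ := (hlam _).trans (by gcongr; exact (D.cb_dPhi hc₁ h₁ x v).2)
        _ = _ := by field_simp
    calc _ ≤ ‖v‖ + ‖D.lam (D.zc x) (D.dPhi x v)‖ := by
          refine (norm_sub_le _ _).trans ?_
          rw [LinearIsometry.norm_map]
      _ ≤ (1 + 2 * (c₁ * K)) * ‖v‖ := by linarith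
      _ ≤ _ := by gcongr
  · exact (h₂ ξ v).trans (by gcongr)

end Levi

end Crest.Agent.R330

end
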