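import Crest.Agent.R330.B0.C

/-! # Row 330, B0/D (statements frozen; see `R330/Blueprint.lean`) -/

set_option autoImplicit false
set_option linter.unusedSectionVars false

noncomputable section

open MeasureTheory Filter Topology
open scoped InnerProductSpace ContDiff Matrix
open Crest.MathPhysics.MatrixQM (GammaNine)

namespace Crest.Agent.R330

variable {E Z L H F : Type}
  [NormedAddCommGroup E] [InnerProductSpace ℝ E] [FiniteDimensional ℝ E]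
  [NormedAddCommGroup Z] [InnerProductSpace ℝ Z] [FiniteDimensional ℝ Z]
  [NormedAddCommGroup L] [InnerProductSpace ℝ L] [FiniteDimensional ℝ L]
  [NormedAddCommGroup H] [InnerProductSpace ℝ H] [FiniteDimensional ℝ H]
  [NormedAddCommGroup F] [InnerProductSpace ℂ F] [FiniteDimensional ℂ F]
  {P : Type} [Fintype P] {𝔤 : Lie E} (D : Levi 𝔤 Z L H P)

namespace Levi

/-! ### B0c: potential and Yukawa matrix in the tube -/

theorem b0da_cliff (G : GammaNine) (a : Fin 9 → ℝ) :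
    (∑ i, a i • G.γ i) * (∑ i, a i • G.γ i) = (∑ i, a i ^ 2) • (1 : Matrix (Fin 16) (Fin 16) ℝ) := by
  have h1 : (∑ i, a i • G.γ i) * (∑ i, a i • G.γ i) = ∑ i, ∑ j, (a i * a j) • (G.γ i * G.γ j) := by
    rw [Finset.sum_mul_sum]
    simp only [smul_mul_smul_comm]
  have h2 : (∑ i, a i • G.γ i) * (∑ i, a i • G.γ i) = ∑ i, ∑ j, (a i * a j) • (G.γ j * G.γ i) := by
    rw [h1, Finset.sum_comm]
    simp only [mul_comm]
  have h3 : (2 : ℝ) • ((∑ i, a i • G.γ i) * (∑ i, a i • G.γ i)) =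
      (2 : ℝ) • (∑ i, a i ^ 2) • (1 : Matrix (Fin 16) (Fin 16) ℝ) := by
    rw [two_smul]
    nth_rewrite 1 [h1]
    rw [h2, ← Finset.sum_add_distrib, Finset.sum_smul, Finset.smul_sum]
    refine Finset.sum_congr rfl fun i _ => ?_
    rw [← Finset.sum_add_distrib]
    simp only [← smul_add, G.clifford, smul_ite, smul_zero, Finset.sum_ite_eq, Finset.mem_univ, if_true]
    rw [← one_add_one_eq_two (R := Matrix (Fin 16) (Fin 16) ℝ)]
    module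
  exact smul_right_injective _ two_ne_zero h3

theorem b0da_mat_lift {E' : Type} [NormedAddCommGroup E'] [InnerProductSpace ℝ E'] [FiniteDimensional ℝ E']
    {m n : ℕ} (M : Matrix (Fin m) (Fin n) ℝ) (A : H →ₗ[ℝ] E') (v : T n H) :
    mat M (lift n A v) = lift m A (mat M v) :=
  LinearMap.congr_fun (mat_lift M A) v

theorem b0da_II (p q : P) (v : H) :
    D.I (D.pr p (D.I (D.pr q v))) = -D.pr p (D.pr q v) := by
  rw [← D.I_pr, D.I_cx.2]

/-- `Σ_p Σ_i c_{p i} γ^i ⊗ I pr_p` -/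
def b0daY (G : GammaNine) (c : P → Fin 9 → ℝ) : Th H →ₗ[ℝ] Th H :=
  ∑ p, ∑ i, c p i • (mat (G.γ i) ∘ₗ lift 16 (D.I ∘ₗ D.pr p))

theorem b0da_Y_apply (G : GammaNine) (c : P → Fin 9 → ℝ) (v : Th H) :
    D.b0daY G c v = ∑ p, mat (∑ i, c p i • G.γ i) (lift 16 (D.I ∘ₗ D.pr p) v) := by
  simp only [b0daY, LinearMap.sum_apply, LinearMap.smul_apply, LinearMap.comp_apply]
  refine Finset.sum_congr rfl fun p _ => ?_
  ext a
  simp only [WithLp.ofLp_sum, Finset.sum_apply, PiLp.smul_apply, mat_apply, Matrix.sum_apply,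
    Matrix.smul_apply, smul_eq_mul, Finset.sum_smul, Finset.smul_sum, mul_smul]
  exact Finset.sum_comm

theorem b0da_Y_sq (G : GammaNine) (c : P → Fin 9 → ℝ) (v : Th H) :
    D.b0daY G c (D.b0daY G c v) = -lift 16 (∑ p, (∑ i, c p i ^ 2) • D.pr p) v := by
  classical
  have h : ∀ p q, mat (∑ i, c p i • G.γ i) (lift 16 (D.I ∘ₗ D.pr p)
      (mat (∑ i, c q i • G.γ i) (lift 16 (D.I ∘ₗ D.pr q) v))) =
      if p = q then -((∑ i, c p i ^ 2) • lift 16 (D.pr p) v) else 0 := fun p q => by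
    rw [← b0da_mat_lift, ← LinearMap.comp_apply (mat _) (mat _), ← mat_mul]
    split_ifs with h
    · subst h
      rw [b0da_cliff, mat_smul, mat_one]
      ext a
      simp [b0da_II, D.pr_idem]
    · have : lift 16 (D.I ∘ₗ D.pr p) (lift 16 (D.I ∘ₗ D.pr q) v) = 0 := by
        ext a
        simp [b0da_II, D.pr_orth p q h]
      rw [this, map_zero]
  rw [b0da_Y_apply, b0da_Y_apply]
  simp only [map_sum, h, Finset.sum_ite_eq, Finset.mem_univ, if_true]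
  ext a
  simp [LinearMap.sum_apply]

theorem b0da_Y_skew (G : GammaNine) (c : P → Fin 9 → ℝ) : IsSkew (D.b0daY G c) := by
  intro u v
  simp only [b0daY, LinearMap.sum_apply, LinearMap.smul_apply, LinearMap.comp_apply, sum_inner, inner_sum,
    real_inner_smul_left, real_inner_smul_right, ← Finset.sum_neg_distrib]
  refine Finset.sum_congr rfl fun p _ => Finset.sum_congr rfl fun i _ => ?_
  have h1 : IsSkew (D.I ∘ₗ D.pr p) := fun a b => by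
    rw [LinearMap.comp_apply, LinearMap.comp_apply, D.I_cx.1, D.pr_sym, D.I_pr]
  have h2 : ∀ a b : Th H, ⟪mat (G.γ i) a, b⟫_ℝ = ⟪a, mat (G.γ i) b⟫_ℝ := fun a b => by
    rw [← LinearMap.adjoint_inner_right, adjoint_mat, G.symm]
  rw [h2, isSkew_lift h1, b0da_mat_lift, mul_neg]

theorem b0da_M_sq (p : P) (z : X Z) : ∑ i, D.α p (z i) ^ 2 = D.M p z ^ 2 :=
  (Real.sq_sqrt (Finset.sum_nonneg fun _ _ => sq_nonneg _)).symm

theorem b0da_pr_sum (p : P) (c : P → ℝ) (v : H) : D.pr p ((∑ q, c q • D.pr q) v) = c p • D.pr p v := by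
  classical
  rw [LinearMap.sum_apply, map_sum, Finset.sum_eq_single p]
  · rw [LinearMap.smul_apply, map_smul, D.pr_idem]
  · intro q _ hq
    rw [LinearMap.smul_apply, map_smul, D.pr_orth p q hq.symm, smul_zero]
  · simp

theorem b0da_Y_eq (G : GammaNine) (z : X Z) :
    D.b0daY G (fun p i => D.α p (z i)) = ∑ i, mat (G.γ i) ∘ₗ lift 16 (D.adZ (z i)) := by
  rw [b0daY, Finset.sum_comm]
  refine Finset.sum_congr rfl fun i _ => ?_
  ext v a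
  simp only [adZ, LinearMap.sum_apply, LinearMap.smul_apply, LinearMap.comp_apply, WithLp.ofLp_sum,
    Finset.sum_apply, PiLp.smul_apply, mat_apply, lift_apply, Finset.smul_sum]
  rw [Finset.sum_comm]
  exact Finset.sum_congr rfl fun b _ => Finset.sum_congr rfl fun p _ => smul_comm _ _ _

theorem b0da_brZH (a : Z) (v : H) : 𝔤.br (D.iZ a) (D.iH v) = D.iH (D.adZ a v) := by
  rw [D.brZH, adZ]
  simp [LinearMap.sum_apply]

theorem isCx_J (G : GammaNine) {z : X Z} (hz : z ∈ D.reg) : IsCx (D.J G z) := by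
  refine ⟨D.b0da_Y_skew G _, fun v => (D.b0da_Y_sq G (fun p i => D.α p (z i) / D.M p z) v).trans ?_⟩
  have h : ∀ p, ∑ i, (D.α p (z i) / D.M p z) ^ 2 = 1 := fun p => by
    simp only [div_pow]
    rw [← Finset.sum_div, b0da_M_sq, div_self (pow_ne_zero 2 (hz p).ne')]
  simp only [h, one_smul]
  ext a
  simp [LinearMap.sum_apply, D.pr_sum]

/-- Mass operator `Σ_p M_p pr_p`. -/
def Mop (z : X Z) : H →ₗ[ℝ] H := ∑ p, D.M p z • D.pr p

theorem b0da_J_Mop (G : GammaNine) {z : X Z} (hz : z ∈ D.reg) :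
    D.J G z ∘ₗ lift 16 (D.Mop z) = ∑ i, mat (G.γ i) ∘ₗ lift 16 (D.adZ (z i)) := by
  rw [← b0da_Y_eq]
  refine LinearMap.ext fun v => ?_
  simp only [J, b0daY, LinearMap.sum_apply, LinearMap.smul_apply, LinearMap.comp_apply]
  refine Finset.sum_congr rfl fun p _ => Finset.sum_congr rfl fun i _ => ?_
  have : lift 16 (D.I ∘ₗ D.pr p) (lift 16 (D.Mop z) v) = D.M p z • lift 16 (D.I ∘ₗ D.pr p) v := by
    ext a
    simp only [lift_apply, LinearMap.comp_apply, Mop, b0da_pr_sum, map_smul, PiLp.smul_apply]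
  rw [this, map_smul, smul_smul, div_mul_cancel₀ _ (hz p).ne']

theorem b0da_cmap (G : GammaNine) (u : Fin 16 → ℝ) (ι : H →ₗᵢ[ℝ] E) (y : X H) :
    cmap G u (liftI 9 ι y) = liftI 16 ι (cmap G u y) :=
  b0da_mat_lift _ ι.toLinearMap y

theorem b0da_fderiv (G : GammaNine) (u : Fin 16 → ℝ) (x : X E) (A : Fin 9 → H →ₗ[ℝ] H)
    (h : ∀ i v, 𝔤.br (x i) (D.iH v) = D.iH (A i v)) (y : X H) :
    fderiv ℝ (wpot 𝔤 G u) x (liftI 9 D.iH y) =
      liftI 16 D.iH ((∑ i, mat (G.γ i) ∘ₗ lift 16 (A i)) (cmap G u y) - tens u (∑ i, A i (y i))) := by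
  rw [fderiv_wpot, b0da_cmap]
  ext a
  simp [LinearMap.sum_apply, h]

/-- The part of the potential linear in `y` at the central point: `M 𝒥 c(y^⊥)`. -/
theorem fderiv_wpot_central (G : GammaNine) (u : Fin 16 → ℝ) {z : X Z} (hz : z ∈ D.reg) (y : X H) :
    fderiv ℝ (wpot 𝔤 G u) (liftI 9 D.iZ z) (liftI 9 D.iH y) =
      liftI 16 D.iH (D.J G z (lift 16 (D.Mop z) (cmap G u (D.perp z y)))) := by
  rw [D.b0da_fderiv G u _ (fun i => D.adZ (z i)) fun i v => D.b0da_brZH _ v]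
  congr 1
  have h1 : ∀ t, cmap G u (D.lam z t) =
      -(∑ i, mat (G.γ i) ∘ₗ lift 16 (D.adZ (z i))) (tens u (D.Minv z t)) := fun t => by
    rw [cmap_eq_sum, LinearMap.sum_apply, ← Finset.sum_neg_distrib]
    refine Finset.sum_congr rfl fun i _ => ?_
    rw [LinearMap.comp_apply, lift_tens, mat_tens]
    ext a
    simp [lam]
  have h2 : ∀ t, (∑ p, (∑ i, D.α p (z i) ^ 2) • D.pr p) (D.Minv z t) = t := fun t => by
    rw [LinearMap.sum_apply]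
    refine (Finset.sum_congr rfl fun p _ => ?_).trans (D.pr_sum t)
    rw [LinearMap.smul_apply, Minv, b0da_pr_sum, b0da_M_sq, smul_smul,
      mul_inv_cancel₀ (pow_ne_zero 2 (hz p).ne'), one_smul]
  rw [← LinearMap.comp_apply (D.J G z), D.b0da_J_Mop G hz, perp, map_sub, map_sub, h1, map_neg, ← b0da_Y_eq,
    b0da_Y_sq, neg_neg, lift_tens, h2]
  rfl

/-- Expansion of the deformed potential. -/
theorem wd_asm (σ : Spn) (ε : ℝ) (z : X Z) (l : X L) (y : X H) :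
    wd 𝔤 σ ε (fun _ => 0) (D.asm z l y) =
      liftI 16 D.iZ (ε • cmap σ.G σ.s (mat V0 z)) + liftI 16 D.iL (wd D.𝔩 σ ε (fun _ => 0) l) +
        fderiv ℝ (wpot 𝔤 σ.G σ.s) (liftI 9 D.iZ z) (liftI 9 D.iH y) +
        fderiv ℝ (wpot 𝔤 σ.G σ.s) (liftI 9 D.iL l) (liftI 9 D.iH y) +
        wpot 𝔤 σ.G σ.s (liftI 9 D.iH y) + liftI 16 D.iH (ε • cmap σ.G σ.s (mat V0 y)) := by
  have h1 : wpot 𝔤 σ.G σ.s (liftI 9 D.iZ z + liftI 9 D.iL l) = liftI 16 D.iL (wpot D.𝔩 σ.G σ.s l) := by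
    have h : ∀ a b a' b', 𝔤.br (D.iZ a + D.iL b) (D.iZ a' + D.iL b') = D.iL (D.𝔩.br b b') :=
      fun a b a' b' => by
        simp only [map_add, LinearMap.add_apply, D.brZZ, D.brZL, D.brLL, 𝔤.anti (D.iL b) (D.iZ a')]
        simp
    simp only [wpot, PiLp.add_apply, liftI_apply, h]
    ext a
    simp
  have h2 : fderiv ℝ (wpot 𝔤 σ.G σ.s) (liftI 9 D.iZ z + liftI 9 D.iL l) (liftI 9 D.iH y) =
      fderiv ℝ (wpot 𝔤 σ.G σ.s) (liftI 9 D.iZ z) (liftI 9 D.iH y) +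
        fderiv ℝ (wpot 𝔤 σ.G σ.s) (liftI 9 D.iL l) (liftI 9 D.iH y) := by
    simp only [fderiv_wpot]
    ext a
    simp [LinearMap.sum_apply, Finset.sum_add_distrib]
    abel
  have h3 : ∀ {K : Type} [NormedAddCommGroup K] [InnerProductSpace ℝ K] [FiniteDimensional ℝ K]
      (ι : K →ₗᵢ[ℝ] E) (v : X K),
      cmap σ.G σ.s (mat V0 (liftI 9 ι v)) = liftI 16 ι (cmap σ.G σ.s (mat V0 v)) := fun ι v => by
    rw [← b0da_cmap]
    exact congrArg _ (b0da_mat_lift _ ι.toLinearMap v)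
  have h4 : ∀ {K : Type} [NormedAddCommGroup K] [InnerProductSpace ℝ K] [FiniteDimensional ℝ K],
      tens σ.s' (0 : K) = 0 := fun {K} _ _ _ => by
    ext a
    simp
  simp only [wd, asm, h4, add_zero]
  rw [wpot_add, h1, h2]
  simp only [map_add, map_smul, h3, smul_add]
  abel

/-- The light–heavy cross term is heavy. -/
theorem fderiv_wpot_light (G : GammaNine) (u : Fin 16 → ℝ) (l : X L) (y : X H) :
    fderiv ℝ (wpot 𝔤 G u) (liftI 9 D.iL l) (liftI 9 D.iH y) =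
      liftI 16 D.iH ((∑ i, mat (G.γ i) ∘ₗ lift 16 (D.adL (l i))) (cmap G u y) -
        tens u (∑ i, D.adL (l i) (y i))) := by
  exact D.b0da_fderiv G u _ (fun i => D.adL (l i)) (fun i v => D.brLH _ v) y

theorem cmap_iZ (G : GammaNine) (u : Fin 16 → ℝ) (z : X Z) :
    cmap G u (liftI 9 D.iZ z) = liftI 16 D.iZ (cmap G u z) := by
  exact b0da_cmap G u _ z
theorem cmap_iL (G : GammaNine) (u : Fin 16 → ℝ) (l : X L) :
    cmap G u (liftI 9 D.iL l) = liftI 16 D.iL (cmap G u l) := b0da_cmap G u _ l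
theorem cmap_iH (G : GammaNine) (u : Fin 16 → ℝ) (y : X H) :
    cmap G u (liftI 9 D.iH y) = liftI 16 D.iH (cmap G u y) := b0da_cmap G u _ y

/-- The Yukawa term of the central part is the heavy oscillator bilinear. -/
theorem iS_yuk_central (C : Cl (Th E) F) (G : GammaNine) {z : X Z} (hz : z ∈ D.reg) :
    C.iS (∑ i, mat (G.γ i) ∘ₗ lift 16 (𝔤.br (D.iZ (z i)))) =
      (D.CH C).iS (D.J G z ∘ₗ lift 16 (D.Mop z)) := by
  have h : ∀ a : Z, 𝔤.br (D.iZ a) =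
      D.iH.toLinearMap ∘ₗ D.adZ a ∘ₗ LinearMap.adjoint D.iH.toLinearMap := fun a => by
    refine LinearMap.ext fun v => ?_
    obtain ⟨b, c, d, rfl⟩ := D.span v
    have : LinearMap.adjoint D.iH.toLinearMap (D.iZ b + D.iL c + D.iH d) = d := by
      refine ext_inner_right ℝ fun w => ?_
      rw [LinearMap.adjoint_inner_left, inner_add_left, inner_add_left]
      simp [D.oZH, D.oLH]
    rw [LinearMap.comp_apply, LinearMap.comp_apply, this, map_add, map_add, D.brZZ, D.brZL, D.b0da_brZH]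
    simp
  rw [Cl.iS, Cl.iS, CH, Cl.S_comap, D.b0da_J_Mop G hz]
  congr 2
  have e : (liftI 16 D.iH).toLinearMap = lift 16 D.iH.toLinearMap := rfl
  rw [e, adjoint_lift]
  ext v a
  simp [LinearMap.sum_apply, h]

theorem Db_pr_Mop (z : X Z) (p : P) (h : H) : D.pr p (D.Mop z h) = D.M p z • D.pr p h := by
  classical
  simp only [Mop, LinearMap.sum_apply, LinearMap.smul_apply, map_sum, map_smul]
  rw [Finset.sum_eq_single p (fun q _ hq => by rw [D.pr_orth p q hq.symm, smul_zero]) (by simp), D.pr_idem]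

theorem Db_Mop_pr (z : X Z) (p : P) (h : H) : D.Mop z (D.pr p h) = D.M p z • D.pr p h := by
  classical
  simp only [Mop, LinearMap.sum_apply, LinearMap.smul_apply]
  rw [Finset.sum_eq_single p (fun q _ hq => by rw [D.pr_orth q p hq, smul_zero]) (by simp), D.pr_idem]

theorem Db_Mop_sym (z : X Z) {n : ℕ} (u v : T n H) :
    ⟪lift n (D.Mop z) u, v⟫_ℝ = ⟪u, lift n (D.Mop z) v⟫_ℝ := by
  simp only [PiLp.inner_apply, lift_apply, Mop, LinearMap.sum_apply, LinearMap.smul_apply, sum_inner, inner_sum,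
    real_inner_smul_left, real_inner_smul_right, D.pr_sym]

theorem Db_Mop_ge (z : X Z) {lm : ℝ} (h : ∀ p, lm ≤ D.M p z) {n : ℕ} (v : T n H) :
    lm * ‖v‖ ^ 2 ≤ ⟪v, lift n (D.Mop z) v⟫_ℝ := by
  rw [← real_inner_self_eq_norm_sq, PiLp.inner_apply, PiLp.inner_apply, Finset.mul_sum]
  refine Finset.sum_le_sum fun a _ => ?_
  conv_lhs => rw [← D.pr_sum (v a), inner_sum, D.pr_sum, Finset.mul_sum]
  simp only [lift_apply, Mop, LinearMap.sum_apply, LinearMap.smul_apply, inner_sum, real_inner_smul_right]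
  refine Finset.sum_le_sum fun p _ => mul_le_mul_of_nonneg_right (h p) ?_
  rw [← D.pr_idem, ← D.pr_sym]
  exact real_inner_self_nonneg

theorem Db_comm (G : GammaNine) (z : X Z) : lift 16 (D.Mop z) ∘ₗ D.J G z = D.J G z ∘ₗ lift 16 (D.Mop z) := by
  have : ∀ p h, D.Mop z (D.I (D.pr p h)) = D.I (D.pr p (D.Mop z h)) := fun p h => by
    rw [D.Db_pr_Mop, map_smul, D.I_pr, D.Db_Mop_pr]
  refine LinearMap.ext fun v => PiLp.ext fun a => ?_
  simp [J, this]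

theorem Db_trace (z : X Z) : LinearMap.trace ℝ (Th H) (lift 16 (D.Mop z)) / 4 = 4 * ∑ p, D.m p * D.M p z := by
  have := trace_mat_lift (1 : Matrix (Fin 16) (Fin 16) ℝ) (D.Mop z)
  rw [mat_one, LinearMap.id_comp] at this
  rw [this]
  simp only [Mop, map_sum, map_smul, D.trace_pr, smul_eq_mul, Matrix.trace_one, Fintype.card_fin, mul_comm (D.M _ _)]
  push_cast
  ring

theorem Db_norm_cx {V : Type} [NormedAddCommGroup V] [InnerProductSpace ℝ V] {J : V →ₗ[ℝ] V} (h : IsCx J) (v : V) :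
    ‖J v‖ = ‖v‖ := by
  have := h.1 v (J v)
  rw [h.2, inner_neg_right, neg_neg, real_inner_self_eq_norm_sq, real_inner_self_eq_norm_sq] at this
  exact (pow_left_inj₀ (norm_nonneg _) (norm_nonneg _) two_ne_zero).1 this

theorem Db_pot (σ : Spn) {κ : ℝ} (hκ : 1 ≤ κ) : ∃ θ₀ a : ℝ, 0 < θ₀ ∧ θ₀ ≤ 1 / 4 ∧ 0 < a ∧
    ∀ θ, 0 < θ → θ ≤ θ₀ → ∀ ε, 0 ≤ ε → ε ≤ 1 → ∀ x ∈ D.tube κ θ, 1 / θ ≤ ‖x‖ →
      ‖D.Phi (D.zc x) (D.yc x)‖ < 1 → D.zc x ∈ D.reg ∧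
        (1 - a * θ) * ‖lift 9 (D.Mop (D.zc x)) (D.perp (D.zc x) (D.yc x))‖ ^ 2 - a * θ ≤
          ‖wd 𝔤 σ ε (fun _ => 0) x‖ ^ 2 ∧
        ‖x‖ * ‖D.yc x‖ ≤ κ * ‖lift 9 (D.Mop (D.zc x)) (D.perp (D.zc x) (D.yc x))‖ + a := by
  obtain ⟨θ₀, B, h0, h4, hB, hT⟩ := D.tube_bounds hκ
  obtain ⟨b, hb, hw⟩ := exists_norm_wpot 𝔤 σ.G σ.unit
  refine ⟨θ₀, 2 * ((b + 4) * κ) + 1 + ((b + 4) * B) ^ 2 + B, h0, h4, by positivity,
    fun θ t0 t1 ε e0 e1 x hx hR hΦ => ?_⟩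
  have hN : 0 < ‖x‖ := (one_div_pos.2 t0).trans_le hR
  have hθN : 1 ≤ θ * ‖x‖ := by rwa [div_le_iff₀' t0] at hR
  obtain ⟨hz, -, -, -, -, -, -, -, hlam, -⟩ := hT θ t0.le t1 x hx (norm_pos_iff.1 hN)
  have ex := D.asm_eq x
  have hly := hx.2
  have hM := hx.1
  generalize D.zc x = z at *
  generalize D.lc x = l at *
  generalize D.yc x = y at *
  set m := ‖lift 9 (D.Mop z) (D.perp z y)‖ with hm
  have m0 : 0 ≤ m := norm_nonneg _
  have a1 : ‖x‖ * ‖D.perp z y‖ ≤ κ * m := by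
    have h1 := (D.Db_Mop_ge z (lm := ‖x‖ / κ) (fun p => (div_le_iff₀' (by linarith)).2 (hM p)) (D.perp z y)).trans
      (real_inner_le_norm _ _)
    rw [div_mul_eq_mul_div, div_le_iff₀ (by linarith), ← hm] at h1
    rcases (norm_nonneg (D.perp z y)).eq_or_lt with h | h
    · rw [← h, mul_zero]; positivity
    · exact le_of_mul_le_mul_left (a := ‖D.perp z y‖) (by nlinarith) h
  have a2 : ‖x‖ * ‖y‖ ≤ κ * m + B := by
    have h1 : ‖y‖ ≤ ‖D.perp z y‖ + ‖D.lam z (D.Phi z y)‖ := by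
      simpa [perp] using norm_add_le (D.perp z y) (D.lam z (D.Phi z y))
    have h2 := hlam (D.Phi z y)
    rw [le_div_iff₀ hN] at h2
    nlinarith
  refine ⟨hz, ?_, by nlinarith [sq_nonneg ((b + 4) * B)]⟩
  rw [← ex, D.wd_asm, D.fderiv_wpot_central _ _ hz]
  set W₁ := liftI 16 D.iH (D.J σ.G z (lift 16 (D.Mop z) (cmap σ.G σ.s (D.perp z y)))) with hW₁
  have n1 : ‖W₁‖ = m := by
    rw [hW₁, LinearIsometry.norm_map, Db_norm_cx (D.isCx_J σ.G hz), hm, ← norm_cmap σ.G σ.unit (lift 9 _ _)]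
    exact congrArg norm (LinearMap.congr_fun (mat_lift _ (D.Mop z)) _).symm
  have o1 : ∀ v, ⟪liftI 16 D.iZ v, W₁⟫_ℝ = 0 := fun v => by simp [hW₁, PiLp.inner_apply, D.oZH]
  have o2 : ∀ v, ⟪liftI 16 D.iL v, W₁⟫_ℝ = 0 := fun v => by simp [hW₁, PiLp.inner_apply, D.oLH]
  have n2 := (hw (liftI 9 D.iL l) (liftI 9 D.iH y)).2
  have n3 := (hw (liftI 9 D.iH y) 0).1
  have n4 : ‖liftI 16 D.iH (ε • cmap σ.G σ.s (mat V0 y))‖ ≤ 4 * ‖y‖ := by
    rw [LinearIsometry.norm_map, norm_smul, norm_cmap σ.G σ.unit, Real.norm_of_nonneg e0]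
    exact (mul_le_of_le_one_left (norm_nonneg _) e1).trans (norm_V0_le y)
  simp only [LinearIsometry.norm_map] at n2 n3
  generalize fderiv ℝ (wpot 𝔤 σ.G σ.s) (liftI 9 D.iL l) (liftI 9 D.iH y) = W₂ at *
  generalize wpot 𝔤 σ.G σ.s (liftI 9 D.iH y) = W₃ at *
  generalize liftI 16 D.iH (ε • cmap σ.G σ.s (mat V0 y)) = W₄ at *
  set w := liftI 16 D.iZ (ε • cmap σ.G σ.s (mat V0 z)) + liftI 16 D.iL (wd D.𝔩 σ ε (fun _ => 0) l) + W₁ + W₂ + W₃ +
    W₄ with hw'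
  have i1 : ⟪w, W₁⟫_ℝ = m ^ 2 + ⟪W₂ + W₃ + W₄, W₁⟫_ℝ := by
    simp only [hw', inner_add_left, o1, o2, real_inner_self_eq_norm_sq, n1]; ring
  have i2 := real_inner_le_norm w W₁
  have i3 := (abs_le.1 (abs_real_inner_le_norm (W₂ + W₃ + W₄) W₁)).1
  have y0 := norm_nonneg y
  have r1 : ‖W₂ + W₃ + W₄‖ ≤ (b + 4) * θ * (κ * m + B) := by
    refine norm_add₃_le.trans (le_trans ?_ (mul_le_mul_of_nonneg_left a2 (by positivity)))
    have h1 := mul_le_mul_of_nonneg_left hly (mul_nonneg hb.le y0)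
    have h2 := mul_le_mul_of_nonneg_left hθN y0
    nlinarith
  rw [n1] at i2 i3
  have r2 := mul_le_mul_of_nonneg_right r1 m0
  have r3 := mul_nonneg t0.le (sq_nonneg (m - (b + 4) * B))
  have r4 : 0 ≤ θ * (((b + 4) * B) ^ 2 * m ^ 2 + B * m ^ 2 + 2 * ((b + 4) * κ) + 1 + B) := by positivity
  nlinarith [sq_nonneg (‖w‖ - m)]

theorem Db_yuk (σ : Spn) (ε : ℝ) (x : X E) : yuk 𝔤 σ ε (fun _ => 0) x =
    (∑ i, mat (σ.G.γ i) ∘ₗ lift 16 (𝔤.br (D.iZ (D.zc x i)))) +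
      yuk 𝔤 σ ε (fun _ => 0) (D.asm 0 (D.lc x) (D.yc x)) := by
  have e : ∀ i, x i = D.iZ (D.zc x i) + D.asm 0 (D.lc x) (D.yc x) i := fun i => by
    conv_lhs => rw [← D.asm_eq x]
    simp [asm, add_assoc]
  refine LinearMap.ext fun v => PiLp.ext fun a => ?_
  simp only [yuk, fderiv_fun_const, Pi.zero_apply]
  simp only [e]
  simp [Finset.sum_add_distrib]
  abel

/-- Lower bound for the energy density in the tube (`κ'` is the kinetic coefficient). -/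
theorem edens_lower (C : Cl (Th E) F) (σ : Spn) {κ : ℝ} (hκ : 1 ≤ κ) : ∃ θ₀ B : ℝ, 0 < θ₀ ∧ 0 < B ∧
    ∀ θ, 0 < θ → θ ≤ θ₀ → ∃ R : ℝ, ∀ ε, 0 ≤ ε → ε ≤ 1 → ∀ x ∈ D.tube κ θ, R ≤ ‖x‖ →
      ‖D.Phi (D.zc x) (D.yc x)‖ < 1 → ∀ (κ' : ℝ) (u : X E → F),
        κ' * gsq u x + (1 - B * θ) / 2 * ‖lift 9 (D.Mop (D.zc x)) (D.perp (D.zc x) (D.yc x))‖ ^ 2 *
            ‖u x‖ ^ 2 - (4 * ∑ p, D.m p * D.M p (D.zc x) + B * θ * ‖x‖) * ‖u x‖ ^ 2 +
          ‖x‖ / κ * (‖u x‖ ^ 2 - ‖D.Pi C σ.G (D.zc x) (u x)‖ ^ 2) ≤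
        edens 𝔤 C σ ε (fun _ => 0) κ' u x := by
  obtain ⟨θ₀, a, h0, h4, ha, hP⟩ := D.Db_pot σ hκ
  obtain ⟨b, hb, hY⟩ := exists_norm_yuk 𝔤 C σ
  refine ⟨θ₀, a + 2 * b, h0, by positivity, fun θ t0 t1 => ⟨1 / θ, fun ε e0 e1 x hx hR hΦ κ' u => ?_⟩⟩
  obtain ⟨hz, h1, -⟩ := hP θ t0 t1 ε e0 e1 x hx hR hΦ
  have hθN : 1 ≤ θ * ‖x‖ := by rwa [div_le_iff₀' t0] at hR
  have hN : 1 ≤ ‖x‖ := by nlinarith [norm_nonneg x]
  have h2 := (D.CH C).iS_gap (D.isCx_J σ.G hz) (D.Db_Mop_sym (D.zc x)) (D.Db_comm σ.G (D.zc x)) (‖x‖ / κ)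
    (by positivity) (D.Db_Mop_ge _ fun p => (div_le_iff₀' (by linarith)).2 (hx.1 p)) (u x)
  rw [D.Db_trace, ← D.iS_yuk_central C σ.G hz] at h2
  have h3 := hY ε (fun _ => 0) (D.asm 0 (D.lc x) (D.yc x))
  have h5 : ‖D.asm 0 (D.lc x) (D.yc x)‖ ≤ θ * ‖x‖ := by
    refine le_trans ?_ hx.2
    simpa [asm] using norm_add_le (liftI 9 D.iL (D.lc x)) (liftI 9 D.iH (D.yc x))
  simp only [fderiv_fun_const, Pi.zero_apply, norm_zero, add_zero, abs_of_nonneg e0] at h3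
  have h6 : ‖C.iS (yuk 𝔤 σ ε (fun _ => 0) (D.asm 0 (D.lc x) (D.yc x)))‖ ≤ 2 * b * θ * ‖x‖ := by nlinarith
  have h7 : -(2 * b * θ * ‖x‖ * ‖u x‖ ^ 2) ≤
      (⟪u x, C.iS (yuk 𝔤 σ ε (fun _ => 0) (D.asm 0 (D.lc x) (D.yc x))) (u x)⟫_ℂ).re := by
    refine neg_le_of_abs_le ((Complex.abs_re_le_norm _).trans ((norm_inner_le_norm _ _).trans ?_))
    have := mul_le_mul_of_nonneg_left (ContinuousLinearMap.le_of_opNorm_le _ h6 (u x)) (norm_nonneg (u x))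
    linarith
  rw [edens, D.Db_yuk, Cl.iS, C.S_add, smul_add, add_apply, inner_add_right, Complex.add_re]
  have h8 := mul_le_mul_of_nonneg_right h1 (sq_nonneg ‖u x‖)
  have h9 : 0 ≤ b * θ * ‖lift 9 (D.Mop (D.zc x)) (D.perp (D.zc x) (D.yc x))‖ ^ 2 * ‖u x‖ ^ 2 := by positivity
  have h10 := mul_le_mul_of_nonneg_left hN (show 0 ≤ a * θ * ‖u x‖ ^ 2 by positivity)
  have h11 : 0 ≤ a * θ * ‖u x‖ ^ 2 := by positivity
  simp only [Cl.iS, Pi] at h2 h7 ⊢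
  linarith

/-- Size of the potential in the tube, and control of `y` by the potential. -/
theorem wd_tube (σ : Spn) {κ : ℝ} (hκ : 1 ≤ κ) : ∃ θ₀ B : ℝ, 0 < θ₀ ∧ 0 < B ∧
    ∀ θ, 0 < θ → θ ≤ θ₀ → ∃ R : ℝ, ∀ ε, 0 ≤ ε → ε ≤ 1 → ∀ x ∈ D.tube κ θ, R ≤ ‖x‖ →
      ‖D.Phi (D.zc x) (D.yc x)‖ < 1 →
        ‖x‖ ^ 2 * ‖D.yc x‖ ^ 2 ≤ B * (‖wd 𝔤 σ ε (fun _ => 0) x‖ ^ 2 + 1) := by
  obtain ⟨θ₀, a, h0, h4, ha, hP⟩ := D.Db_pot σ hκ
  refine ⟨min θ₀ (1 / (2 * a)), 4 * κ ^ 2 + 2 * a ^ 2, by positivity, by positivity,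
    fun θ t0 t1 => ⟨1 / θ, fun ε e0 e1 x hx hR hΦ => ?_⟩⟩
  obtain ⟨-, h1, h2⟩ := hP θ t0 (t1.trans (min_le_left _ _)) ε e0 e1 x hx hR hΦ
  have h3 := (le_div_iff₀ (by positivity)).1 (t1.trans (min_le_right _ _))
  have h5 := pow_le_pow_left₀ (by positivity) h2 2
  generalize ‖lift 9 (D.Mop (D.zc x)) (D.perp (D.zc x) (D.yc x))‖ = m at *
  have h6 : m ^ 2 ≤ 2 * ‖wd 𝔤 σ ε (fun _ => 0) x‖ ^ 2 + 1 := by nlinarith [sq_nonneg m]
  have h7 := mul_le_mul_of_nonneg_left h6 (sq_nonneg κ)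
  have h8 : 0 ≤ a ^ 2 * ‖wd 𝔤 σ ε (fun _ => 0) x‖ ^ 2 := by positivity
  nlinarith [sq_nonneg (κ * m - a), sq_nonneg κ]

end Levi

end Crest.Agent.R330

end
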