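import Crest.Agent.R330.B0.D

/-! # Row 330, B0/E (statements frozen; see `R330/Blueprint.lean`) -/

set_option autoImplicit false
set_option linter.unusedSectionVars false

noncomputable section

open MeasureTheory Filter Topology
open scoped InnerProductSpace ContDiff Matrix
open Crest.MathPhysics.MatrixQM (GammaNine)

namespace Crest.Agent.R330

variable {E Z L H F : Type}
  [NormedAddCommGroup E] [InnerProductSpace ℝ E] [FiniteDimensional ℝ E]
  [NormedAddCommGroup Z] [InnerProductSpace ℝ Z] [FiniteDimensional ℝ Z]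
  [NormedAddCommGroup L] [InnerProductSpace ℝ L] [FiniteDimensional ℝ L]
  [NormedAddCommGroup H] [InnerProductSpace ℝ H] [FiniteDimensional ℝ H]
  [NormedAddCommGroup F] [InnerProductSpace ℂ F] [FiniteDimensional ℂ F]
  {P : Type} [Fintype P] {𝔤 : Lie E} (D : Levi 𝔤 Z L H P)

namespace Levi

/-! ### B0d: heavy fermions -/

theorem b0e_anti {A B : Type} [NormedAddCommGroup A] [InnerProductSpace ℝ A] [FiniteDimensional ℝ A]
    [NormedAddCommGroup B] [InnerProductSpace ℝ B] [FiniteDimensional ℝ B] (C : Cl (Th E) F)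
    (i : A →ₗᵢ[ℝ] E) (j : B →ₗᵢ[ℝ] E) (h : ∀ a b, ⟪i a, j b⟫_ℝ = 0) (a : Th A) (b : Th B) :
    (C.comap (liftI 16 i)).θ a * (C.comap (liftI 16 j)).θ b =
      -((C.comap (liftI 16 j)).θ b * (C.comap (liftI 16 i)).θ a) := by
  have h1 := C.anti (liftI 16 i a) (liftI 16 j b)
  have h2 : ⟪liftI 16 i a, liftI 16 j b⟫_ℝ = 0 := by
    rw [PiLp.inner_apply]
    exact Finset.sum_eq_zero fun α _ => h _ _
  rw [h2, Complex.ofReal_zero, zero_smul] at h1
  exact eq_neg_of_add_eq_zero_left h1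

theorem θ_anti_ZH (C : Cl (Th E) F) (a : Th Z) (h : Th H) :
    (D.CZ C).θ a * (D.CH C).θ h = -((D.CH C).θ h * (D.CZ C).θ a) := b0e_anti C _ _ D.oZH a h
theorem θ_anti_LH (C : Cl (Th E) F) (a : Th L) (h : Th H) :
    (D.CL C).θ a * (D.CH C).θ h = -((D.CH C).θ h * (D.CL C).θ a) := b0e_anti C _ _ D.oLH a h
theorem θ_anti_ZL (C : Cl (Th E) F) (a : Th Z) (b : Th L) :
    (D.CZ C).θ a * (D.CL C).θ b = -((D.CL C).θ b * (D.CZ C).θ a) := b0e_anti C _ _ D.oZL a b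
theorem Pi_comm_Z (C : Cl (Th E) F) (G : GammaNine) (z : X Z) (a : Th Z) :
    D.Pi C G z * (D.CZ C).θ a = (D.CZ C).θ a * D.Pi C G z :=
  ((D.CH C).comm_vac _ ((D.CH C).comm_S _ (Or.inr (D.θ_anti_ZH C a)) _)).symm
theorem Pi_comm_L (C : Cl (Th E) F) (G : GammaNine) (z : X Z) (a : Th L) :
    D.Pi C G z * (D.CL C).θ a = (D.CL C).θ a * D.Pi C G z :=
  ((D.CH C).comm_vac _ ((D.CH C).comm_S _ (Or.inr (D.θ_anti_LH C a)) _)).symm
theorem isPar_Gam (C : Cl (Th E) F) : IsPar (D.CH C) (D.Gam C) := by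
  refine (D.CH C).isPar_exp ⟨isSkew_lift D.I_cx.1, fun v => ?_⟩ ?_
  · ext α : 1
    exact D.I_cx.2 (v α)
  · rw [finrank_T]
    exact Dvd.dvd.mul_right (by norm_num) _

theorem b0e_comm_exp {T S : F →L[ℂ] F} (h : T * S = S * T) (c : ℂ) :
    NormedSpace.exp (c • S) * T = T * NormedSpace.exp (c • S) :=
  (Commute.exp_right (Commute.smul_right (show Commute T S from h) c)).symm.eq

theorem Gam_comm_Z (C : Cl (Th E) F) (a : Th Z) :
    D.Gam C * (D.CZ C).θ a = (D.CZ C).θ a * D.Gam C :=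
  b0e_comm_exp ((D.CH C).comm_S _ (Or.inr (D.θ_anti_ZH C a)) _) _
theorem Gam_comm_L (C : Cl (Th E) F) (a : Th L) :
    D.Gam C * (D.CL C).θ a = (D.CL C).θ a * D.Gam C :=
  b0e_comm_exp ((D.CH C).comm_S _ (Or.inr (D.θ_anti_LH C a)) _) _

theorem b0e_sum_comp {V ι : Type} [AddCommGroup V] [Module ℝ V] [Fintype ι] (f : ι → V →ₗ[ℝ] V)
    (g : V →ₗ[ℝ] V) : (∑ i, f i) ∘ₗ g = ∑ i, f i ∘ₗ g := Finset.sum_mul _ f g

theorem b0e_comp_sum {V ι : Type} [AddCommGroup V] [Module ℝ V] [Fintype ι] (f : ι → V →ₗ[ℝ] V)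
    (g : V →ₗ[ℝ] V) : g ∘ₗ (∑ i, f i) = ∑ i, g ∘ₗ f i := Finset.mul_sum _ f g

theorem b0e_trace (G : GammaNine) (z : X Z) (A : Matrix (Fin 16) (Fin 16) ℝ) (B : H →ₗ[ℝ] H) :
    LinearMap.trace ℝ (Th H) (D.J G z ∘ₗ (mat A ∘ₗ lift 16 B)) = ∑ p, ∑ i, (D.α p (z i) / D.M p z) *
      ((G.γ i * A).trace * LinearMap.trace ℝ H ((D.I ∘ₗ D.pr p) ∘ₗ B)) := by
  rw [J, b0e_sum_comp, map_sum]
  refine Finset.sum_congr rfl fun p _ => ?_
  rw [b0e_sum_comp, map_sum]
  refine Finset.sum_congr rfl fun i _ => ?_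
  rw [LinearMap.smul_comp, map_smul, smul_eq_mul, ← trace_mat_lift, mat_mul, lift_comp (D.I ∘ₗ D.pr p) B]
  congr 2
  rw [LinearMap.comp_assoc, LinearMap.comp_assoc, ← LinearMap.comp_assoc (lift 16 B), ← mat_lift,
    LinearMap.comp_assoc]

theorem b0e_kill (C : Cl (Th E) F) (G : GammaNine) {z : X Z} (hz : z ∈ D.reg) {B : H →ₗ[ℝ] H}
    (hB : IsSkew B) (h : ∀ p, B ∘ₗ (D.I ∘ₗ D.pr p) = (D.I ∘ₗ D.pr p) ∘ₗ B) :
    (D.CH C).S (lift 16 B) * D.Pi C G z = 0 ∧ D.Pi C G z * (D.CH C).S (lift 16 B) = 0 := by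
  have hJ := D.isCx_J G hz
  have h1 : lift 16 B ∘ₗ D.J G z = D.J G z ∘ₗ lift 16 B := by
    rw [J, b0e_sum_comp, b0e_comp_sum]
    refine Finset.sum_congr rfl fun p _ => ?_
    rw [b0e_sum_comp, b0e_comp_sum]
    refine Finset.sum_congr rfl fun i _ => ?_
    rw [LinearMap.smul_comp, LinearMap.comp_smul, ← LinearMap.comp_assoc, ← mat_lift, LinearMap.comp_assoc,
      LinearMap.comp_assoc, ← lift_comp, ← lift_comp, h]
  have h2 := (D.CH C).S_comm_vac hJ (isSkew_lift hB) h1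
  have h3 := (D.CH C).vac_S_vac hJ (isSkew_lift (n := 16) hB)
  have h4 := D.b0e_trace G z 1 B
  simp only [mat_one, LinearMap.id_comp, mul_one, gamma_trace_one, zero_mul, mul_zero,
    Finset.sum_const_zero] at h4
  rw [h4, Complex.ofReal_zero, mul_zero, zero_smul] at h3
  have h5 : D.Pi C G z * (D.CH C).S (lift 16 B) = 0 := by
    rw [← h3, mul_assoc, h2, ← mul_assoc, (D.CH C).vac_idem hJ]
    rfl
  exact ⟨h2.trans h5, h5⟩

theorem b0e_exp {A T : F →L[ℂ] F} (h : A * T = 0) : NormedSpace.exp A * T = T := by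
  have : CompleteSpace F := FiniteDimensional.complete ℂ F
  have h1 := (NormedSpace.exp_series_hasSum_exp' (𝕂 := ℂ) A).mul_right T
  refine h1.unique ?_
  have h2 := hasSum_single (f := fun n : ℕ => ((n.factorial : ℂ)⁻¹ • A ^ n) * T) 0 fun n hn => by
    obtain ⟨m, rfl⟩ := Nat.exists_eq_succ_of_ne_zero hn
    rw [smul_mul_assoc, pow_succ, mul_assoc, h, mul_zero, smul_zero]
  simpa using h2

theorem Gam_Pi (C : Cl (Th E) F) (G : GammaNine) {z : X Z} (hz : z ∈ D.reg) :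
    D.Gam C * D.Pi C G z = D.Pi C G z ∧ D.Pi C G z * D.Gam C = D.Pi C G z := by
  obtain ⟨h1, h2⟩ := D.b0e_kill C G hz D.I_cx.1 fun p => by
    ext v
    simp only [LinearMap.comp_apply, D.I_pr]
  have h3 : D.Gam C * D.Pi C G z = D.Pi C G z := b0e_exp (by rw [smul_mul_assoc, h1, smul_zero])
  exact ⟨h3, (b0e_comm_exp (h2.trans h1.symm) _).symm.trans h3⟩

theorem b0e_adj (a : Z) (b : L) (c : H) :
    LinearMap.adjoint D.iZ.toLinearMap (D.iZ a + D.iL b + D.iH c) = a ∧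
      LinearMap.adjoint D.iL.toLinearMap (D.iZ a + D.iL b + D.iH c) = b ∧
      LinearMap.adjoint D.iH.toLinearMap (D.iZ a + D.iL b + D.iH c) = c := by
  refine ⟨ext_inner_left ℝ fun v => ?_, ext_inner_left ℝ fun v => ?_, ext_inner_left ℝ fun v => ?_⟩
  · rw [LinearMap.adjoint_inner_right]
    simp [inner_add_right, D.oZL, D.oZH]
  · rw [LinearMap.adjoint_inner_right]
    simp [inner_add_right, real_inner_comm (D.iZ _) (D.iL _), D.oZL, D.oLH]
  · rw [LinearMap.adjoint_inner_right]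
    simp [inner_add_right, real_inner_comm (D.iZ _) (D.iH _), real_inner_comm (D.iL _) (D.iH _), D.oZH, D.oLH]

theorem b0e_split (v : Th E) : v = liftI 16 D.iZ (lift 16 (LinearMap.adjoint D.iZ.toLinearMap) v) +
    liftI 16 D.iL (lift 16 (LinearMap.adjoint D.iL.toLinearMap) v) +
    liftI 16 D.iH (lift 16 (LinearMap.adjoint D.iH.toLinearMap) v) := by
  ext α : 1
  obtain ⟨a, b, c, h⟩ := D.span (v α)
  obtain ⟨h1, h2, h3⟩ := D.b0e_adj a b c
  simp only [PiLp.add_apply, liftI_apply, lift_apply]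
  rw [h, h1, h2, h3]

/-- `θ` of a general vector, split into blocks. -/
theorem θ_split (C : Cl (Th E) F) (v : Th E) : C.θ v =
    (D.CZ C).θ (lift 16 (LinearMap.adjoint D.iZ.toLinearMap) v) +
      (D.CL C).θ (lift 16 (LinearMap.adjoint D.iL.toLinearMap) v) +
      (D.CH C).θ (lift 16 (LinearMap.adjoint D.iH.toLinearMap) v) := by
  conv_lhs => rw [D.b0e_split v, map_add, map_add]
  rfl

theorem b0e_comap {A : Type} [NormedAddCommGroup A] [InnerProductSpace ℝ A] [FiniteDimensional ℝ A]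
    (C : Cl (Th E) F) (i : A →ₗᵢ[ℝ] E) (B : Th A →ₗ[ℝ] Th A) :
    (C.comap (liftI 16 i)).S B =
      C.S (lift 16 i.toLinearMap ∘ₗ B ∘ₗ lift 16 (LinearMap.adjoint i.toLinearMap)) := by
  rw [Cl.S_comap, ← adjoint_lift]
  rfl

/-- Gauge generator of a central element. -/
theorem S_brZ (C : Cl (Th E) F) (a : Z) :
    C.S (lift 16 (𝔤.br (D.iZ a))) = (D.CH C).S (lift 16 (D.adZ a)) := by
  rw [CH, b0e_comap]
  congr 1
  ext v α : 2
  obtain ⟨a', b, c, h⟩ := D.span (v α)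
  simp only [LinearMap.comp_apply, lift_apply]
  rw [h, (D.b0e_adj a' b c).2.2, map_add, map_add, D.brZZ, D.brZL, D.brZH]
  simp [adZ]
/-- Gauge generator of a light element. -/
theorem S_brL (C : Cl (Th E) F) (a : L) :
    C.S (lift 16 (𝔤.br (D.iL a))) =
      (D.CL C).S (lift 16 (D.𝔩.br a)) + (D.CH C).S (lift 16 (D.adL a)) := by
  rw [CH, CL, b0e_comap, b0e_comap, ← Cl.S_add]
  congr 1
  ext v α : 2
  obtain ⟨a', b, c, h⟩ := D.span (v α)
  simp only [LinearMap.comp_apply, lift_apply, LinearMap.add_apply, PiLp.add_apply]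
  rw [h, (D.b0e_adj a' b c).2.2, (D.b0e_adj a' b c).2.1, map_add, map_add, 𝔤.anti (D.iL a) (D.iZ a'), D.brZL,
    D.brLL, D.brLH]
  simp
/-- Rotation generator. -/
theorem S_mat (C : Cl (Th E) F) (A : Matrix (Fin 16) (Fin 16) ℝ) :
    C.S (mat A) = (D.CZ C).S (mat A) + (D.CL C).S (mat A) + (D.CH C).S (mat A) := by
  rw [CH, CL, CZ, b0e_comap, b0e_comap, b0e_comap, ← Cl.S_add, ← Cl.S_add]
  congr 1
  rw [← LinearMap.comp_assoc, ← LinearMap.comp_assoc, ← LinearMap.comp_assoc, ← mat_lift, ← mat_lift, ← mat_lift]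
  refine LinearMap.ext fun v => ?_
  conv_lhs => rw [D.b0e_split v, map_add, map_add]
  rfl
theorem S_adL_Pi (C : Cl (Th E) F) (G : GammaNine) {z : X Z} (hz : z ∈ D.reg) (a : L) :
    (D.CH C).S (lift 16 (D.adL a)) * D.Pi C G z = 0 ∧
      D.Pi C G z * (D.CH C).S (lift 16 (D.adL a)) = 0 :=
  D.b0e_kill C G hz (D.isSkew_adL a) fun p => by
    ext v
    simp only [LinearMap.comp_apply, D.adL_I, D.adL_pr]
theorem Pi_S_mat_Pi (C : Cl (Th E) F) (G : GammaNine) {z : X Z} (hz : z ∈ D.reg)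
    {A : Matrix (Fin 16) (Fin 16) ℝ} (hA : Aᵀ = -A) :
    D.Pi C G z * (D.CH C).S (mat A) * D.Pi C G z = 0 := by
  have h3 := (D.CH C).vac_S_vac (D.isCx_J G hz) (isSkew_mat (E := H) hA)
  have h4 := D.b0e_trace G z A LinearMap.id
  have h5 : (lift 16 LinearMap.id : Th H →ₗ[ℝ] Th H) = LinearMap.id := rfl
  simp only [h5, LinearMap.comp_id, D.trace_I_pr, mul_zero, Finset.sum_const_zero] at h4
  rw [h4, Complex.ofReal_zero, mul_zero, zero_smul] at h3
  exact h3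

end Levi

end Crest.Agent.R330

end
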