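import Crest.Agent.R330.B0.E

/-! # Row 330, B0/F (statements frozen; see `R330/Blueprint.lean`) -/

set_option autoImplicit false
set_option linter.unusedSectionVars false

noncomputable section

open MeasureTheory Filter Topology
open scoped InnerProductSpace ContDiff Matrix
open Crest.MathPhysics.MatrixQM (GammaNine)

namespace Crest.Agent.R330

variable {E Z L H F : Type}
  [NormedAddCommGroup E] [InnerProductSpace ℝ E] [FiniteDimensional ℝ E]
  [NormedAddCommGroup Z] [InnerProductSpace ℝ Z] [FiniteDimensional ℝ Z]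
  [NormedAddCommGroup L] [InnerProductSpace ℝ L] [FiniteDimensional ℝ L]
  [NormedAddCommGroup H] [InnerProductSpace ℝ H] [FiniteDimensional ℝ H]
  [NormedAddCommGroup F] [InnerProductSpace ℂ F] [FiniteDimensional ℂ F]
  {P : Type} [Fintype P] {𝔤 : Lie E} (D : Levi 𝔤 Z L H P)

namespace Levi

theorem b0f_sum_comp {ι : Type} (s : Finset ι) (f : ι → Th H →ₗ[ℝ] Th H) (g : Th H →ₗ[ℝ] Th H) :
    (∑ i ∈ s, f i) ∘ₗ g = ∑ i ∈ s, f i ∘ₗ g := Finset.sum_mul s f g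

theorem b0f_comp_sum {ι : Type} (s : Finset ι) (f : ι → Th H →ₗ[ℝ] Th H) (g : Th H →ₗ[ℝ] Th H) :
    g ∘ₗ (∑ i ∈ s, f i) = ∑ i ∈ s, g ∘ₗ f i := Finset.mul_sum s f g

theorem b0f_lin (p : P) (i : Fin 9) : ∃ l : X Z →L[ℝ] ℝ, ∀ z, l z = D.α p (z i) :=
  ⟨LinearMap.toContinuousLinearMap
    { toFun := fun z => D.α p (z i), map_add' := by simp, map_smul' := by simp }, fun _ => rfl⟩

theorem b0f_n (p : P) (i : Fin 9) : ContDiffOn ℝ ∞ (fun z : X Z => D.α p (z i) / D.M p z) D.reg := by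
  obtain ⟨l, hl⟩ := D.b0f_lin p i
  simp only [← hl]
  exact l.contDiff.contDiffOn.div (D.contDiffOn_M p) fun z hz => (hz p).ne'

theorem b0f_J (G : GammaNine) (z : X Z) : LinearMap.toContinuousLinearMap (D.J G z) =
    ∑ p, ∑ i, (D.α p (z i) / D.M p z) •
      LinearMap.toContinuousLinearMap (mat (G.γ i) ∘ₗ lift 16 (D.I ∘ₗ D.pr p)) := by
  simp only [J, map_sum, map_smul]

theorem b0f_gen {Y Θ ι κ : Type} [NormedAddCommGroup Y] [NormedSpace ℝ Y] [NormedAddCommGroup Θ]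
    [InnerProductSpace ℝ Θ] [FiniteDimensional ℝ Θ] [Fintype ι] [Fintype κ] (n : ι → κ → Y → ℝ)
    (K : ι → κ → Θ →ₗ[ℝ] Θ) {y : Y} (hn : ∀ p i, DifferentiableAt ℝ (n p i) y) :
    ∃ J' : Y →L[ℝ] (Θ →L[ℝ] Θ),
      HasFDerivAt (fun y => LinearMap.toContinuousLinearMap (∑ p, ∑ i, n p i y • K p i)) J' y ∧
      ∀ v, (J' v).toLinearMap = ∑ p, ∑ i, fderiv ℝ (n p i) y v • K p i := by
  refine ⟨∑ p, ∑ i, (fderiv ℝ (n p i) y).smulRight (LinearMap.toContinuousLinearMap (K p i)), ?_, fun v => ?_⟩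
  · simp only [map_sum, map_smul]
    exact HasFDerivAt.fun_sum fun p _ => HasFDerivAt.fun_sum fun i _ => (hn p i).hasFDerivAt.smul_const _
  · refine LinearMap.ext fun u => ?_
    simp only [ContinuousLinearMap.coe_coe, sum_apply, ContinuousLinearMap.smulRight_apply, smul_apply,
      LinearMap.coe_toContinuousLinearMap', LinearMap.sum_apply, LinearMap.smul_apply]

theorem b0f_dJ (G : GammaNine) {z : X Z} (hz : z ∈ D.reg) : ∃ J' : X Z →L[ℝ] (Th H →L[ℝ] Th H),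
    HasFDerivAt (fun z => LinearMap.toContinuousLinearMap (D.J G z)) J' z ∧ ∀ v, (J' v).toLinearMap =
      ∑ p, ∑ i, fderiv ℝ (fun z : X Z => D.α p (z i) / D.M p z) z v •
        (mat (G.γ i) ∘ₗ lift 16 (D.I ∘ₗ D.pr p)) := by
  have := b0f_gen (Θ := Th H) (fun p i (z : X Z) => D.α p (z i) / D.M p z)
    (fun p i => mat (G.γ i) ∘ₗ lift 16 (D.I ∘ₗ D.pr p)) (y := z)
    fun p i => ((D.b0f_n p i).contDiffAt (D.isOpen_reg.mem_nhds hz)).differentiableAt (by simp)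
  unfold J
  exact this

theorem b0f_alg {A : Type} [Ring A] [Algebra ℂ A] {Q S S' : A} {c c' : ℂ} (hi : Q * Q = Q)
    (c1 : Q * S * Q = c • Q) (c2 : Q * S' * Q = c' • Q) (c3 : Q * (S * S' - S' * S) * Q = 0) :
    Q * (S * Q - Q * S) * Q = 0 ∧ (S * Q - Q * S) * Q + Q * (S * Q - Q * S) = S * Q - Q * S ∧
      Q * ((S * Q - Q * S) * (S' * Q - Q * S') - (S' * Q - Q * S') * (S * Q - Q * S)) * Q = 0 := by
  have hi' : ∀ T, Q * (Q * T) = Q * T := fun T => by rw [← mul_assoc, hi]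
  refine ⟨?_, ?_, ?_⟩
  · simp only [mul_sub, sub_mul, mul_assoc, hi, hi', sub_self]
  · simp only [mul_sub, sub_mul, mul_assoc, hi, hi']
    abel
  · have d1 : Q * S * Q * S' * Q = Q * S' * Q * S * Q := by
      rw [c1, c2]
      simp only [smul_mul_assoc]
      rw [c1, c2, smul_comm]
    simp only [mul_sub, sub_mul, mul_assoc, hi, hi'] at d1 c3 ⊢
    rw [sub_eq_zero] at c3
    rw [d1, c3]
    abel

theorem b0f_alg2 {A : Type} [Ring A] {Q S T : A} (h1 : T * S = S * T) (h2 : T * Q = Q * T) :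
    T * (S * Q - Q * S) = (S * Q - Q * S) * T :=
  (((show Commute T S from h1).mul_right h2).sub_right ((show Commute T Q from h2).mul_right h1)).eq

/-- block maps `Σ_p a_p ⊗ I^k pr_p` -/
def b0fBk (k : ℕ) (A : Th H →ₗ[ℝ] Th H) : Prop :=
  ∃ a : P → Matrix (Fin 16) (Fin 16) ℝ, A = ∑ p, mat (a p) ∘ₗ lift 16 ((D.I ^ k) ∘ₗ D.pr p)

theorem b0f_mat_sum {ι : Type} (s : Finset ι) (c : ι → ℝ) (a : ι → Matrix (Fin 16) (Fin 16) ℝ) :
    (mat (∑ i ∈ s, c i • a i) : Th H →ₗ[ℝ] Th H) = ∑ i ∈ s, c i • mat (a i) := by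
  classical
  induction s using Finset.induction_on with
  | empty =>
    have := mat_smul (E := H) 0 (0 : Matrix (Fin 16) (Fin 16) ℝ)
    simpa using this
  | insert i s hi ih => rw [Finset.sum_insert hi, Finset.sum_insert hi, mat_add, mat_smul, ih]

theorem b0f_one (G : GammaNine) (c : P → Fin 9 → ℝ) :
    D.b0fBk 1 (∑ p, ∑ i, c p i • (mat (G.γ i) ∘ₗ lift 16 (D.I ∘ₗ D.pr p))) :=
  ⟨fun p => ∑ i, c p i • G.γ i, Finset.sum_congr rfl fun p _ => by
    rw [b0f_mat_sum, b0f_sum_comp, pow_one]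
    simp only [LinearMap.smul_comp]⟩

theorem b0f_pow_pr (k : ℕ) (p : P) (v : H) : D.pr p ((D.I ^ k) v) = (D.I ^ k) (D.pr p v) := by
  induction k with
  | zero => simp
  | succ k ih => rw [pow_succ', Module.End.mul_apply, Module.End.mul_apply, ← D.I_pr, ih]

theorem b0f_comp {k l : ℕ} {A B : Th H →ₗ[ℝ] Th H} (hA : D.b0fBk k A) (hB : D.b0fBk l B) :
    D.b0fBk (k + l) (A ∘ₗ B) := by
  classical
  obtain ⟨a, rfl⟩ := hA
  obtain ⟨b, rfl⟩ := hB
  refine ⟨fun p => a p * b p, ?_⟩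
  rw [b0f_sum_comp]
  refine Finset.sum_congr rfl fun p _ => ?_
  have key : ∀ q, (mat (a p) ∘ₗ lift 16 ((D.I ^ k) ∘ₗ D.pr p)) ∘ₗ (mat (b q) ∘ₗ lift 16 ((D.I ^ l) ∘ₗ D.pr q)) =
      mat (a p * b q) ∘ₗ lift 16 (((D.I ^ k) ∘ₗ D.pr p) ∘ₗ ((D.I ^ l) ∘ₗ D.pr q)) := by
    intro q
    generalize (D.I ^ k) ∘ₗ D.pr p = U
    generalize (D.I ^ l) ∘ₗ D.pr q = W
    rw [mat_mul, lift_comp, LinearMap.comp_assoc, LinearMap.comp_assoc, ← LinearMap.comp_assoc _ (mat (b q)),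
      ← mat_lift, LinearMap.comp_assoc]
  rw [b0f_comp_sum, Finset.sum_eq_single p (fun q _ hq => ?_) (by simp), key]
  · congr 2
    ext v
    simp only [LinearMap.comp_apply, b0f_pow_pr, D.pr_idem, pow_add, Module.End.mul_apply]
  · have : ((D.I ^ k) ∘ₗ D.pr p) ∘ₗ ((D.I ^ l) ∘ₗ D.pr q) = 0 := by
      ext v
      simp only [LinearMap.comp_apply, b0f_pow_pr, D.pr_orth p q hq.symm, map_zero, LinearMap.zero_apply]
    rw [key, this]
    refine LinearMap.ext fun u => ?_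
    ext α
    simp

theorem b0f_trace {k : ℕ} {A : Th H →ₗ[ℝ] Th H} (hA : D.b0fBk k A) (hk : k = 5) :
    LinearMap.trace ℝ _ A = 0 := by
  subst hk
  obtain ⟨a, rfl⟩ := hA
  have : D.I ^ 5 = D.I := by
    ext v
    simp only [pow_succ', pow_zero, Module.End.mul_apply, Module.End.one_apply, D.I_cx.2, map_neg, neg_neg]
  rw [map_sum]
  refine Finset.sum_eq_zero fun p _ => ?_
  rw [trace_mat_lift, this, D.trace_I_pr, mul_zero]

theorem contDiffOn_Pi (C : Cl (Th E) F) (G : GammaNine) : ContDiffOn ℝ ∞ (D.Pi C G) D.reg := by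
  refine (D.CH C).contDiffOn_vac (D.J G) D.reg ?_
  simp only [b0f_J]
  exact ContDiffOn.sum fun p _ => ContDiffOn.sum fun i _ => (D.b0f_n p i).smul contDiffOn_const

/-- Rotation covariance of the vacuum. -/
theorem fderiv_Pi_rot (C : Cl (Th E) F) (G : GammaNine) {z : X Z} (hz : z ∈ D.reg)
    {V : Matrix (Fin 9) (Fin 9) ℝ} (hV : Vᵀ = -V) :
    fderiv ℝ (D.Pi C G) z (mat V z) =
      (D.CH C).S (mat (sig G V)) * D.Pi C G z - D.Pi C G z * (D.CH C).S (mat (sig G V)) := by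
  obtain ⟨J', hJ, hJ'⟩ := D.b0f_dJ G hz
  obtain ⟨Lc, hL, hN⟩ := (D.CH C).db_num
  have h4 : HasFDerivAt (fun y => (D.CH C).num (D.J G y)) (Lc.comp J') z := by
    simp only [hN]
    exact (Lc.hasFDerivAt.comp z hJ).const_add _
  refine (Cl.db_aeval h4.differentiableAt ?_ _).2
  have hd : ∀ p i, fderiv ℝ (fun z : X Z => D.α p (z i) / D.M p z) z (mat V z) =
      ∑ j, V i j * (D.α p (z j) / D.M p z) := by
    intro p i
    obtain ⟨l, hl⟩ := D.b0f_lin p i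
    have hM : DifferentiableAt ℝ (D.M p) z :=
      ((D.contDiffOn_M p).contDiffAt (D.isOpen_reg.mem_nhds hz)).differentiableAt (by simp)
    have h0 : fderiv ℝ (D.M p) z (mat V z) = 0 := by
      rw [D.fderiv_M p hz, div_eq_zero_iff]
      left
      simp only [mat_apply, map_sum, map_smul, smul_eq_mul, Finset.mul_sum]
      have h1 : ∑ i, ∑ j, D.α p (z i) * (V i j * D.α p (z j)) =
          -∑ i, ∑ j, D.α p (z i) * (V i j * D.α p (z j)) := by
        conv_lhs => rw [Finset.sum_comm]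
        simp only [← Finset.sum_neg_distrib]
        refine Finset.sum_congr rfl fun i _ => Finset.sum_congr rfl fun j _ => ?_
        have : V j i = -V i j := congrFun (congrFun hV i) j
        rw [this]
        ring
      linarith
    have h2 := (l.hasFDerivAt (x := z)).mul ((hasDerivAt_inv (hz p).ne').comp_hasFDerivAt z hM.hasFDerivAt)
    have h3 : (fun z : X Z => D.α p (z i) / D.M p z) = l * ((fun y : ℝ => y⁻¹) ∘ D.M p) := by
      funext z
      rw [← hl, div_eq_mul_inv]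
      rfl
    rw [h3, h2.fderiv]
    simp only [add_apply, smul_apply, h0, hl, mat_apply, map_sum, map_smul, smul_eq_mul, mul_zero, zero_add,
      Function.comp_apply, Finset.mul_sum]
    exact Finset.sum_congr rfl fun j _ => by rw [div_eq_mul_inv]; ring
  have h5 : (J' (mat V z)).toLinearMap = mat (sig G V) ∘ₗ D.J G z - D.J G z ∘ₗ mat (sig G V) := by
    rw [hJ', J, b0f_comp_sum, b0f_sum_comp, ← Finset.sum_sub_distrib]
    refine Finset.sum_congr rfl fun p _ => ?_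
    rw [b0f_comp_sum, b0f_sum_comp, ← Finset.sum_sub_distrib]
    simp only [hd, Finset.sum_smul]
    rw [Finset.sum_comm]
    refine Finset.sum_congr rfl fun j _ => ?_
    have h6 : (mat (sig G V * G.γ j) : Th H →ₗ[ℝ] Th H) = mat (G.γ j * sig G V) + ∑ i, V i j • mat (G.γ i) := by
      rw [← b0f_mat_sum, ← mat_add, ← sig_comm G hV, add_sub_cancel]
    rw [LinearMap.comp_smul, LinearMap.smul_comp, LinearMap.comp_assoc, ← mat_lift, ← LinearMap.comp_assoc,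
      ← LinearMap.comp_assoc, ← mat_mul, ← mat_mul, h6, LinearMap.add_comp, smul_add, add_sub_cancel_left,
      b0f_sum_comp, Finset.smul_sum]
    refine Finset.sum_congr rfl fun i _ => ?_
    rw [LinearMap.smul_comp, smul_smul, mul_comm]
  rw [h4.fderiv, ContinuousLinearMap.comp_apply, hL, Cl.num, Cl.iS, mul_add, add_mul, mul_smul_comm, smul_mul_assoc,
    mul_one, one_mul, mul_smul_comm, smul_mul_assoc, add_sub_add_left_eq_sub, ← smul_sub,
    (D.CH C).S_lie (isSkew_mat (sig_skew G hV)) (D.isCx_J G hz).1, ← h5]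

/-- The Berry connection and its curvature vanish; the derivative commutes with light fermions. -/
theorem fderiv_Pi (C : Cl (Th E) F) (G : GammaNine) {z : X Z} (hz : z ∈ D.reg) (v v' : X Z) :
    D.Pi C G z * fderiv ℝ (D.Pi C G) z v * D.Pi C G z = 0 ∧
    IsSelfAdjoint (fderiv ℝ (D.Pi C G) z v) ∧
    fderiv ℝ (D.Pi C G) z v * D.Pi C G z + D.Pi C G z * fderiv ℝ (D.Pi C G) z v =
      fderiv ℝ (D.Pi C G) z v ∧
    D.Pi C G z * (fderiv ℝ (D.Pi C G) z v * fderiv ℝ (D.Pi C G) z v' -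
      fderiv ℝ (D.Pi C G) z v' * fderiv ℝ (D.Pi C G) z v) * D.Pi C G z = 0 ∧
    (∀ a, fderiv ℝ (D.Pi C G) z v * (D.CZ C).θ a = (D.CZ C).θ a * fderiv ℝ (D.Pi C G) z v) ∧
    D.Gam C * fderiv ℝ (D.Pi C G) z v = fderiv ℝ (D.Pi C G) z v * D.Gam C := by
  obtain ⟨J', hJ, hJ'⟩ := D.b0f_dJ G hz
  have hcx : ∀ᶠ y in 𝓝 z, IsCx (D.J G y) := by
    filter_upwards [D.isOpen_reg.mem_nhds hz] with y hy using D.isCx_J G hy
  have h0 := D.isCx_J G hz
  obtain ⟨s1, -, e1⟩ := (D.CH C).fderiv_vac (D.J G) z hcx J' hJ v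
  obtain ⟨s2, -, e2⟩ := (D.CH C).fderiv_vac (D.J G) z hcx J' hJ v'
  have bJ : D.b0fBk 1 (D.J G z) := by
    unfold J
    exact D.b0f_one G fun p i => D.α p (z i) / D.M p z
  have b0 : ∀ v, D.b0fBk 1 (J' v).toLinearMap := fun v => by
    rw [hJ']
    exact D.b0f_one G fun p i => fderiv ℝ (fun z : X Z => D.α p (z i) / D.M p z) z v
  have b1 : ∀ v, D.b0fBk (1 + 1) ((J' v).toLinearMap ∘ₗ D.J G z) := fun v => D.b0f_comp (b0 v) bJ
  have ht : LinearMap.trace ℝ _ (D.J G z ∘ₗ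
      (((-1 / 2 : ℝ) • ((J' v).toLinearMap ∘ₗ D.J G z)) ∘ₗ ((-1 / 2 : ℝ) • ((J' v').toLinearMap ∘ₗ D.J G z)) -
       ((-1 / 2 : ℝ) • ((J' v').toLinearMap ∘ₗ D.J G z)) ∘ₗ ((-1 / 2 : ℝ) • ((J' v).toLinearMap ∘ₗ D.J G z)))) = 0 := by
    rw [LinearMap.comp_sub, map_sub]
    simp only [LinearMap.smul_comp, LinearMap.comp_smul, map_smul]
    rw [D.b0f_trace (D.b0f_comp bJ (D.b0f_comp (b1 v) (b1 v'))) rfl,
      D.b0f_trace (D.b0f_comp bJ (D.b0f_comp (b1 v') (b1 v))) rfl]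
    simp
  generalize (-1 / 2 : ℝ) • ((J' v).toLinearMap ∘ₗ D.J G z) = B at s1 e1 ht
  generalize (-1 / 2 : ℝ) • ((J' v').toLinearMap ∘ₗ D.J G z) = B' at s2 e2 ht
  have s3 : IsSkew (B ∘ₗ B' - B' ∘ₗ B) := fun a b => by
    simp only [LinearMap.sub_apply, LinearMap.comp_apply, inner_sub_left, inner_sub_right, s1 _ _, s2 _ _]
    ring
  have c1 := (D.CH C).vac_S_vac h0 s1
  have c2 := (D.CH C).vac_S_vac h0 s2
  have c3 := (D.CH C).vac_S_vac h0 s3
  rw [ht, ← (D.CH C).S_lie s1 s2] at c3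
  have hi := (D.CH C).vac_idem h0
  have hs := (D.CH C).vac_sa h0
  have hS := (D.CH C).star_S s1
  have z1 := fun a => (D.CH C).comm_S ((D.CZ C).θ a) (Or.inr (D.θ_anti_ZH C a)) B
  have z2 := D.Pi_comm_Z C G z
  have g1 := (D.CH C).comm_S (D.Gam C) (Or.inr (D.isPar_Gam C).2.2)
  have g2 := (D.CH C).comm_vac (J := D.J G z) (D.Gam C) (g1 _)
  have g3 := g1 B
  change fderiv ℝ (D.Pi C G) z v = _ at e1
  change fderiv ℝ (D.Pi C G) z v' = _ at e2
  rw [e1, e2]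
  rw [Complex.ofReal_zero, mul_zero, zero_smul] at c3
  obtain ⟨a1, a2, a3⟩ := b0f_alg hi c1 c2 c3
  unfold Pi at z2 ⊢
  refine And.intro a1 (And.intro ?_ (And.intro a2 (And.intro a3 (And.intro ?_ ?_))))
  rotate_left
  · intro a
    exact (b0f_alg2 (z1 a) (z2 a).symm).symm
  · exact b0f_alg2 g3 g2
  rw [IsSelfAdjoint, star_sub, star_mul, star_mul, hs.star_eq, hS, mul_neg, neg_mul, neg_sub_neg]

theorem norm_fderiv_Pi (C : Cl (Th E) F) (G : GammaNine) {κ : ℝ} (hκ : 1 ≤ κ) : ∃ B : ℝ, 0 < B ∧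
    ∀ z : X Z, z ≠ 0 → (∀ p, ‖z‖ ≤ κ * D.M p z) → ‖fderiv ℝ (D.Pi C G) z‖ ≤ B / ‖z‖ := by
  have hK : IsCompact (Metric.sphere (0 : X Z) 1 ∩ ⋂ p, {z | 1 ≤ κ * D.M p z}) :=
    (isCompact_sphere 0 1).inter_right (isClosed_iInter fun p =>
      isClosed_le continuous_const (continuous_const.mul (D.continuous_M p)))
  have hsub : (Metric.sphere (0 : X Z) 1 ∩ ⋂ p, {z | 1 ≤ κ * D.M p z}) ⊆ D.reg := fun z hz p =>
    pos_of_mul_pos_left (one_pos.trans_le ((Set.mem_iInter.1 hz.2 p).trans_eq (mul_comm _ _))) (by linarith)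
  obtain ⟨B, hB⟩ := hK.exists_bound_of_continuousOn
    (((D.contDiffOn_Pi C G).continuousOn_fderiv_of_isOpen D.isOpen_reg (by simp)).mono hsub)
  refine ⟨|B| + 1, by positivity, fun z hz h => ?_⟩
  have hr : 0 < ‖z‖ := norm_pos_iff.2 hz
  have h1 : D.Pi C G = fun y => D.Pi C G (‖z‖⁻¹ • y) := by
    funext y
    simp only [Pi, J, D.M_smul, abs_of_pos (inv_pos.2 hr), PiLp.smul_apply, map_smul, smul_eq_mul,
      mul_div_mul_left _ _ (inv_pos.2 hr).ne']
  have h2 := hB (‖z‖⁻¹ • z) ⟨by simp [norm_smul, hr.ne'], Set.mem_iInter.2 fun p => by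
    show 1 ≤ κ * D.M p (‖z‖⁻¹ • z)
    rw [D.M_smul, abs_of_pos (inv_pos.2 hr), mul_left_comm, le_inv_mul_iff₀ hr, mul_one]
    exact h p⟩
  rw [h1, fderiv_comp_smul, div_eq_inv_mul]
  refine (ContinuousLinearMap.opNorm_smul_le _ _).trans ?_
  rw [norm_inv, norm_norm]
  exact mul_le_mul_of_nonneg_left (h2.trans (by linarith [le_abs_self B])) (by positivity)

/-- The heavy supercharge kills Gaussian ⊗ vacuum: `Π θ(i v - 𝒥 v) = 0`. -/
theorem Pi_heavy (C : Cl (Th E) F) (G : GammaNine) {z : X Z} (hz : z ∈ D.reg) (v : Th H) :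
    D.Pi C G z * (Complex.I • (D.CH C).θ v - (D.CH C).θ (D.J G z v)) = 0 := by
  have h := (D.CH C).vac_cre (D.isCx_J G hz) v
  have e : Complex.I • (D.CH C).θ v - (D.CH C).θ (D.J G z v) =
      Complex.I • ((D.CH C).θ v + Complex.I • (D.CH C).θ (D.J G z v)) := by
    rw [smul_add, smul_smul, Complex.I_mul_I, neg_one_smul, sub_eq_add_neg]
  rw [e, mul_smul_comm, Pi, h, smul_zero]


end Levi

end Crest.Agent.R330

end
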