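import Crest.Agent.R330.B0.E

/-! # Row 330, B0/G (statements frozen; see `R330/Blueprint.lean`) -/

set_option autoImplicit false
set_option linter.unusedSectionVars false

noncomputable section

open MeasureTheory Filter Topology
open scoped InnerProductSpace ContDiff Matrix
open Crest.MathPhysics.MatrixQM (GammaNine)

namespace Crest.Agent.R330

variable {E Z L H F : Type}
  [NormedAddCommGroup E] [InnerProductSpace ℝ E] [FiniteDimensional ℝ E]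
  [NormedAddCommGroup Z] [InnerProductSpace ℝ Z] [FiniteDimensional ℝ Z]
  [NormedAddCommGroup L] [InnerProductSpace ℝ L] [FiniteDimensional ℝ L]
  [NormedAddCommGroup H] [InnerProductSpace ℝ H] [FiniteDimensional ℝ H]
  [NormedAddCommGroup F] [InnerProductSpace ℂ F] [FiniteDimensional ℂ F]
  {P : Type} [Fintype P] {𝔤 : Lie E} (D : Levi 𝔤 Z L H P)

/-- `lift` as a linear map -/
def b0gLift (n : ℕ) : (H →ₗ[ℝ] H) →ₗ[ℝ] (T n H →ₗ[ℝ] T n H) where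
  toFun A := lift n A
  map_add' A B := by
    ext x a
    simp [lift]
  map_smul' r A := by
    ext x a
    simp [lift]

theorem b0g_lift_sum {n : ℕ} {ι : Type} (s : Finset ι) (A : ι → H →ₗ[ℝ] H) :
    lift n (∑ i ∈ s, A i) = ∑ i ∈ s, lift n (A i) := map_sum (b0gLift n) A s

theorem b0g_lift_smul {n : ℕ} (r : ℝ) (A : H →ₗ[ℝ] H) : lift n (r • A) = r • lift n A :=
  map_smul (b0gLift n) r A

theorem b0g_lift_mul {n : ℕ} (A B : Module.End ℝ H) :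
    (lift n (A * B) : Module.End ℝ (T n H)) = lift n A * lift n B := lift_comp A B

theorem b0g_lift_one {n : ℕ} : (lift n (1 : Module.End ℝ H) : Module.End ℝ (T n H)) = 1 := by
  ext x a
  simp [lift]

theorem b0g_mat_lift {n : ℕ} (M : Matrix (Fin n) (Fin n) ℝ) (A : Module.End ℝ H) :
    (mat M : Module.End ℝ (T n H)) * lift n A = lift n A * mat M := mat_lift M A

/-- contraction with a vector -/
def b0gCon {n : ℕ} (u : Fin n → ℝ) : T n H →ₗ[ℝ] H where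
  toFun v := ∑ a, u a • v a
  map_add' x y := by simp [Finset.sum_add_distrib]
  map_smul' r x := by simp [Finset.smul_sum, smul_comm r]

theorem b0gCon_apply {n : ℕ} (u : Fin n → ℝ) (v : T n H) : b0gCon u v = ∑ a, u a • v a := rfl

/-- a skew map and a symmetric map commute under `S` -/
theorem b0g_S_comm {Θ : Type} [NormedAddCommGroup Θ] [InnerProductSpace ℝ Θ] [FiniteDimensional ℝ Θ]
    (C : Cl Θ F) {A K : Θ →ₗ[ℝ] Θ} (hA : IsSkew A) (hK : ∀ u v, ⟪K u, v⟫_ℝ = ⟪u, K v⟫_ℝ) :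
    C.S (A ∘ₗ K) = C.S (K ∘ₗ A) := by
  have h := C.S_symm (A ∘ₗ K - K ∘ₗ A) fun u v => by
    simp only [LinearMap.sub_apply, LinearMap.comp_apply, inner_sub_left, inner_sub_right, hA u, hK, hA (K u)]
    ring
  rw [map_sub, LinearMap.trace_comp_comm', sub_self, C.S_sub] at h
  simpa [sub_eq_zero] using h

theorem b0g_gamma3 (G : GammaNine) (j i k : Fin 9) :
    G.γ j * G.γ i * G.γ k + G.γ k * G.γ i * G.γ j =
      (if j = i then 2 else 0 : ℝ) • G.γ k - (if j = k then 2 else 0 : ℝ) • G.γ i +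
        (if i = k then 2 else 0 : ℝ) • G.γ j := by
  have h : ∀ a b, G.γ a * G.γ b = (if a = b then 2 else 0 : ℝ) • (1 : Matrix (Fin 16) (Fin 16) ℝ) - G.γ b * G.γ a := by
    intro a b
    rw [eq_sub_iff_add_eq, G.clifford]
    split_ifs
    · rw [two_smul, one_add_one_eq_two]
    · rw [zero_smul]
  have h1 : G.γ j * G.γ i * G.γ k = (if j = i then 2 else 0 : ℝ) • G.γ k - G.γ i * (G.γ j * G.γ k) := by
    rw [h j i, sub_mul, smul_mul_assoc, one_mul, mul_assoc]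
  have h2 : G.γ i * (G.γ j * G.γ k) = (if j = k then 2 else 0 : ℝ) • G.γ i - G.γ i * G.γ k * G.γ j := by
    rw [h j k, mul_sub, mul_smul_comm, mul_one, mul_assoc]
  have h3 : G.γ i * G.γ k * G.γ j = (if i = k then 2 else 0 : ℝ) • G.γ j - G.γ k * G.γ i * G.γ j := by
    rw [h i k, sub_mul, smul_mul_assoc, one_mul]
  rw [h1, h2, h3]
  abel

theorem b0g_sym_dot (M : Matrix (Fin 16) (Fin 16) ℝ) (u v : Fin 16 → ℝ) :
    u ⬝ᵥ M *ᵥ v = (Mᵀ *ᵥ u) ⬝ᵥ v := by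
  rw [Matrix.dotProduct_mulVec, Matrix.mulVec_transpose]

theorem b0g_s_gamma (σ : Spn) (k : Fin 9) : σ.s ⬝ᵥ σ.G.γ k *ᵥ σ.s = if k = 8 then 1 else 0 := by
  have h1 : σ.s ⬝ᵥ (σ.G.γ k * σ.G.γ 8) *ᵥ σ.s = σ.s ⬝ᵥ σ.G.γ k *ᵥ σ.s := by
    rw [← Matrix.mulVec_mulVec, σ.h8]
  have h2 : σ.s ⬝ᵥ (σ.G.γ 8 * σ.G.γ k) *ᵥ σ.s = σ.s ⬝ᵥ σ.G.γ k *ᵥ σ.s := by
    rw [← Matrix.mulVec_mulVec, b0g_sym_dot, σ.G.symm, σ.h8]
  have h3 := congrArg (fun M => σ.s ⬝ᵥ M *ᵥ σ.s) (σ.G.clifford k 8)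
  simp only [Matrix.add_mulVec, dotProduct_add, h1, h2] at h3
  split_ifs at h3 ⊢
  · rw [show (2 : Matrix (Fin 16) (Fin 16) ℝ) = 1 + 1 from one_add_one_eq_two.symm, Matrix.add_mulVec,
      Matrix.one_mulVec, dotProduct_add, σ.unit] at h3
    linarith
  · rw [Matrix.zero_mulVec, dotProduct_zero] at h3
    linarith

theorem b0g_T (σ : Spn) (j i k : Fin 9) :
    (σ.G.γ j *ᵥ σ.s) ⬝ᵥ σ.G.γ i *ᵥ (σ.G.γ k *ᵥ σ.s) =
      (if j = i then (if k = 8 then 1 else 0) else 0) - (if j = k then (if i = 8 then 1 else 0) else 0) +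
        (if i = k then (if j = 8 then 1 else 0) else 0) := by
  have h1 : ∀ j k, σ.s ⬝ᵥ (σ.G.γ j * σ.G.γ i * σ.G.γ k) *ᵥ σ.s =
      (σ.G.γ j *ᵥ σ.s) ⬝ᵥ σ.G.γ i *ᵥ (σ.G.γ k *ᵥ σ.s) := by
    intro j k
    rw [← Matrix.mulVec_mulVec, ← Matrix.mulVec_mulVec, b0g_sym_dot, σ.G.symm]
  have h2 : (σ.G.γ k *ᵥ σ.s) ⬝ᵥ σ.G.γ i *ᵥ (σ.G.γ j *ᵥ σ.s) =
      (σ.G.γ j *ᵥ σ.s) ⬝ᵥ σ.G.γ i *ᵥ (σ.G.γ k *ᵥ σ.s) := by
    rw [b0g_sym_dot, σ.G.symm, dotProduct_comm]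
  have h3 := congrArg (fun M => σ.s ⬝ᵥ M *ᵥ σ.s) (b0g_gamma3 σ.G j i k)
  simp only [Matrix.add_mulVec, Matrix.sub_mulVec, Matrix.smul_mulVec, dotProduct_add, dotProduct_sub,
    dotProduct_smul, h1, h2, b0g_s_gamma, smul_eq_mul] at h3
  have h4 : ∀ (c : Prop) [Decidable c] (x : ℝ), (if c then 2 else 0 : ℝ) * x = 2 * if c then x else 0 := by
    intro c _ x
    split_ifs <;> simp
  simp only [h4] at h3
  linarith

namespace Levi

/-- diagonal operators -/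
def b0gD (f : P → ℝ) : Module.End ℝ H := ∑ p, f p • D.pr p

theorem b0g_pr_D (p : P) (f : P → ℝ) : (D.pr p : Module.End ℝ H) * D.b0gD f = f p • D.pr p := by
  classical
  ext v
  simp only [b0gD, Module.End.mul_apply, LinearMap.sum_apply, LinearMap.smul_apply, map_sum, map_smul]
  rw [Finset.sum_eq_single p (fun q _ hq => by rw [D.pr_orth p q (Ne.symm hq), smul_zero]) (by simp), D.pr_idem]

theorem b0gD_mul (f g : P → ℝ) : D.b0gD f * D.b0gD g = D.b0gD fun p => f p * g p := by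
  rw [b0gD, Finset.sum_mul]
  simp only [smul_mul_assoc, b0g_pr_D, smul_smul]
  rfl

theorem b0gD_one : D.b0gD (fun _ => 1) = 1 := by
  ext v
  simp [b0gD, D.pr_sum]

theorem b0g_I_D (f : P → ℝ) : (D.I : Module.End ℝ H) * D.b0gD f = D.b0gD f * D.I := by
  ext v
  simp [b0gD, D.I_pr]

theorem b0g_adL_D (a : L) (f : P → ℝ) : (D.adL a : Module.End ℝ H) * D.b0gD f = D.b0gD f * D.adL a := by
  ext v
  simp [b0gD, D.adL_pr]

theorem b0g_I_I : (D.I : Module.End ℝ H) * D.I = -1 := by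
  ext v
  simp [D.I_cx.2]

theorem b0g_adZ (a : Z) : D.adZ a = (D.I : Module.End ℝ H) * D.b0gD fun p => D.α p a := by
  ext v
  simp [b0gD, adZ]

theorem b0g_Minv (z : X Z) : D.Minv z = D.b0gD fun p => (D.M p z ^ 2)⁻¹ := rfl

theorem b0g_Mop (z : X Z) : D.Mop z = D.b0gD fun p => D.M p z := rfl

theorem b0g_tr_D (f : P → ℝ) : LinearMap.trace ℝ H (D.b0gD f) = ∑ p, f p * D.m p := by
  simp [b0gD, D.trace_pr]

theorem b0g_tr_I_D (f : P → ℝ) : LinearMap.trace ℝ H ((D.I : Module.End ℝ H) * D.b0gD f) = 0 := by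
  simp [b0gD, Finset.mul_sum, Module.End.mul_eq_comp, D.trace_I_pr]

theorem b0g_tr_I_D_adL (f : P → ℝ) (a : L) :
    LinearMap.trace ℝ H ((D.I : Module.End ℝ H) * (D.b0gD f * D.adL a)) = 0 := by
  simp [b0gD, Finset.mul_sum, Finset.sum_mul, Module.End.mul_eq_comp, D.trL]

theorem b0g_D_sym (f : P → ℝ) (u v : H) : ⟪D.b0gD f u, v⟫_ℝ = ⟪u, D.b0gD f v⟫_ℝ := by
  simp [b0gD, sum_inner, inner_sum, real_inner_smul_left, real_inner_smul_right, D.pr_sym]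

theorem b0g_tr_D_adL (f : P → ℝ) (a : L) :
    LinearMap.trace ℝ H (D.b0gD f * (D.adL a : Module.End ℝ H)) = 0 := by
  rw [← b0g_adL_D, Module.End.mul_eq_comp]
  exact ea_trace_skew_symm (ea_adj_skew (D.isSkew_adL a))
    ((LinearMap.eq_adjoint_iff _ _).2 (D.b0g_D_sym f)).symm

/-- the central Yukawa matrix -/
def b0gY (G : GammaNine) (z : X Z) : Module.End ℝ (Th H) :=
  ∑ i, (mat (G.γ i) : Module.End ℝ (Th H)) * lift 16 (D.adZ (z i))

theorem b0g_J (G : GammaNine) (z : X Z) :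
    D.J G z = D.b0gY G z * lift 16 (D.b0gD fun p => (D.M p z)⁻¹) := by
  rw [J, b0gY, Finset.sum_comm, Finset.sum_mul]
  refine Finset.sum_congr rfl fun i _ => ?_
  rw [mul_assoc, ← b0g_lift_mul, b0g_adZ, mul_assoc, b0gD_mul, b0gD, Finset.mul_sum, b0g_lift_sum, Finset.mul_sum]
  refine Finset.sum_congr rfl fun p _ => ?_
  rw [mul_smul_comm, b0g_lift_smul, mul_smul_comm, div_eq_mul_inv]
  rfl

theorem b0g_adZ_D (a : Z) (f : P → ℝ) : (D.adZ a : Module.End ℝ H) * D.b0gD f = D.b0gD f * D.adZ a := by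
  rw [b0g_adZ, mul_assoc, b0gD_mul, ← mul_assoc, ← b0g_I_D, mul_assoc, b0gD_mul]
  simp only [mul_comm]

theorem b0g_adZ_adZ (a b : Z) : (D.adZ a : Module.End ℝ H) * D.adZ b =
    -D.b0gD fun p => D.α p a * D.α p b := by
  rw [b0g_adZ D b, ← mul_assoc, b0g_adZ, mul_assoc (D.I : Module.End ℝ H), ← b0g_I_D, ← mul_assoc, b0g_I_I,
    mul_assoc, b0gD_mul, neg_mul, one_mul]

theorem b0g_Y_D (G : GammaNine) (z : X Z) (f : P → ℝ) :
    D.b0gY G z * lift 16 (D.b0gD f) = lift 16 (D.b0gD f) * D.b0gY G z := by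
  rw [b0gY, Finset.sum_mul, Finset.mul_sum]
  refine Finset.sum_congr rfl fun i _ => ?_
  rw [mul_assoc, ← b0g_lift_mul, b0g_adZ_D, b0g_lift_mul, ← mul_assoc, b0g_mat_lift, mul_assoc]

theorem b0g_JM (G : GammaNine) {z : X Z} (hz : z ∈ D.reg) :
    (D.J G z : Module.End ℝ (Th H)) * lift 16 (D.Mop z) = D.b0gY G z := by
  rw [b0g_J, mul_assoc, ← b0g_lift_mul, b0g_Mop, b0gD_mul]
  simp only [fun p => inv_mul_cancel₀ (hz p).ne', b0gD_one, b0g_lift_one, mul_one]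

theorem b0g_JJ (G : GammaNine) {z : X Z} (hz : z ∈ D.reg) :
    (D.J G z : Module.End ℝ (Th H)) * D.J G z = -1 := by
  ext1 v
  simp [(D.isCx_J G hz).2]

theorem b0g_YY (G : GammaNine) {z : X Z} (hz : z ∈ D.reg) :
    D.b0gY G z * D.b0gY G z * lift 16 (D.Minv z) = -1 := by
  rw [← D.b0g_JJ G hz, b0g_J, mul_assoc (D.b0gY G z) (lift 16 _), ← mul_assoc (lift 16 _), ← b0g_Y_D, mul_assoc,
    mul_assoc, ← b0g_lift_mul, b0gD_mul, b0g_Minv]
  simp only [sq, mul_inv]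

theorem b0g_YJ (G : GammaNine) {z : X Z} (hz : z ∈ D.reg) :
    D.b0gY G z * D.J G z = -lift 16 (D.Mop z) := by
  have h : D.b0gY G z = lift 16 (D.Mop z) * (D.J G z : Module.End ℝ (Th H)) := by
    rw [b0g_J, ← mul_assoc, b0g_Mop, ← b0g_Y_D, mul_assoc, ← b0g_lift_mul, b0gD_mul]
    simp only [fun p => mul_inv_cancel₀ (hz p).ne', b0gD_one, b0g_lift_one, mul_one]
  rw [h, mul_assoc, D.b0g_JJ G hz, mul_neg, mul_one]

theorem b0g_adj_Y (G : GammaNine) (z : X Z) : LinearMap.adjoint (D.b0gY G z) = -D.b0gY G z := by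
  rw [b0gY, map_sum, ← Finset.sum_neg_distrib]
  refine Finset.sum_congr rfl fun i _ => ?_
  rw [Module.End.mul_eq_comp, LinearMap.adjoint_comp, ea_adj_skew (isSkew_lift (D.isSkew_adZ _)), adjoint_mat, G.symm,
    LinearMap.neg_comp, mat_lift]

theorem b0g_skew_Y (G : GammaNine) (z : X Z) : IsSkew (D.b0gY G z) := fun u v => by
  rw [← LinearMap.adjoint_inner_right, b0g_adj_Y, LinearMap.neg_apply, inner_neg_right]

theorem b0g_Y8 (G : GammaNine) (z : X Z) :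
    D.b0gY G z * mat (G.γ 8) + mat (G.γ 8) * D.b0gY G z = (2 : ℝ) • lift 16 (D.adZ (z 8)) := by
  have h : ∀ i, (mat (G.γ i) * lift 16 (D.adZ (z i))) * mat (G.γ 8) +
      mat (G.γ 8) * (mat (G.γ i) * lift 16 (D.adZ (z i))) =
      if i = 8 then (2 : ℝ) • (lift 16 (D.adZ (z i)) : Module.End ℝ (Th H)) else 0 := by
    intro i
    rw [mul_assoc, ← b0g_mat_lift, ← mul_assoc, ← mul_assoc, ← add_mul, Module.End.mul_eq_comp,
      Module.End.mul_eq_comp, Module.End.mul_eq_comp, ← mat_mul, ← mat_mul, ← mat_add, G.clifford]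
    split_ifs
    · rw [show (2 : Matrix (Fin 16) (Fin 16) ℝ) = (2 : ℝ) • 1 by rw [two_smul, one_add_one_eq_two], mat_smul,
        mat_one, LinearMap.smul_comp, LinearMap.id_comp]
    · rw [show (0 : Matrix (Fin 16) (Fin 16) ℝ) = (0 : ℝ) • 1 by rw [zero_smul], mat_smul, zero_smul,
        LinearMap.zero_comp]
  rw [b0gY, Finset.sum_mul, Finset.mul_sum, ← Finset.sum_add_distrib]
  simp only [h, Finset.sum_ite_eq', Finset.mem_univ, if_true]

theorem b0g_Y_apply (G : GammaNine) (z : X Z) (v : Th H) (β : Fin 16) :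
    D.b0gY G z v β = ∑ i, ∑ α, G.γ i β α • D.adZ (z i) (v α) := by
  simp [b0gY]

theorem b0g_Phi_adj (G : GammaNine) (u : Fin 16 → ℝ) (z : X Z) (v : Th H) :
    D.Phi z (LinearMap.adjoint (cmap G u : X H →ₗ[ℝ] Th H) v) = b0gCon u (D.b0gY G z v) := by
  simp only [Phi, ea_adj_cmap, b0gCon_apply, b0g_Y_apply, map_sum, map_smul, Finset.smul_sum, smul_smul]
  symm
  rw [Finset.sum_comm]
  refine Finset.sum_congr rfl fun i _ => ?_
  rw [Finset.sum_comm]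
  refine Finset.sum_congr rfl fun α _ => ?_
  rw [← Finset.sum_smul, ← G.symm i, Matrix.mulVec_transpose, G.symm i]
  rfl

theorem b0g_Y_tens (G : GammaNine) (u : Fin 16 → ℝ) (z : X Z) (t : H) :
    D.b0gY G z (tens u t) = ∑ i, tens (G.γ i *ᵥ u) (D.adZ (z i) t) := by
  simp only [b0gY, LinearMap.sum_apply, Module.End.mul_apply, lift_tens, mat_tens]

theorem b0g_c_lam (G : GammaNine) (u : Fin 16 → ℝ) (z : X Z) (t : H) :
    cmap G u (D.lam z t) = -D.b0gY G z (tens u (D.Minv z t)) := by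
  rw [cmap_eq_sum, b0g_Y_tens, ← Finset.sum_neg_distrib]
  refine Finset.sum_congr rfl fun i _ => ?_
  ext a
  simp [lam]

theorem b0g_cYc (σ : Spn) (z : X Z) (w' w : X H) :
    ⟪cmap σ.G σ.s w', D.b0gY σ.G z (cmap σ.G σ.s w)⟫_ℝ =
      -⟪D.Phi z w', w 8⟫_ℝ - ⟪w', lift 9 (D.adZ (z 8)) w⟫_ℝ + ⟪w' 8, D.Phi z w⟫_ℝ := by
  rw [cmap_eq_sum, cmap_eq_sum, map_sum, PiLp.inner_apply w']
  simp only [b0g_Y_tens, sum_inner, inner_sum, inner_tens, b0g_T, add_mul, sub_mul, Finset.sum_add_distrib,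
    Finset.sum_sub_distrib, ite_mul, zero_mul, one_mul, Finset.sum_ite_eq', Finset.mem_univ, if_true, Phi,
    lift_apply, D.isSkew_adZ _ _ _, Finset.sum_neg_distrib, neg_neg, Finset.sum_ite_irrel, Finset.sum_const_zero]

theorem b0g_A_adZ {n : ℕ} {A : Module.End ℝ (T n H)} (hp : ∀ p, A ∘ₗ lift n (D.pr p) = lift n (D.pr p) ∘ₗ A)
    (hI : A ∘ₗ lift n D.I = lift n D.I ∘ₗ A) (a : Z) : A * lift n (D.adZ a) = lift n (D.adZ a) * A := by
  have hp' : ∀ p, A * lift n (D.pr p) = lift n (D.pr p) * A := hp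
  have hI' : A * lift n D.I = lift n D.I * A := hI
  rw [b0g_adZ, b0g_lift_mul, ← mul_assoc, hI', mul_assoc, mul_assoc, b0gD, b0g_lift_sum, Finset.mul_sum,
    Finset.sum_mul]
  simp only [b0g_lift_smul, mul_smul_comm, smul_mul_assoc, hp']

theorem b0g_cAc (G : GammaNine) (u : Fin 16 → ℝ) (z : X Z) {A : X H →ₗ[ℝ] X H} (hA : ∀ y, A y = D.perp z y) :
    (cmap G u ∘ₗ A ∘ₗ LinearMap.adjoint (cmap G u : X H →ₗ[ℝ] Th H) : Module.End ℝ (Th H)) =
      mat (∑ i, Matrix.vecMulVec (G.γ i *ᵥ u) (G.γ i *ᵥ u)) +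
        D.b0gY G z * mat (Matrix.vecMulVec u u) * lift 16 (D.Minv z) * D.b0gY G z := by
  have h1 : (cmap G u : X H →ₗ[ℝ] Th H) ∘ₗ LinearMap.adjoint (cmap G u) =
      mat (∑ i, Matrix.vecMulVec (G.γ i *ᵥ u) (G.γ i *ᵥ u)) := by
    rw [cmap, adjoint_mat, ← mat_mul]
    refine congrArg mat ?_
    ext a b
    simp [Matrix.mul_apply, Matrix.sum_apply, Matrix.vecMulVec_apply]
  refine LinearMap.ext fun v => ?_
  rw [← h1]
  simp only [LinearMap.comp_apply, LinearMap.add_apply, Module.End.mul_apply, hA, perp, map_sub, b0g_c_lam,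
    b0g_Phi_adj, sub_neg_eq_add]
  congr 2
  ext a
  simp [b0gCon_apply, Matrix.vecMulVec_apply, Finset.smul_sum, smul_smul]

theorem _root_.Crest.Agent.R330.b0g_adj_self (i : Z →ₗᵢ[ℝ] E) (x : Z) : LinearMap.adjoint i.toLinearMap (i x) = x :=
  ext_inner_left ℝ fun v => by
    rw [LinearMap.adjoint_inner_right]
    exact i.inner_map_map _ _

theorem _root_.Crest.Agent.R330.b0g_adj_orth (i : Z →ₗᵢ[ℝ] E) {w : E} (h : ∀ v, ⟪i v, w⟫_ℝ = 0) :
    LinearMap.adjoint i.toLinearMap w = 0 :=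
  ext_inner_left ℝ fun v => by
    rw [LinearMap.adjoint_inner_right, inner_zero_right]
    exact h v

theorem _root_.Crest.Agent.R330.b0g_S_proj (C : Cl E F) (ι : Z →ₗ[ℝ] E) {A : E →ₗ[ℝ] E} (hA : IsSkew A) :
    C.S (A ∘ₗ (ι ∘ₗ LinearMap.adjoint ι) + (ι ∘ₗ LinearMap.adjoint ι) ∘ₗ A) =
      ∑ i, C.θ (A (ι (stdOrthonormalBasis ℝ Z i))) * C.θ (ι (stdOrthonormalBasis ℝ Z i)) := by
  have h := C.sum_θθ (A ∘ₗ ι) ι
  simp only [LinearMap.comp_apply] at h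
  rw [h, C.S_add, ← b0g_S_comm C hA, two_smul, LinearMap.comp_assoc]
  intro u v
  simp only [LinearMap.comp_apply]
  rw [← LinearMap.adjoint_inner_right, LinearMap.adjoint_inner_left]

theorem b0g_brHZ (ξ : H) (a : Z) : 𝔤.br (D.iH ξ) (D.iZ a) = D.iH (-D.adZ a ξ) := by
  rw [𝔤.anti, D.brZH, map_neg]
  simp [adZ]

theorem b0g_brHL (ξ : H) (a : L) : 𝔤.br (D.iH ξ) (D.iL a) = D.iH (-D.adL a ξ) := by
  rw [𝔤.anti, D.brLH, map_neg]

theorem b0g_br_split (ξ : H) : 𝔤.br (D.iH ξ) =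
    (𝔤.br (D.iH ξ) ∘ₗ (D.iZ.toLinearMap ∘ₗ LinearMap.adjoint D.iZ.toLinearMap) +
      (D.iZ.toLinearMap ∘ₗ LinearMap.adjoint D.iZ.toLinearMap) ∘ₗ 𝔤.br (D.iH ξ)) +
    (𝔤.br (D.iH ξ) ∘ₗ (D.iL.toLinearMap ∘ₗ LinearMap.adjoint D.iL.toLinearMap) +
      (D.iL.toLinearMap ∘ₗ LinearMap.adjoint D.iL.toLinearMap) ∘ₗ 𝔤.br (D.iH ξ)) +
    D.iH.toLinearMap ∘ₗ (LinearMap.adjoint D.iH.toLinearMap ∘ₗ 𝔤.br (D.iH ξ) ∘ₗ D.iH.toLinearMap) ∘ₗ
      LinearMap.adjoint D.iH.toLinearMap := by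
  have zl : ∀ b, LinearMap.adjoint D.iZ.toLinearMap (D.iL b) = 0 := fun b => b0g_adj_orth _ fun a => D.oZL a b
  have zh : ∀ b, LinearMap.adjoint D.iZ.toLinearMap (D.iH b) = 0 := fun b => b0g_adj_orth _ fun a => D.oZH a b
  have lh : ∀ b, LinearMap.adjoint D.iL.toLinearMap (D.iH b) = 0 := fun b => b0g_adj_orth _ fun a => D.oLH a b
  have lz : ∀ b, LinearMap.adjoint D.iL.toLinearMap (D.iZ b) = 0 := fun b => b0g_adj_orth _ fun a => by
    rw [real_inner_comm, D.oZL]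
  have hz : ∀ b, LinearMap.adjoint D.iH.toLinearMap (D.iZ b) = 0 := fun b => b0g_adj_orth _ fun a => by
    rw [real_inner_comm, D.oZH]
  have hl : ∀ b, LinearMap.adjoint D.iH.toLinearMap (D.iL b) = 0 := fun b => b0g_adj_orth _ fun a => by
    rw [real_inner_comm, D.oLH]
  refine LinearMap.ext fun v => ?_
  obtain ⟨a, b, c, rfl⟩ := D.span v
  obtain ⟨a', b', c', h⟩ := D.span (𝔤.br (D.iH ξ) (D.iH c))
  simp only [LinearMap.add_apply, LinearMap.comp_apply, map_add, LinearIsometry.coe_toLinearMap, b0g_adj_self, zl, zh,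
    lh, lz, hz, hl, b0g_brHZ, b0g_brHL, h, map_zero, add_zero, zero_add]

/-- the map `ξ ↦ (-N_α ξ)_α` -/
def _root_.Crest.Agent.R330.b0gRho (N : Fin 16 → H →ₗ[ℝ] H) : H →ₗ[ℝ] Th H where
  toFun ξ := WithLp.toLp 2 fun α => -N α ξ
  map_add' x y := by
    ext a
    simp [add_comm]
  map_smul' r x := by
    ext a
    simp

theorem b0g_S_split (C : Cl (Th E) F) (ξ : H) : ∃ B : Th H →ₗ[ℝ] Th H, C.S (lift 16 (𝔤.br (D.iH ξ))) =
    ∑ j, (D.CH C).θ (b0gRho (fun α => D.adZ (stdOrthonormalBasis ℝ (Th Z) j α)) ξ) *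
        (D.CZ C).θ (stdOrthonormalBasis ℝ (Th Z) j) +
      ∑ j, (D.CH C).θ (b0gRho (fun α => D.adL (stdOrthonormalBasis ℝ (Th L) j α)) ξ) *
        (D.CL C).θ (stdOrthonormalBasis ℝ (Th L) j) + (D.CH C).S B := by
  refine ⟨lift 16 (LinearMap.adjoint D.iH.toLinearMap ∘ₗ 𝔤.br (D.iH ξ) ∘ₗ D.iH.toLinearMap), ?_⟩
  have hadd : ∀ A B : E →ₗ[ℝ] E, lift 16 (A + B) = lift 16 A + lift 16 B := fun A B => map_add (b0gLift 16) A B
  have hs := isSkew_lift (n := 16) (𝔤.isSkew_br (D.iH ξ))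
  conv_lhs => rw [D.b0g_br_split ξ]
  rw [hadd, hadd, hadd, hadd, C.S_add, C.S_add]
  simp only [lift_comp (𝔤.br (D.iH ξ)), lift_comp _ (𝔤.br (D.iH ξ)), lift_comp D.iZ.toLinearMap,
    lift_comp D.iL.toLinearMap, lift_comp D.iH.toLinearMap, lift_comp _ (LinearMap.adjoint D.iH.toLinearMap),
    ← adjoint_lift]
  rw [b0g_S_proj C _ hs, b0g_S_proj C _ hs]
  congr 1
  · congr 1
    · refine Finset.sum_congr rfl fun j _ => ?_
      congr 1
      refine congrArg C.θ ?_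
      ext α
      simp [b0gRho, b0g_brHZ]
    · refine Finset.sum_congr rfl fun j _ => ?_
      congr 1
      refine congrArg C.θ ?_
      ext α
      simp [b0gRho, b0g_brHL]
  · exact (C.S_comap (liftI 16 D.iH) _).symm

/-- `Phi z` as a linear map -/
def b0gPhi (z : X Z) : X H →ₗ[ℝ] H where
  toFun := D.Phi z
  map_add' x y := by simp [Phi, Finset.sum_add_distrib]
  map_smul' r x := by simp [Phi, Finset.smul_sum]

theorem b0g_trace (G : GammaNine) (u : Fin 16 → ℝ) (z : X Z) (W : H →ₗ[ℝ] Th H) :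
    ∑ i, ⟪cmap G u (stdOrthonormalBasis ℝ (X H) i), W (D.Phi z (stdOrthonormalBasis ℝ (X H) i))⟫_ℝ =
      LinearMap.trace ℝ H (b0gCon u ∘ₗ D.b0gY G z ∘ₗ W) := by
  have h : b0gCon u ∘ₗ D.b0gY G z ∘ₗ W =
      D.b0gPhi z ∘ₗ (LinearMap.adjoint (cmap G u : X H →ₗ[ℝ] Th H) ∘ₗ W) :=
    LinearMap.ext fun t => (D.b0g_Phi_adj G u z (W t)).symm
  rw [h, LinearMap.trace_comp_comm', LinearMap.trace_eq_sum_inner _ (stdOrthonormalBasis ℝ (X H))]
  refine Finset.sum_congr rfl fun i _ => ?_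
  simp only [LinearMap.comp_apply, LinearMap.adjoint_inner_right]
  rfl

theorem b0g_re (G : GammaNine) (u : Fin 16 → ℝ) (z : X Z) (N : Fin 16 → Module.End ℝ H) :
    ∑ i, ⟪cmap G u (stdOrthonormalBasis ℝ (X H) i),
        b0gRho N (D.Minv z (D.Phi z (stdOrthonormalBasis ℝ (X H) i)))⟫_ℝ =
      -∑ i, ∑ α, (G.γ i *ᵥ u) α * LinearMap.trace ℝ H ((D.adZ (z i) : Module.End ℝ H) * N α * D.Minv z) := by
  refine (D.b0g_trace G u z (b0gRho N ∘ₗ D.Minv z)).trans ?_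
  have h : b0gCon u ∘ₗ D.b0gY G z ∘ₗ b0gRho N ∘ₗ D.Minv z =
      -∑ i, ∑ α, (G.γ i *ᵥ u) α • ((D.adZ (z i) : Module.End ℝ H) * N α * D.Minv z) := by
    refine LinearMap.ext fun t => ?_
    simp only [LinearMap.comp_apply, ← b0g_Phi_adj, Phi, ea_adj_cmap]
    simp [b0gRho]
  rw [h]
  simp only [map_neg, map_sum, map_smul, smul_eq_mul]

theorem b0g_im (G : GammaNine) (u : Fin 16 → ℝ) {z : X Z} (hz : z ∈ D.reg) (N : Fin 16 → Module.End ℝ H) :
    ∑ i, ⟪cmap G u (stdOrthonormalBasis ℝ (X H) i),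
        D.J G z (b0gRho N (D.Minv z (D.Phi z (stdOrthonormalBasis ℝ (X H) i))))⟫_ℝ =
      ∑ α, u α * LinearMap.trace ℝ H ((D.Mop z : Module.End ℝ H) * N α * D.Minv z) := by
  refine (D.b0g_trace G u z (D.J G z ∘ₗ b0gRho N ∘ₗ D.Minv z)).trans ?_
  have h : b0gCon u ∘ₗ D.b0gY G z ∘ₗ D.J G z ∘ₗ b0gRho N ∘ₗ D.Minv z =
      ∑ α, u α • ((D.Mop z : Module.End ℝ H) * N α * D.Minv z) := by
    refine LinearMap.ext fun t => ?_
    have h1 := LinearMap.congr_fun (D.b0g_YJ G hz) (b0gRho N (D.Minv z t))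
    rw [Module.End.mul_apply] at h1
    simp only [LinearMap.comp_apply, h1]
    simp [b0gRho, b0gCon_apply]
  rw [h]
  simp only [map_sum, map_smul, smul_eq_mul]

theorem b0g_reZ (G : GammaNine) (u : Fin 16 → ℝ) {z : X Z} (hz : z ∈ D.reg) (a : Th Z) :
    ∑ i, ⟪cmap G u (stdOrthonormalBasis ℝ (X H) i),
        b0gRho (fun α => D.adZ (a α)) (D.Minv z (D.Phi z (stdOrthonormalBasis ℝ (X H) i)))⟫_ℝ =
      ∑ p, D.m p / D.M p z * ⟪a, cmap G u (gradient (D.M p) z)⟫_ℝ := by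
  rw [b0g_re]
  simp only [b0g_adZ_adZ, b0g_Minv, neg_mul, b0gD_mul, map_neg, b0g_tr_D, mul_neg, Finset.sum_neg_distrib, neg_neg,
    Finset.mul_sum]
  have h : ∀ p, ⟪a, cmap G u (gradient (D.M p) z)⟫_ℝ =
      (∑ i, D.α p (z i) * ∑ α, (G.γ i *ᵥ u) α * D.α p (a α)) / D.M p z := by
    intro p
    rw [← LinearMap.adjoint_inner_left, real_inner_comm, gradient, InnerProductSpace.toDual_symm_apply,
      D.fderiv_M p hz]
    simp only [ea_adj_cmap, map_sum, map_smul, smul_eq_mul]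
  simp only [h, Finset.mul_sum, Finset.sum_div]
  symm
  rw [Finset.sum_comm]
  refine Finset.sum_congr rfl fun i _ => ?_
  rw [Finset.sum_comm]
  refine Finset.sum_congr rfl fun α _ => Finset.sum_congr rfl fun p _ => ?_
  have := (hz p).ne'
  field_simp

theorem b0g_imZ (G : GammaNine) (u : Fin 16 → ℝ) {z : X Z} (hz : z ∈ D.reg) (a : Th Z) :
    ∑ i, ⟪cmap G u (stdOrthonormalBasis ℝ (X H) i),
        D.J G z (b0gRho (fun α => D.adZ (a α)) (D.Minv z (D.Phi z (stdOrthonormalBasis ℝ (X H) i))))⟫_ℝ = 0 := by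
  rw [D.b0g_im G u hz]
  refine Finset.sum_eq_zero fun α _ => ?_
  rw [b0g_Mop, ← b0g_adZ_D, b0g_adZ, b0g_Minv, mul_assoc, mul_assoc, b0gD_mul, b0gD_mul, b0g_tr_I_D, mul_zero]

theorem b0g_reL (G : GammaNine) (u : Fin 16 → ℝ) (z : X Z) (a : Th L) :
    ∑ i, ⟪cmap G u (stdOrthonormalBasis ℝ (X H) i),
        b0gRho (fun α => D.adL (a α)) (D.Minv z (D.Phi z (stdOrthonormalBasis ℝ (X H) i)))⟫_ℝ = 0 := by
  rw [b0g_re, neg_eq_zero]
  refine Finset.sum_eq_zero fun i _ => Finset.sum_eq_zero fun α _ => ?_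
  rw [b0g_adZ, b0g_Minv, mul_assoc, b0g_adL_D, mul_assoc, ← mul_assoc (D.b0gD _), b0gD_mul, b0g_tr_I_D_adL, mul_zero]

theorem b0g_imL (G : GammaNine) (u : Fin 16 → ℝ) {z : X Z} (hz : z ∈ D.reg) (a : Th L) :
    ∑ i, ⟪cmap G u (stdOrthonormalBasis ℝ (X H) i),
        D.J G z (b0gRho (fun α => D.adL (a α)) (D.Minv z (D.Phi z (stdOrthonormalBasis ℝ (X H) i))))⟫_ℝ = 0 := by
  rw [D.b0g_im G u hz]
  refine Finset.sum_eq_zero fun α _ => ?_
  rw [b0g_Mop, b0g_Minv, mul_assoc, b0g_adL_D, ← mul_assoc, b0gD_mul, b0g_tr_D_adL, mul_zero]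

theorem b0g_Pi_three (C : Cl (Th E) F) (G : GammaNine) {z : X Z} (hz : z ∈ D.reg) (v w : Th H) (T : F →L[ℂ] F)
    (hT : D.Pi C G z * T = T * D.Pi C G z) :
    D.Pi C G z * ((D.CH C).θ v * ((D.CH C).θ w * T)) * D.Pi C G z =
      (1 / 2 * ((⟪v, w⟫_ℝ : ℝ) + Complex.I * (⟪v, D.J G z w⟫_ℝ : ℝ)) : ℂ) • (T * D.Pi C G z) := by
  have h := (D.CH C).vac_θθ_vac (D.isCx_J G hz) v w
  rw [← hT, ← smul_mul_assoc, Pi, ← h, ← Pi]
  simp only [mul_assoc, hT]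

theorem b0g_Pi_odd (C : Cl (Th E) F) (G : GammaNine) {z : X Z} (hz : z ∈ D.reg) (v : Th H) (B : Th H →ₗ[ℝ] Th H) :
    D.Pi C G z * ((D.CH C).θ v * (D.CH C).S B) * D.Pi C G z = 0 := by
  obtain ⟨h1, h2⟩ := D.Gam_Pi C G hz
  have h3 := (D.isPar_Gam C).2.2
  have h4 := (D.CH C).comm_S (D.Gam C) (Or.inr h3) B
  have h5 : D.Pi C G z * ((D.CH C).θ v * (D.CH C).S B) * D.Pi C G z =
      -(D.Pi C G z * ((D.CH C).θ v * (D.CH C).S B) * D.Pi C G z) := by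
    conv_lhs => rw [← h2, mul_assoc _ (D.Gam C), ← mul_assoc (D.Gam C), h3, neg_mul, mul_assoc _ (D.Gam C), h4]
    simp only [mul_neg, neg_mul, mul_assoc, h1, h2]
  have h6 : (2 : ℂ) • (D.Pi C G z * ((D.CH C).θ v * (D.CH C).S B) * D.Pi C G z) = 0 := by
    rw [two_smul]
    exact eq_neg_iff_add_eq_zero.1 h5
  exact (smul_eq_zero.1 h6).resolve_left two_ne_zero

/-- The cubic fermion term produced by the Gauss law, projected on the vacuum, is the gradient of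
the orbit volume:
`Π Σ_h θ(c h) S(ad(Minv Φ(z,h))) Π = ½ Σ_p m_p θ(c ∇ log M_p) Π`. -/
theorem Pi_cubic (C : Cl (Th E) F) (G : GammaNine) (u : Fin 16 → ℝ) {z : X Z} (hz : z ∈ D.reg) :
    D.Pi C G z * (∑ i, (D.CH C).θ (cmap G u (stdOrthonormalBasis ℝ (X H) i)) *
        C.S (lift 16 (𝔤.br (D.iH (D.Minv z (D.Phi z (stdOrthonormalBasis ℝ (X H) i))))))) *
        D.Pi C G z =
      (∑ p, ((D.m p / (2 * D.M p z) : ℝ) : ℂ) • (D.CZ C).θ (cmap G u (gradient (D.M p) z))) *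
        D.Pi C G z := by
  choose B hB using D.b0g_S_split C
  simp only [hB, mul_add, add_mul, Finset.mul_sum, Finset.sum_mul, Finset.sum_add_distrib, D.b0g_Pi_odd C G hz,
    D.b0g_Pi_three C G hz _ _ _ (D.Pi_comm_Z C G z _), D.b0g_Pi_three C G hz _ _ _ (D.Pi_comm_L C G z _),
    Finset.sum_const_zero, add_zero]
  rw [Finset.sum_comm, Finset.sum_comm (s := Finset.univ) (t := (Finset.univ : Finset (Fin (Module.finrank ℝ (Th L)))))]
  simp only [← Finset.sum_smul, Finset.sum_add_distrib, ← Finset.mul_sum, ← Complex.ofReal_sum, D.b0g_reZ G u hz,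
    D.b0g_imZ G u hz, D.b0g_reL G u z, D.b0g_imL G u hz]
  simp only [Complex.ofReal_zero, mul_zero, add_zero, zero_smul, Finset.sum_const_zero]
  conv_rhs => simp only [(D.CZ C).ab_θ_expand (cmap G u _), Finset.smul_sum, smul_smul, Finset.sum_mul, smul_mul_assoc]
  rw [Finset.sum_comm]
  refine Finset.sum_congr rfl fun j _ => ?_
  rw [← Finset.sum_smul]
  congr 1
  push_cast
  rw [Finset.mul_sum]
  refine Finset.sum_congr rfl fun p _ => ?_
  ring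

/-- The square of the zeroth order heavy operator: symmetrised fermion bilinear,
`-i Σ_h θ(c h^⊥) θ(𝒥 M c h^⊥) = i S(𝒥 M) - i S(ad z_8)`. -/
theorem heavy_bilinear (C : Cl (Th E) F) (σ : Spn) {z : X Z} (hz : z ∈ D.reg) :
    (-Complex.I) • ∑ i, (D.CH C).θ (cmap σ.G σ.s (D.perp z (stdOrthonormalBasis ℝ (X H) i))) *
        (D.CH C).θ (D.J σ.G z (lift 16 (D.Mop z)
          (cmap σ.G σ.s (D.perp z (stdOrthonormalBasis ℝ (X H) i))))) =
      (D.CH C).iS (D.J σ.G z ∘ₗ lift 16 (D.Mop z)) - (D.CH C).iS (lift 16 (D.adZ (z 8))) := by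
  obtain ⟨A, hA, hs, hi, -⟩ := D.exists_perp_lin z
  have hY : D.J σ.G z ∘ₗ lift 16 (D.Mop z) = D.b0gY σ.G z := D.b0g_JM σ.G hz
  set Y := D.b0gY σ.G z with hYdef
  set c : X H →ₗ[ℝ] Th H := cmap σ.G σ.s with hc
  set K : Module.End ℝ (Th H) := c ∘ₗ A ∘ₗ LinearMap.adjoint c with hK
  have hadj : LinearMap.adjoint A = A := ((LinearMap.eq_adjoint_iff _ _).2 hs).symm
  have h1 := (D.CH C).sum_θθ (c ∘ₗ A) (Y ∘ₗ c ∘ₗ A)
  have h2 : (c ∘ₗ A) ∘ₗ LinearMap.adjoint (Y ∘ₗ c ∘ₗ A) = -(K ∘ₗ Y) := by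
    rw [LinearMap.adjoint_comp, LinearMap.adjoint_comp, hadj, hYdef, b0g_adj_Y]
    refine LinearMap.ext fun v => ?_
    simp [hK, hi hz]
  have hKs : ∀ u v, ⟪K u, v⟫_ℝ = ⟪u, K v⟫_ℝ := fun u v => by
    simp only [hK, LinearMap.comp_apply]
    rw [← LinearMap.adjoint_inner_right, hs, LinearMap.adjoint_inner_left]
  have h3 := b0g_S_comm (D.CH C) (D.b0g_skew_Y σ.G z) hKs
  have h4 : Y * K + K * Y = Y - lift 16 (D.adZ (z 8)) := by
    have hYY := D.b0g_YY σ.G hz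
    have hYD : Y * lift 16 (D.Minv z) = lift 16 (D.Minv z) * Y := D.b0g_Y_D σ.G z _
    have hSD := b0g_mat_lift (Matrix.vecMulVec σ.s σ.s) (D.Minv z)
    have h8 := D.b0g_Y8 σ.G z
    rw [← hYdef] at hYY h8
    rw [hK, hc, D.b0g_cAc σ.G σ.s z hA, Spn.fierz σ.G σ.s σ.unit σ.h8, mat_add, mat_smul, ea_mat_sub, mat_one, ← hYdef]
    set S : Module.End ℝ (Th H) := mat (Matrix.vecMulVec σ.s σ.s)
    set N : Module.End ℝ (Th H) := lift 16 (D.Minv z)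
    set g : Module.End ℝ (Th H) := mat (σ.G.γ 8)
    have e1 : Y * (Y * S * N * Y) = -(S * Y) := by
      rw [mul_assoc Y S N, hSD, ← mul_assoc, ← mul_assoc, ← mul_assoc, hYY]
      simp
    have e2 : Y * S * N * Y * Y = -(Y * S) := by
      rw [mul_assoc _ Y Y, mul_assoc _ N, ← mul_assoc N, ← hYD, mul_assoc Y N, ← hYD, ← mul_assoc Y Y, hYY]
      simp
    have e3 : (lift 16 (D.adZ (z 8)) : Module.End ℝ (Th H)) = (1 / 2 : ℝ) • (Y * g + g * Y) := by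
      rw [h8, smul_smul]
      norm_num
    rw [mul_add, add_mul, e1, e2, e3, ← Module.End.one_eq_id]
    simp only [mul_add, add_mul, mul_smul_comm, smul_mul_assoc, mul_sub, sub_mul, mul_one, one_mul]
    module
  have h5 := congrArg (D.CH C).S h4
  rw [Cl.S_add, Cl.S_sub, Module.End.mul_eq_comp, Module.End.mul_eq_comp, h3] at h5
  simp only [LinearMap.comp_apply, hA] at h1
  have h6 : ∀ v, D.J σ.G z (lift 16 (D.Mop z) v) = Y v := fun v => LinearMap.congr_fun hY v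
  simp only [h6]
  rw [h1, h2, hY, Cl.S_neg, Cl.iS, Cl.iS, ← smul_sub, ← h5]
  module

/-- First order term of the square of the zeroth order heavy operator. -/
theorem heavy_first_order (σ : Spn) {z : X Z} (hz : z ∈ D.reg) (y h : X H) :
    ⟪cmap σ.G σ.s (D.perp z h), D.J σ.G z (lift 16 (D.Mop z) (cmap σ.G σ.s (D.perp z y)))⟫_ℝ =
      -⟪h, lift 9 (D.adZ (z 8)) (D.perp z y)⟫_ℝ := by
  obtain ⟨A, hA, hs, hi, hp, hI, -, -⟩ := D.exists_perp_lin z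
  have h1 := LinearMap.congr_fun (D.b0g_JM σ.G hz) (cmap σ.G σ.s (D.perp z y))
  have h2 := LinearMap.congr_fun (D.b0g_A_adZ hp hI (z 8)) (A y)
  rw [Module.End.mul_apply] at h1
  rw [Module.End.mul_apply, Module.End.mul_apply, hi hz] at h2
  rw [h1, b0g_cYc, D.Phi_perp hz, D.Phi_perp hz, ← hA h, hs, ← hA y, h2]
  simp


end Levi

end Crest.Agent.R330

end
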