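import Crest.Agent.R330.B0.A

/-! # Row 330, B0/H (statements frozen; see `R330/Blueprint.lean`) -/

set_option autoImplicit false
set_option linter.unusedSectionVars false

noncomputable section

open MeasureTheory Filter Topology
open scoped InnerProductSpace ContDiff Matrix
open Crest.MathPhysics.MatrixQM (GammaNine)

namespace Crest.Agent.R330

variable {E Z L H F : Type}
  [NormedAddCommGroup E] [InnerProductSpace ℝ E] [FiniteDimensional ℝ E]
  [NormedAddCommGroup Z] [InnerProductSpace ℝ Z] [FiniteDimensional ℝ Z]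
  [NormedAddCommGroup L] [InnerProductSpace ℝ L] [FiniteDimensional ℝ L]
  [NormedAddCommGroup H] [InnerProductSpace ℝ H] [FiniteDimensional ℝ H]
  [NormedAddCommGroup F] [InnerProductSpace ℂ F] [FiniteDimensional ℂ F]
  {P : Type} [Fintype P] {𝔤 : Lie E} (D : Levi 𝔤 Z L H P)

namespace Levi

variable [MeasurableSpace E] [BorelSpace E] [MeasurableSpace Z] [BorelSpace Z]
  [MeasurableSpace L] [BorelSpace L] [MeasurableSpace H] [BorelSpace H]

theorem b0H_mp {A B C V : Type} [NormedAddCommGroup A] [InnerProductSpace ℝ A] [FiniteDimensional ℝ A]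
    [MeasurableSpace A] [BorelSpace A] [NormedAddCommGroup B] [InnerProductSpace ℝ B]
    [FiniteDimensional ℝ B] [MeasurableSpace B] [BorelSpace B] [NormedAddCommGroup C]
    [InnerProductSpace ℝ C] [FiniteDimensional ℝ C] [MeasurableSpace C] [BorelSpace C]
    [NormedAddCommGroup V] [InnerProductSpace ℝ V] [FiniteDimensional ℝ V] [MeasurableSpace V]
    [BorelSpace V] (f : ((A × B) × C) ≃ₗ[ℝ] V)
    (hf : ∀ q, ‖f q‖ ^ 2 = ‖q.1.1‖ ^ 2 + ‖q.1.2‖ ^ 2 + ‖q.2‖ ^ 2) :
    MeasurePreserving f ((volume : Measure (A × B)).prod (volume : Measure C)) volume := by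
  let g : WithLp 2 (WithLp 2 (A × B) × C) ≃ₗᵢ[ℝ] V :=
    { toLinearEquiv := (WithLp.linearEquiv 2 ℝ _).trans
        (((WithLp.linearEquiv 2 ℝ (A × B)).prodCongr (LinearEquiv.refl ℝ C)).trans f)
      norm_map' := fun x => by
        refine (sq_eq_sq₀ (norm_nonneg _) (norm_nonneg _)).1 ((hf _).trans ?_)
        rw [WithLp.prod_norm_sq_eq_of_L2, WithLp.prod_norm_sq_eq_of_L2]
        rfl }
  exact g.measurePreserving.comp ((WithLp.volume_preserving_toLp (WithLp 2 (A × B)) C).comp
    ((WithLp.volume_preserving_toLp A B).prod (MeasurePreserving.id volume)))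

theorem measurePreserving_asm :
    MeasurePreserving (fun q : (X Z × X L) × X H => D.asm q.1.1 q.1.2 q.2)
      ((volume : Measure (X Z × X L)).prod (volume : Measure (X H))) volume := by
  obtain ⟨e, he⟩ := D.exists_asm_equiv
  have := b0H_mp e.toLinearEquiv fun q => by
    rw [ContinuousLinearEquiv.coe_toLinearEquiv, he, norm_asm_sq]
  rwa [show (e.toLinearEquiv : _ → X E) = _ from funext he] at this

/-- Fubini in adapted coordinates. -/
theorem integral_eq_fibre {W : Type} [NormedAddCommGroup W] [NormedSpace ℝ W] {h : X E → W}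
    (hh : Integrable h) : ∫ x, h x = ∫ q : X Z × X L, ∫ y, h (D.asm q.1 q.2 y) := by
  have hp := D.measurePreserving_asm
  rw [← integral_prod (fun q : (X Z × X L) × X H => h (D.asm q.1.1 q.1.2 q.2))
    ((hp.integrable_comp hh.aestronglyMeasurable).2 hh), ← integral_map hp.measurable.aemeasurable
    (hp.map_eq.symm ▸ hh.aestronglyMeasurable), hp.map_eq]

end Levi

end Crest.Agent.R330

end
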